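import Crest.Agent.R78F.TT
import Crest.Agent.R124.All

/-! # Row 78: assembly of S0104 -/

set_option autoImplicit false

namespace Crest.Agent.R78F

open Crest.Agent.R124

section
variable {p : ℕ} [Fact p.Prime] {H : Type} [NormedAddCommGroup H] [InnerProductSpace ℂ H]
  [CompleteSpace H] (F : DP p H)

/-- the creation and annihilation operators of the second factor -/
def S2 : Set (Op H) :=
  {x | ∃ m, x = F.L' m ∨ x = star (F.L' m) ∨ x = F.R' m ∨ x = star (F.R' m)}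

lemma S2_star : ∀ x ∈ S2 F, star x ∈ S2 F := by
  rintro x ⟨m, rfl | rfl | rfl | rfl⟩
  · exact ⟨m, .inr (.inl rfl)⟩
  · exact ⟨m, .inl (star_star _)⟩
  · exact ⟨m, .inr (.inr (.inr rfl))⟩
  · exact ⟨m, .inr (.inr (.inl (star_star _)))⟩

/-- the commutant of this set is the algebra `A` -/
def SA : Set (Op H) := S2 F ∪ Set.range fun k => F.L k + star (F.L k)

/-- the commutant of this set is the algebra `B` -/
def SB : Set (Op H) := (vnOf (S2 F) (S2_star F) : Set (Op H)) ∪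
  Set.range fun m => F.L' m + star (F.L' m)

lemma SA_star : ∀ x ∈ SA F, star x ∈ SA F := by
  rintro x (hx | ⟨k, rfl⟩)
  · exact .inl (S2_star F x hx)
  · exact .inr ⟨k, by simp [add_comm]⟩

lemma SB_star : ∀ x ∈ SB F, star x ∈ SB F := by
  rintro x (hx | ⟨k, rfl⟩)
  · exact .inl (star_mem (s := vnOf (S2 F) (S2_star F)) hx)
  · exact .inr ⟨k, by simp [add_comm]⟩

lemma L_mem (k : ZMod p) : F.L k ∈ vnOf (S2 F) (S2_star F) := by
  rw [mem_vnOf]
  rintro y ⟨m, rfl | rfl | rfl | rfl⟩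
  exacts [(F.cLL.c k m).symm, (F.cLL.cs k m).symm, (F.cLR.c k m).symm, (F.cLR.cs k m).symm]

lemma R_mem (k : ZMod p) : F.R k ∈ vnOf (S2 F) (S2_star F) := by
  rw [mem_vnOf]
  rintro y ⟨m, rfl | rfl | rfl | rfl⟩
  exacts [(F.cRL.c k m).symm, (F.cRL.cs k m).symm, (F.cRR.c k m).symm, (F.cRR.cs k m).symm]

lemma eh_of_mem {a b : Op H} (ha : a ∈ vnOf (SA F) (SA_star F)) (hb : b ∈ vnOf (SB F) (SB_star F)) :
    EH F a b := by
  have ha' := star_mem ha
  rw [mem_vnOf] at ha hb ha'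
  refine ⟨fun k => (ha _ (.inr ⟨k, rfl⟩)).symm, fun m => ⟨(ha _ (.inl ⟨m, .inl rfl⟩)).symm,
    (ha _ (.inl ⟨m, .inr (.inl rfl)⟩)).symm⟩, fun m => (hb _ (.inr ⟨m, rfl⟩)).symm,
    fun k => ⟨(hb _ (.inl (L_mem F k))).symm, (hb _ (.inl (star_mem (L_mem F k)))).symm⟩, ?_, ?_⟩
  · exact hb _ (.inl (mem_vnOf.2 fun y hy => ha y (.inl hy)))
  · exact hb _ (.inl (mem_vnOf.2 fun y hy => ha' y (.inl hy)))

lemma sigma_mem (k : ZMod p) : F.R k + star (F.R k) ∈ vnOf (SA F) (SA_star F) := by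
  rw [mem_vnOf]
  rintro y (hy | ⟨i, rfl⟩)
  · exact mem_vnOf.1 (add_mem (R_mem F k) (star_mem (R_mem F k))) y hy
  · exact F.fk.comm_s i k

lemma tau_mem (m : ZMod p ⊕ ZMod p) : F.R' m + star (F.R' m) ∈ vnOf (SB F) (SB_star F) := by
  rw [mem_vnOf]
  rintro y (hy | ⟨i, rfl⟩)
  · exact ((mem_vnOf.1 hy _ ⟨m, .inr (.inr (.inl rfl))⟩).add_left
      (mem_vnOf.1 hy _ ⟨m, .inr (.inr (.inr rfl))⟩)).symm
  · exact F.fk'.comm_s i m

end

section conj
variable {H : Type} [NormedAddCommGroup H] [InnerProductSpace ℂ H] [CompleteSpace H]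

lemma conj_star {u : Op H} (hu : star u = u) {S : Set (Op H)} (hS : ∀ x ∈ S, star x ∈ S) :
    ∀ x ∈ (fun y => u * y * u) '' S, star x ∈ (fun y => u * y * u) '' S := by
  rintro _ ⟨y, hy, rfl⟩
  exact ⟨star y, hS y hy, by simp [hu, mul_assoc]⟩

lemma commute_conj {u x y : Op H} (hu : u * u = 1) (h : Commute x y) :
    Commute (u * x * u) (u * y * u) := by
  have e : ∀ x y : Op H, u * x * u * (u * y * u) = u * (x * y) * u := fun x y => by
    calc u * x * u * (u * y * u) = u * x * (u * u) * y * u := by simp only [mul_assoc]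
      _ = _ := by rw [hu, mul_one, mul_assoc u]
  change _ = _
  rw [e, e, h.eq]

lemma conj_conj {u : Op H} (hu : u * u = 1) (x : Op H) : u * (u * x * u) * u = x := by
  calc u * (u * x * u) * u = (u * u) * x * (u * u) := by simp only [mul_assoc]
    _ = x := by rw [hu, one_mul, mul_one]

end conj

theorem s0104_of (hM : ModelStmt) (hE : EstStmt) (hL : LowStmt) :
    ∃ ε₀ : ℝ, 0 < ε₀ ∧ ∀ δ : ℝ, 0 < δ →
      ∃ (H : Type) (_ : NormedAddCommGroup H) (_ : InnerProductSpace ℂ H) (_ : CompleteSpace H)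
        (_ : TopologicalSpace.SeparableSpace H) (M N : VonNeumannAlgebra H),
        (∀ x ∈ M, ‖x‖ ≤ 1 → ∃ y ∈ N, ‖x - y‖ < δ) ∧
        ∀ u : H →L[ℂ] H, u ∈ unitary (H →L[ℂ] H) →
          (∀ x ∈ M, u * x * star u ∈ N) → ε₀ ≤ ‖u - 1‖ := by
  refine ⟨1 / 10, by norm_num, fun δ hδ => ?_⟩
  obtain ⟨C, hC0, hC⟩ := cbStmt.{0}
  obtain ⟨n, hn⟩ := exists_nat_gt (((C * 280 / δ) ^ 2) ^ 2)
  obtain ⟨p, hpn, hp⟩ := Nat.exists_infinite_primes (n + 5)
  haveI : Fact p.Prime := ⟨hp⟩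
  have hbig : C * (280 / √√(p : ℝ)) < δ := by
    have h1 : ((C * 280 / δ) ^ 2) ^ 2 < (p : ℝ) := hn.trans_le (by exact_mod_cast (by omega))
    have h2 : (C * 280 / δ) ^ 2 < √(p : ℝ) := Real.lt_sqrt_of_sq_lt h1
    have h3 : C * 280 / δ < √√(p : ℝ) := Real.lt_sqrt_of_sq_lt h2
    have h4 : 0 < √√(p : ℝ) := Real.sqrt_pos.2 (Real.sqrt_pos.2 (p_pos p))
    rw [div_lt_iff₀ hδ] at h3
    rw [← mul_div_assoc, div_lt_iff₀ h4]
    linarith
  obtain ⟨H, i1, i2, i3, i4, F, -⟩ := hM (ZMod p) (ZMod p ⊕ ZMod p)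
  have hu2 := uu_tt_sq F
  have hus := star_uu (tt F)
  have hun : ‖uu (tt F)‖ ≤ 1 := norm_unitary_le (uu_tt_unitary F)
  set u := uu (tt F) with hu
  refine ⟨H, i1, i2, i3, i4, vnOf _ (conj_star hus (SA_star F)),
    (vnOf (SB F) (SB_star F)).commutant, fun x hx hx1 => ?_, fun v hv hvM => ?_⟩
  · have ha : u * x * u ∈ vnOf (SA F) (SA_star F) := mem_vnOf.2 fun y hy => by
      have := commute_conj hu2 (mem_vnOf.1 hx _ ⟨y, hy, rfl⟩)
      rwa [conj_conj hu2] at this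
    have ha1 : ‖u * x * u‖ ≤ 1 := by
      calc ‖u * x * u‖ ≤ ‖u‖ * ‖x‖ * ‖u‖ := (norm_mul_le _ _).trans (by gcongr; exact norm_mul_le _ _)
        _ ≤ 1 * 1 * 1 := by gcongr
        _ = 1 := by ring
    have hD : DerB (vnOf (SB F) (SB_star F)).toStarSubalgebra x (280 / √√(p : ℝ)) := by
      intro b hb
      have := hE p (by omega) H F _ b (eh_of_mem F ha hb)
      rw [← hu, conj_conj hu2] at this
      refine this.trans ?_
      rw [div_mul_eq_mul_div]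
      gcongr
      linarith
    obtain ⟨y, hy, hxy⟩ := arvStmt.{0} H _ x _ (by positivity) (hC H _ x _ (by positivity) hD)
    exact ⟨y, VonNeumannAlgebra.mem_commutant_iff.2 fun b hb => (hy b hb).eq.symm,
      hxy.trans_lt hbig⟩
  · refine hL p (by omega) H F v hv fun k m => ?_
    have h1 : u * (F.R k + star (F.R k)) * u ∈ vnOf _ (conj_star hus (SA_star F)) :=
      mem_vnOf.2 (by
        rintro _ ⟨y, hy, rfl⟩
        exact commute_conj hu2 (mem_vnOf.1 (sigma_mem F k) y hy))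
    exact (VonNeumannAlgebra.mem_commutant_iff.1 (hvM _ h1) _ (tau_mem F m)).symm

end Crest.Agent.R78F
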