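import Crest.Agent.R78F.Seq

/-! # Row 78: assembly of S0105 -/

set_option autoImplicit false
set_option linter.unusedSectionVars false

namespace Crest.Agent.R78F

open Crest.Agent.R124

section
variable {H : Type} [NormedAddCommGroup H] [InnerProductSpace ℂ H] [CompleteSpace H]

/-- the C⋆-algebra generated by a set -/
noncomputable abbrev CS (s : Set (Op H)) : StarSubalgebra ℂ (Op H) :=
  (StarAlgebra.adjoin ℂ s).topologicalClosure

lemma mem_CS {s : Set (Op H)} {y : Op H} (h : y ∈ s) : y ∈ CS s :=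
  StarSubalgebra.le_topologicalClosure _ (StarAlgebra.subset_adjoin ℂ s h)

lemma commute_CS {s : Set (Op H)} {x : Op H} (h1 : ∀ y ∈ s, Commute x y)
    (h2 : ∀ y ∈ s, Commute x (star y)) : ∀ y ∈ CS s, Commute x y := by
  have h : ∀ y ∈ StarAlgebra.adjoin ℂ s, Commute x y ∧ Commute x (star y) := by
    intro y hy
    induction hy using StarAlgebra.adjoin_induction with
    | mem y hy => exact ⟨h1 y hy, h2 y hy⟩
    | algebraMap r =>
      refine ⟨(Algebra.commutes r x).symm, ?_⟩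
      rw [← algebraMap_star_comm]
      exact (Algebra.commutes _ x).symm
    | add y z _ _ hy hz => exact ⟨hy.1.add_right hz.1, by rw [star_add]; exact hy.2.add_right hz.2⟩
    | mul y z _ _ hy hz => exact ⟨hy.1.mul_right hz.1, by rw [star_mul]; exact hz.2.mul_right hy.2⟩
    | star y _ hy => exact ⟨hy.2, by rw [star_star]; exact hy.1⟩
  have hc : IsClosed {y : Op H | x * y = y * x} := isClosed_eq (by fun_prop) (by fun_prop)
  intro y hy
  exact closure_minimal (fun y hy => (h y hy).1) hc hy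

/-- conjugation of a star subalgebra by a unitary -/
noncomputable def conjS (U : Op H) (hU : U ∈ unitary (Op H)) (D : StarSubalgebra ℂ (Op H)) :
    StarSubalgebra ℂ (Op H) :=
  D.comap (Unitary.conjStarAlgAut ℂ (Op H) (star ⟨U, hU⟩)).toStarAlgHom

lemma mem_conjS {U : Op H} {hU : U ∈ unitary (Op H)} {D : StarSubalgebra ℂ (Op H)} {x : Op H} :
    x ∈ conjS U hU D ↔ star U * x * U ∈ D := by
  simp [conjS, StarSubalgebra.mem_comap]

lemma isClosed_conjS {U : Op H} {hU : U ∈ unitary (Op H)} {D : StarSubalgebra ℂ (Op H)}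
    (hD : IsClosed (D : Set (Op H))) : IsClosed (conjS U hU D : Set (Op H)) := by
  have : (conjS U hU D : Set (Op H)) = (fun x => star U * x * U) ⁻¹' D :=
    Set.ext fun x => mem_conjS
  rw [this]
  exact hD.preimage (by fun_prop)

lemma conj_back {U : Op H} (hU : U ∈ unitary (Op H)) (x : Op H) :
    star U * (U * x * star U) * U = x := by
  calc star U * (U * x * star U) * U = (star U * U) * x * (star U * U) := by simp only [mul_assoc]
    _ = x := by rw [Unitary.star_mul_self_of_mem hU, one_mul, mul_one]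

lemma conj_back' {U : Op H} (hU : U ∈ unitary (Op H)) (x : Op H) :
    U * (star U * x * U) * star U = x := by
  simpa using conj_back (Unitary.star_mem hU) x

lemma norm_sub_conj {U : Op H} (hU : U ∈ unitary (Op H)) (x : Op H) :
    ‖x - U * x * star U‖ ≤ 2 * ‖U - 1‖ * ‖x‖ := by
  have h1 : x - U * x * star U = -((U - 1) * x * star U) - x * star (U - 1) := by
    rw [star_sub, star_one]; noncomm_ring
  have h2 : ‖star U‖ ≤ 1 := norm_unitary_le (Unitary.star_mem hU)
  rw [h1]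
  refine (norm_sub_le _ _).trans ?_
  rw [norm_neg]
  have h3 : ‖(U - 1) * x * star U‖ ≤ ‖U - 1‖ * ‖x‖ * 1 :=
    (norm_mul_le _ _).trans (by gcongr; exact norm_mul_le _ _)
  have h4 : ‖x * star (U - 1)‖ ≤ ‖x‖ * ‖U - 1‖ := by
    rw [← norm_star (U - 1)]; exact norm_mul_le _ _
  linarith

end

theorem s0105_of (hM : ModelStmt) (hMob : MobStmt) (hA : SeqAStmt) (hB : SeqBStmt) (hS : SepStmt)
    (hN : NonConjStmt) (hL : LowBStmt) (ε : ℝ) (hε : 0 < ε) :
    ∃ (H : Type) (_ : NormedAddCommGroup H) (_ : InnerProductSpace ℂ H) (_ : CompleteSpace H)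
      (_ : TopologicalSpace.SeparableSpace H) (A B : StarSubalgebra ℂ (H →L[ℂ] H)),
      IsClosed (A : Set (H →L[ℂ] H)) ∧ IsClosed (B : Set (H →L[ℂ] H)) ∧
      TopologicalSpace.IsSeparable (A : Set (H →L[ℂ] H)) ∧
      TopologicalSpace.IsSeparable (B : Set (H →L[ℂ] H)) ∧
      (∀ a ∈ A, ‖a‖ ≤ 1 → ∃ b ∈ B, ‖b‖ ≤ 1 ∧ ‖a - b‖ < ε) ∧
      (∀ b ∈ B, ‖b‖ ≤ 1 → ∃ a ∈ A, ‖a‖ ≤ 1 ∧ ‖b - a‖ < ε) ∧
      Set.centralizer (Set.centralizer (A : Set (H →L[ℂ] H))) =
        Set.centralizer (Set.centralizer (B : Set (H →L[ℂ] H))) ∧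
      ¬ ∃ u : H →L[ℂ] H, u ∈ unitary (H →L[ℂ] H) ∧
          ∀ y : H →L[ℂ] H, y ∈ B ↔ ∃ x ∈ A, y = u * x * star u := by
  set c : ℝ := min (1 / 2) (ε / 100) with hc
  have hc0 : 0 < c := by positivity
  have hc1 : c ≤ 1 / 2 := min_le_left _ _
  have hc2 : c ≤ ε / 100 := min_le_right _ _
  obtain ⟨m, hm⟩ := exists_nat_gt (10 / c)
  have hm1 : (1 : ℝ) ≤ m := by
    refine le_trans ?_ hm.le
    rw [le_div_iff₀ hc0]; linarith
  rw [div_lt_iff₀ hc0] at hm
  obtain ⟨α, _, _, _, hcard⟩ : ∃ (α : Type) (_ : Fintype α) (_ : DecidableEq α) (_ : Nonempty α),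
      √(Fintype.card α : ℝ) = m + 1 := by
    refine ⟨Fin ((m + 1) * (m + 1)), inferInstance, inferInstance, ⟨⟨0, by positivity⟩⟩, ?_⟩
    rw [Fintype.card_fin]; push_cast
    exact Real.sqrt_mul_self (by positivity)
  obtain ⟨H, i1, i2, i3, i4, F, hcyc, E, hE⟩ := hM α α
  have := F.nontrivial
  obtain ⟨U, hU, hU1, hUR⟩ := hMob α H F c hc0 hc1
  obtain ⟨hb1, hb2, hb3⟩ := hL α H F c _ U hcyc hc0.le hU hUR
  rw [hcard] at hb2 hb3
  set J : StarSubalgebra ℂ (Op H) :=
    CS (Set.range (fun i => F.L i + star (F.L i)) ∪ Set.range F.R') with hJ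
  set D : StarSubalgebra ℂ (Op H) := CS (Set.range fun i => F.R' i + star (F.R' i)) with hD
  set D' := conjS U hU D with hD'
  have hJc : IsClosed (J : Set (Op H)) := StarSubalgebra.isClosed_topologicalClosure _
  have hDc : IsClosed (D : Set (Op H)) := StarSubalgebra.isClosed_topologicalClosure _
  have hD'c : IsClosed (D' : Set (Op H)) := isClosed_conjS hDc
  have hJs : TopologicalSpace.IsSeparable (J : Set (Op H)) :=
    hS.2 H _ ((Set.countable_range _).union (Set.countable_range _))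
  have hsJ : ∀ i, F.L i + star (F.L i) ∈ J := fun i => mem_CS (.inl ⟨i, rfl⟩)
  have hRJ : ∀ i, F.R' i ∈ J := fun i => mem_CS (.inr ⟨i, rfl⟩)
  have hτD : ∀ i, F.R' i + star (F.R' i) ∈ D := fun i => mem_CS ⟨i, rfl⟩
  have hDJ : D ≤ J := StarSubalgebra.topologicalClosure_minimal
    (StarAlgebra.adjoin_le (by rintro _ ⟨i, rfl⟩; exact add_mem (hRJ i) (star_mem (hRJ i)))) hJc
  have hD'J : D' ≤ J := by
    have h1 : D ≤ conjS (star U) (Unitary.star_mem hU) J := StarSubalgebra.topologicalClosure_minimal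
      (StarAlgebra.adjoin_le (by
        rintro _ ⟨i, rfl⟩
        rw [SetLike.mem_coe, mem_conjS, star_star]
        exact StarSubalgebra.le_topologicalClosure _ (hb1 i))) (isClosed_conjS hJc)
    intro x hx
    have h2 := h1 (mem_conjS.1 hx)
    rwa [mem_conjS, star_star, conj_back' hU] at h2
  have htJ : ∀ i, ∀ y ∈ J, Commute (F.R i + star (F.R i)) y := fun i => by
    refine commute_CS ?_ ?_
    · rintro _ (⟨j, rfl⟩ | ⟨j, rfl⟩)
      · exact (F.fk.comm_s j i).symm
      · exact (F.cRR.c i j).add_left (F.cRR.sc i j)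
    · rintro _ (⟨j, rfl⟩ | ⟨j, rfl⟩)
      · rw [star_add, star_star, add_comm (star (F.L j))]; exact (F.fk.comm_s j i).symm
      · exact (F.cRR.cs i j).add_left (F.cRR.ss i j)
  obtain ⟨A, hAe, hAc, hAs⟩ := hA H J D hDJ hJc hDc hJs
  obtain ⟨B, hBe, hBc, hBs⟩ := hA H J D' hD'J hJc hD'c hJs
  obtain ⟨hcent, hclose⟩ := hB H J D D' hDJ hD'J
  obtain ⟨-, hclose'⟩ := hB H J D' D hD'J hDJ
  have hmA : ∀ x, x ∈ A ↔ x ∈ SeqSet (J : Set (Op H)) D := fun x => by rw [← hAe]; rfl
  have hmB : ∀ x, x ∈ B ↔ x ∈ SeqSet (J : Set (Op H)) D' := fun x => by rw [← hBe]; rfl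
  refine ⟨KK H, inferInstance, inferInstance, inferInstance, hS.1 H, A, B, hAc, hBc, hAs, hBs,
    fun a ha ha1 => ?_, fun b hb hb1 => ?_, by rw [hAe, hBe, hcent], ?_⟩
  · obtain ⟨y, hy, hy1, hy2⟩ := hclose (40 * c) (by positivity) (fun d hd =>
      ⟨U * d * star U, by rwa [mem_conjS, conj_back hU],
        (norm_sub_conj hU d).trans (mul_le_mul_of_nonneg_right (by linarith) (norm_nonneg _))⟩) a ((hmA a).1 ha) ha1
    exact ⟨y, (hmB y).2 hy, hy1, by linarith⟩
  · obtain ⟨y, hy, hy1, hy2⟩ := hclose' (40 * c) (by positivity) (fun d hd =>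
      ⟨star U * d * U, mem_conjS.1 hd, by
        have h1 := norm_sub_conj (Unitary.star_mem hU) d
        have h2 : ‖star U - 1‖ = ‖U - 1‖ := by rw [← norm_star, star_sub, star_star, star_one]
        rw [star_star, h2] at h1
        exact h1.trans (mul_le_mul_of_nonneg_right (by linarith) (norm_nonneg _))⟩) b ((hmB b).1 hb) hb1
    exact ⟨y, (hmA y).2 hy, hy1, by linarith⟩
  · simp only [hmA, hmB]
    refine hN H J D D' α F.R (fun i => U * (F.R' i + star (F.R' i)) * star U) (m + 1 + 1)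
      (c * ((m : ℝ) + 1 - 1) ^ 2) E hD'J (by positivity) (by nlinarith) F.fk.row_R htJ
      (fun i => by rw [mem_conjS, conj_back hU]; exact hτD i)
      (fun i => by simp [mul_assoc, add_comm]) hb2
      (fun q hq hq0 hqq hqJ => hb3 q hq0 hqq (fun i => hqJ _ (hsJ i))
        (fun i => (htJ i q hq).symm) (fun i => hqJ _ (hRJ i)) fun i => hqJ _ (star_mem (hRJ i)))
      (fun x => ?_) hE.add hE.map_star
      (fun x hx => hE.fix x fun j => ⟨hx _ (hRJ j), hx _ (star_mem (hRJ j))⟩)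
      fun x hx => hE.col α x 1 hx
    refine commute_CS ?_ ?_
    · rintro _ ⟨j, rfl⟩
      exact (hE.comm x j).1.add_right (hE.comm x j).2
    · rintro _ ⟨j, rfl⟩
      rw [star_add, star_star]
      exact (hE.comm x j).2.add_right (hE.comm x j).1

end Crest.Agent.R78F
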