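import Crest.Agent.R78F.Defs

/-!
# Row 78: the commutator of `u a u` with `b` (ALG)
-/

set_option autoImplicit false

namespace Crest.Agent.R78F

open Crest.Agent.R124

namespace Alg

section ring
variable {R : Type*} [Ring R]

/-- the inner derivation -/
def d (c x : R) : R := x * c - c * x

lemma d_mul (c x y : R) : d c (x * y) = d c x * y + x * d c y := by
  simp only [d]; noncomm_ring

lemma d_add (c x y : R) : d c (x + y) = d c x + d c y := by
  simp only [d]; noncomm_ring

lemma d_sub (c x y : R) : d c (x - y) = d c x - d c y := by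
  simp only [d]; noncomm_ring

lemma d_neg (c x : R) : d c (-x) = - d c x := by
  simp only [d]; noncomm_ring

lemma d_one (c : R) : d c 1 = 0 := by simp [d]

lemma usq (t s : R) (tt : t * t = 0) (ss : s * s = 0) (tst : t * s * t = t)
    (sts : s * t * s = s) :
    (1 - s * t - t * s + t + s) * (1 - s * t - t * s + t + s) = 1 := by
  have h1 : (1 - s * t - t * s + t + s) * (1 - s * t - t * s + t + s) =
      1 - s * t - t * s + 2 * t + 2 * s + (s * t * s) * t + s * (t * t) * s - s * (t * t)
        - s * t * s + t * (s * s) * t + (t * s * t) * s - t * s * t - t * (s * s)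
        - t * s * t - (t * t) * s + t * t - (s * s) * t - s * t * s + s * s := by
    noncomm_ring
  rw [h1, tt, ss, tst, sts]; noncomm_ring

theorem key (t s q a b u : R) (hu : u = 1 - s * t - t * s + t + s)
    (tt : t * t = 0) (ss : s * s = 0) (tst : t * s * t = t)
    (sts : s * t * s = s) (qt : q * t = t) (sq : s * q = s) (qs : q * s = 0)
    (ae : d a (s * t) = 0) (aq : d a q = 0) (ab : d b a = 0) :
    d b (u * a * u) =
      (-(d b (d a t) * s + d a t * d b s + d b t * d a s + t * d b (d a s)) + d b (d a t)
          + d b (d a s)) * u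
        + (d a t * d b s - d b (d a t) * (1 - s * t)) * (1 + u)
        + (1 - t) * (d b (d a s) * (1 - q) * (1 - u) + d a s * d b t * (1 - s)
          + s * (d a t * d b s)) := by
  have uu : u * u = 1 := by rw [hu]; exact usq t s tt ss tst sts
  have h0 : u * a * u = d a u * u + a := by
    have : d a u * u + a = u * a * u - a * (u * u) + a := by simp only [d]; noncomm_ring
    rw [this, uu]; noncomm_ring
  have hdu : d a u = d a t * (1 - s) + (1 - t) * d a s := by
    rw [hu, d_add, d_add, d_sub, d_sub, d_one, ae, d_mul]; noncomm_ring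
  have hddu : d b (d a u) =
      -(d b (d a t) * s + d a t * d b s + d b t * d a s + t * d b (d a s)) + d b (d a t)
          + d b (d a s) := by
    rw [hdu, d_add, d_mul, d_mul, d_sub, d_sub, d_one]; noncomm_ring
  -- part (3)
  have hte : d a t = d a t * (s * t) := by
    have h := d_mul a t (s * t)
    rw [← mul_assoc, tst, ae, mul_zero, add_zero] at h
    exact h
  have hes : (s * t - s) * u = -(s * t - s) := by
    have : (s * t - s) * (1 - s * t - t * s + t + s) =
        s * t - (s * t * s) * t - s * (t * t) * s + s * (t * t) + s * t * s - s + (s * s) * t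
          + s * t * s - s * t - s * s := by noncomm_ring
    rw [hu, this, sts, tt, ss]; noncomm_ring
  have h3a : (s * t - s) * d b u = (d b s - d b (s * t)) * (1 + u) := by
    have h := congrArg (d b) hes
    rw [d_mul, d_neg, d_sub] at h
    have : (s * t - s) * d b u = -(d b (s * t) - d b s) - (d b (s * t) - d b s) * u := by
      rw [← h]; noncomm_ring
    rw [this]; noncomm_ring
  have h3b : d a t * d b (s * t) = d b (d a t) * (1 - s * t) := by
    have h := congrArg (d b) hte
    rw [d_mul] at h
    have : d a t * d b (s * t) = d b (d a t) - d b (d a t) * (s * t) := by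
      rw [eq_sub_iff_add_eq, add_comm]; exact h.symm
    rw [this]; noncomm_ring
  have h3 : d a t * (1 - s) * d b u = (d a t * d b s - d b (d a t) * (1 - s * t)) * (1 + u) := by
    have e1 : d a t * (1 - s) = d a t * (s * t - s) := by
      rw [mul_sub, mul_sub, mul_one, ← hte]
    rw [e1, mul_assoc, h3a, ← mul_assoc, mul_sub, h3b]
  -- part (4)
  have hsq : d a s = d a s * q := by
    have h := d_mul a s q
    rw [sq, aq, mul_zero, add_zero] at h
    exact h
  have hqu : q * u = q - t * s + t := by
    have : q * (1 - s * t - t * s + t + s) =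
        q - (q * s) * t - (q * t) * s + q * t + q * s := by noncomm_ring
    rw [hu, this, qs, qt]; noncomm_ring
  have h4a : q * d b u = d b q * (1 - u) - d b (t * s) + d b t := by
    have h := congrArg (d b) hqu
    rw [d_mul, d_add, d_sub] at h
    have : q * d b u = (d b q - d b (t * s) + d b t) - d b q * u := by
      rw [← h]; noncomm_ring
    rw [this]; noncomm_ring
  have h4b : d a s * d b q = d b (d a s) * (1 - q) := by
    have h := congrArg (d b) hsq
    rw [d_mul] at h
    have : d a s * d b q = d b (d a s) - d b (d a s) * q := by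
      rw [eq_sub_iff_add_eq, add_comm]; exact h.symm
    rw [this]; noncomm_ring
  have h4c : d a s * t = -(s * d a t) := by
    have h := d_mul a s t
    rw [ae] at h
    exact eq_neg_of_add_eq_zero_left h.symm
  have h4 : d a s * d b u = d b (d a s) * (1 - q) * (1 - u) + d a s * d b t * (1 - s)
      + s * (d a t * d b s) := by
    have e1 : d a s * d b u = d a s * (q * d b u) := by rw [← mul_assoc, ← hsq]
    have e2 : d a s * (d b q * (1 - u) - (d b t * s + t * d b s) + d b t) =
        (d a s * d b q) * (1 - u) - d a s * d b t * s - (d a s * t) * d b s + d a s * d b t := by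
      noncomm_ring
    rw [e1, h4a, d_mul, e2, h4b, h4c]; noncomm_ring
  rw [h0, d_add, ab, add_zero, d_mul, hddu, ← h3, ← h4]
  conv_lhs => rw [hdu]
  noncomm_ring

end ring

section norm
variable {H : Type} [NormedAddCommGroup H] [InnerProductSpace ℂ H] [CompleteSpace H]

lemma norm_le_one_of_proj {p : Op H} (h1 : star p = p) (h2 : p * p = p) : ‖p‖ ≤ 1 := by
  have h := CStarRing.norm_star_mul_self (x := p)
  rw [h1, h2] at h
  nlinarith [norm_nonneg p]

lemma mul_le {x y : Op H} {c e : ℝ} (hx : ‖x‖ ≤ c) (hy : ‖y‖ ≤ e) : ‖x * y‖ ≤ c * e :=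
  (norm_mul_le x y).trans (mul_le_mul hx hy (norm_nonneg _) ((norm_nonneg _).trans hx))

lemma add_le {x y : Op H} {c e : ℝ} (hx : ‖x‖ ≤ c) (hy : ‖y‖ ≤ e) : ‖x + y‖ ≤ c + e :=
  (norm_add_le x y).trans (add_le_add hx hy)

lemma sub_le {x y : Op H} {c e : ℝ} (hx : ‖x‖ ≤ c) (hy : ‖y‖ ≤ e) : ‖x - y‖ ≤ c + e :=
  (norm_sub_le x y).trans (add_le_add hx hy)

end norm

end Alg

open Alg in
theorem algStmt : AlgStmt := by
  intro H _ _ _ t q a b η tt tst hq qq qt tq ae aq ab h1 h1' h2 h2' h3
  have ss : star t * star t = 0 := by rw [← star_mul, tt, star_zero]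
  have sts : star t * t * star t = star t := by
    have := congrArg star tst
    simpa only [star_mul, star_star, mul_assoc] using this
  have sq : star t * q = star t := by
    have := congrArg star qt
    rwa [star_mul, hq] at this
  have qs : q * star t = 0 := by
    have := congrArg star tq
    rwa [star_mul, hq, star_zero] at this
  have k := key t (star t) q a b (uu t) rfl tt ss tst sts qt sq qs
    (by simp only [d]; rw [ae.eq, sub_self]) (by simp only [d]; rw [aq.eq, sub_self])
    (by simp only [d]; rw [ab.eq, sub_self])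
  have n1 : ‖(1 : Op H)‖ ≤ 1 := norm_le_one_of_proj (star_one _) (one_mul _)
  have ne : ‖star t * t‖ ≤ 1 := norm_le_one_of_proj (by rw [star_mul, star_star])
    (by rw [← mul_assoc, sts])
  have nt : ‖t‖ ≤ 1 := by
    have h := CStarRing.norm_star_mul_self (x := t)
    nlinarith [norm_nonneg t]
  have ns : ‖star t‖ ≤ 1 := by rwa [norm_star]
  have ne' : ‖1 - star t * t‖ ≤ 1 := norm_le_one_of_proj
    (by rw [star_sub, star_one, star_mul, star_star])
    (by
      have : (1 - star t * t) * (1 - star t * t) =
        1 - star t * t - star t * t + (star t * t * star t) * t := by noncomm_ring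
      rw [this, sts]; noncomm_ring)
  have nq : ‖1 - q‖ ≤ 1 := norm_le_one_of_proj (by rw [star_sub, star_one, hq])
    (by
      have : (1 - q) * (1 - q) = 1 - q - q + q * q := by noncomm_ring
      rw [this, qq]; noncomm_ring)
  have nu : ‖uu t‖ ≤ 1 := by
    have hs : star (uu t) = uu t := by
      simp only [uu, star_add, star_sub, star_one, star_mul, star_star]; abel
    have h := CStarRing.norm_star_mul_self (x := uu t)
    rw [hs] at h
    have h' : uu t * uu t = 1 := usq t (star t) tt ss tst sts
    rw [h'] at h
    nlinarith [norm_nonneg (uu t)]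
  have e1 : ‖d b (d a t)‖ ≤ η := h1
  have e1' : ‖d b (d a (star t))‖ ≤ η := h1'
  have e2 : ‖d a t * d b (star t)‖ ≤ η := h2
  have e2' : ‖d b t * d a (star t)‖ ≤ η := h2'
  have e3 : ‖d a (star t) * d b t‖ ≤ η := h3
  have hA : ‖-(d b (d a t) * star t + d a t * d b (star t) + d b t * d a (star t)
      + t * d b (d a (star t)))‖ ≤ η * 1 + η + η + 1 * η := by
    rw [norm_neg]
    exact add_le (add_le (add_le (mul_le e1 ns) e2) e2') (mul_le nt e1')
  have hB := add_le (add_le (mul_le (add_le (add_le hA e1) e1') nu)
    (mul_le (sub_le e2 (mul_le e1 ne')) (add_le n1 nu)))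
    (mul_le (sub_le n1 nt) (add_le (add_le (mul_le (mul_le e1' nq) (sub_le n1 nu))
      (mul_le e3 (sub_le n1 ns))) (mul_le ns e2)))
  rw [← k] at hB
  refine le_trans hB (le_of_eq ?_)
  ring

end Crest.Agent.R78F
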