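import Crest.Agent.R78F.Defs

/-! # Row 78 (S0104, S0105): basic calculus of rows, columns and Fock relations -/

set_option autoImplicit false
set_option linter.unusedSectionVars false

namespace Crest.Agent.R78F

open scoped InnerProductSpace ComplexConjugate
open Finset Filter Topology Crest.Agent.R124

variable {H : Type} [NormedAddCommGroup H] [InnerProductSpace ℂ H] [CompleteSpace H]

/-! ## rows and columns -/
section RC
variable {ι κ : Type} [Fintype ι] [Fintype κ] {x y : ι → Op H} {ρ σ : ℝ}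

lemma Col.mono (h : Col x ρ) (h0 : 0 ≤ ρ) (hle : ρ ≤ σ) : Col x σ := fun ξ =>
  (h ξ).trans (by gcongr)

lemma Col.sqrt_le (h : Col x ρ) (h0 : 0 ≤ ρ) (ξ : H) : √(∑ i, ‖x i ξ‖ ^ 2) ≤ ρ * ‖ξ‖ := by
  rw [Real.sqrt_le_left (by positivity), mul_pow]; exact h ξ

lemma col_of_sqrt (h : ∀ ξ, √(∑ i, ‖x i ξ‖ ^ 2) ≤ ρ * ‖ξ‖) : Col x ρ := fun ξ => by
  have h1 := h ξ
  have h2 : 0 ≤ ∑ i, ‖x i ξ‖ ^ 2 := by positivity
  calc ∑ i, ‖x i ξ‖ ^ 2 = √(∑ i, ‖x i ξ‖ ^ 2) ^ 2 := (Real.sq_sqrt h2).symm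
    _ ≤ (ρ * ‖ξ‖) ^ 2 := by gcongr
    _ = _ := by ring

lemma Col.norm_le (h : Col x ρ) (h0 : 0 ≤ ρ) (i : ι) : ‖x i‖ ≤ ρ := by
  refine ContinuousLinearMap.opNorm_le_bound _ h0 fun ξ => ?_
  have h1 : ‖x i ξ‖ ^ 2 ≤ ∑ i, ‖x i ξ‖ ^ 2 :=
    single_le_sum (f := fun i => ‖x i ξ‖ ^ 2) (fun _ _ => by positivity) (mem_univ i)
  have h2 := h1.trans (h ξ)
  rw [← mul_pow] at h2
  exact (pow_le_pow_iff_left₀ (norm_nonneg _) (by positivity) two_ne_zero).1 h2

lemma Row.norm_le (h : Row x ρ) (h0 : 0 ≤ ρ) (i : ι) : ‖x i‖ ≤ ρ := by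
  simpa using Col.norm_le h h0 i

lemma Col.comp (h : Col x ρ) (f : κ → ι) (hf : Function.Injective f) :
    Col (fun k => x (f k)) ρ := fun ξ => by
  classical
  refine le_trans ?_ (h ξ)
  rw [← sum_image (s := univ) (g := f) (f := fun i => ‖x i ξ‖ ^ 2) fun a _ b _ hab => hf hab]
  exact sum_le_sum_of_subset_of_nonneg (subset_univ _) fun _ _ _ => by positivity

lemma Row.comp (h : Row x ρ) (f : κ → ι) (hf : Function.Injective f) :
    Row (fun k => x (f k)) ρ := Col.comp h f hf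

/-- Minkowski's inequality for finite families of vectors -/
lemma sqrt_sum_add_le (u v : ι → H) :
    √(∑ i, ‖u i + v i‖ ^ 2) ≤ √(∑ i, ‖u i‖ ^ 2) + √(∑ i, ‖v i‖ ^ 2) := by
  have h := norm_add_le (WithLp.toLp 2 u : PiLp 2 fun _ : ι => H) (WithLp.toLp 2 v)
  rw [← WithLp.toLp_add] at h
  simpa only [PiLp.norm_eq_of_L2, Pi.add_apply] using h

lemma Col.add (hx : Col x ρ) (hy : Col y σ) (h0 : 0 ≤ ρ) (h1 : 0 ≤ σ) :
    Col (fun i => x i + y i) (ρ + σ) := col_of_sqrt fun ξ => by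
  simp only [add_apply]
  refine (sqrt_sum_add_le _ _).trans ?_
  rw [add_mul]
  exact add_le_add (hx.sqrt_le h0 ξ) (hy.sqrt_le h1 ξ)

lemma Col.neg (hx : Col x ρ) : Col (fun i => -x i) ρ := fun ξ => by simpa using hx ξ

lemma Col.sub (hx : Col x ρ) (hy : Col y σ) (h0 : 0 ≤ ρ) (h1 : 0 ≤ σ) :
    Col (fun i => x i - y i) (ρ + σ) := by
  simpa only [sub_eq_add_neg] using hx.add hy.neg h0 h1

lemma Col.mul_right (hx : Col x ρ) (a : Op H) : Col (fun i => x i * a) (ρ * ‖a‖) := fun ξ => by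
  simp only [mul_apply_eq_comp]
  refine (hx (a ξ)).trans ?_
  rw [mul_pow, mul_assoc, ← mul_pow ‖a‖]
  gcongr
  exact a.le_opNorm ξ

lemma Col.mul_left (hx : Col x ρ) (a : Op H) : Col (fun i => a * x i) (‖a‖ * ρ) := fun ξ => by
  simp only [mul_apply_eq_comp]
  calc ∑ i, ‖a (x i ξ)‖ ^ 2 ≤ ∑ i, ‖a‖ ^ 2 * ‖x i ξ‖ ^ 2 := by
        refine sum_le_sum fun i _ => ?_
        rw [← mul_pow]
        gcongr
        exact a.le_opNorm _
    _ = ‖a‖ ^ 2 * ∑ i, ‖x i ξ‖ ^ 2 := by rw [mul_sum]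
    _ ≤ ‖a‖ ^ 2 * (ρ ^ 2 * ‖ξ‖ ^ 2) := by gcongr; exact hx ξ
    _ = _ := by ring

/-- the product of two columns is a column indexed by pairs -/
lemma Col.prod {z : κ → Op H} (hx : Col x ρ) (hz : Col z σ) :
    Col (fun ij : ι × κ => x ij.1 * z ij.2) (ρ * σ) := fun ξ => by
  simp only [mul_apply_eq_comp]
  rw [Fintype.sum_prod_type_right]
  calc ∑ j, ∑ i, ‖x i (z j ξ)‖ ^ 2 ≤ ∑ j, ρ ^ 2 * ‖z j ξ‖ ^ 2 := sum_le_sum fun j _ => hx _
    _ = ρ ^ 2 * ∑ j, ‖z j ξ‖ ^ 2 := by rw [mul_sum]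
    _ ≤ ρ ^ 2 * (σ ^ 2 * ‖ξ‖ ^ 2) := by gcongr; exact hz ξ
    _ = _ := by ring

lemma Col.prod' {z : κ → Op H} (hx : Col x ρ) (hz : Col z σ) :
    Col (fun ij : κ × ι => x ij.2 * z ij.1) (ρ * σ) :=
  (hx.prod hz).comp Prod.swap Prod.swap_injective

/-- the product of two rows is a row indexed by pairs -/
lemma Row.prod {z : κ → Op H} (hx : Row x ρ) (hz : Row z σ) :
    Row (fun ij : ι × κ => x ij.1 * z ij.2) (ρ * σ) := by
  have := Col.prod' hz hx
  rw [mul_comm]
  simpa only [Row, star_mul] using this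

lemma row_star_iff : Row (fun i => star (x i)) ρ ↔ Col x ρ := by simp only [Row, star_star]

/-- a row times a column -/
lemma norm_sum_mul_le (hx : Row x ρ) (hy : Col y σ) (h0 : 0 ≤ ρ) (h1 : 0 ≤ σ) :
    ‖∑ i, x i * y i‖ ≤ ρ * σ := by
  refine norm_le_of_inner _ (by positivity) fun ξ η => ?_
  simp only [_root_.sum_apply, mul_apply_eq_comp, inner_sum]
  have : ∀ i, ⟪η, x i (y i ξ)⟫_ℂ = ⟪star (x i) η, y i ξ⟫_ℂ := fun i => (inner_star_left _ _ _).symm
  simp only [this]
  refine (norm_sum_inner_le _ _ _).trans ?_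
  calc _ ≤ (ρ * ‖η‖) * (σ * ‖ξ‖) := by
        gcongr
        · exact Col.sqrt_le hx h0 η
        · exact hy.sqrt_le h1 ξ
    _ = _ := by ring

lemma sum_normSq_eq (x : ι → Op H) (ξ : H) :
    ∑ i, ‖x i ξ‖ ^ 2 = (⟪ξ, (∑ i, star (x i) * x i) ξ⟫_ℂ).re := by
  simp only [_root_.sum_apply, mul_apply_eq_comp, inner_sum,
    inner_star_right, Complex.re_sum]
  refine sum_congr rfl fun i _ => ?_
  rw [← inner_self_eq_norm_sq (𝕜 := ℂ)]; rfl

lemma col_of_norm_sum (h : ‖∑ i, star (x i) * x i‖ ≤ ρ ^ 2) : Col x ρ := fun ξ => by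
  rw [sum_normSq_eq]
  calc _ ≤ ‖⟪ξ, (∑ i, star (x i) * x i) ξ⟫_ℂ‖ := Complex.re_le_norm _
    _ ≤ ‖ξ‖ * ‖(∑ i, star (x i) * x i) ξ‖ := norm_inner_le_norm _ _
    _ ≤ ‖ξ‖ * (ρ ^ 2 * ‖ξ‖) := by
        gcongr
        exact (ContinuousLinearMap.le_opNorm _ _).trans (by gcongr)
    _ = _ := by ring

end RC

/-! ## isometries with orthogonal ranges -/
section Iso
variable {α : Type} [Fintype α] [DecidableEq α] {L : α → Op H}

lemma norm_le_one_of_proj {e : Op H} (h1 : star e = e) (h2 : e * e = e) : ‖e‖ ≤ 1 :=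
  IsStarProjection.norm_le e ⟨h2, h1⟩

lemma norm_one_sub_le_of_proj {e : Op H} (h1 : star e = e) (h2 : e * e = e) : ‖1 - e‖ ≤ 1 :=
  IsStarProjection.norm_le _ (IsStarProjection.one_sub ⟨h2, h1⟩)

lemma star_vac (L : α → Op H) : star (vac L) = vac L := by
  simp [vac, star_sum]

lemma star_mul_vac (h : ∀ i j, star (L i) * L j = if i = j then 1 else 0) (i : α) :
    star (L i) * vac L = 0 := by
  simp only [vac, mul_sub, mul_sum, ← mul_assoc, h, mul_one]
  simp

lemma vac_mul (h : ∀ i j, star (L i) * L j = if i = j then 1 else 0) (i : α) :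
    vac L * L i = 0 := by
  have := congrArg star (star_mul_vac h i)
  simpa [star_vac] using this

lemma vac_mul_vac (h : ∀ i j, star (L i) * L j = if i = j then 1 else 0) :
    vac L * vac L = vac L := by
  have : (∑ i, L i * star (L i)) * vac L = 0 := by
    simp [sum_mul, mul_assoc, star_mul_vac h]
  calc vac L * vac L = (1 - ∑ i, L i * star (L i)) * vac L := rfl
    _ = vac L := by rw [sub_mul, one_mul, this, sub_zero]

lemma sum_mul_star_eq (L : α → Op H) : ∑ i, L i * star (L i) = 1 - vac L := by simp [vac]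

lemma row_of_iso (h : ∀ i j, star (L i) * L j = if i = j then 1 else 0) : Row L 1 := by
  refine col_of_norm_sum ?_
  simp only [star_star, sum_mul_star_eq, one_pow]
  exact norm_one_sub_le_of_proj (star_vac L) (vac_mul_vac h)

lemma inner_iso (h : ∀ i j, star (L i) * L j = if i = j then 1 else 0) (i j : α) (ξ η : H) :
    ⟪L i ξ, L j η⟫_ℂ = if i = j then ⟪ξ, η⟫_ℂ else 0 := by
  rw [← inner_star_right, ← mul_apply_eq_comp, h]
  split_ifs <;> simp

lemma norm_iso_apply (h : ∀ i j, star (L i) * L j = if i = j then 1 else 0) (i : α) (ξ : H) :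
    ‖L i ξ‖ = ‖ξ‖ := by
  have := inner_iso h i i ξ ξ
  rw [if_pos rfl, inner_self_eq_norm_sq_to_K, inner_self_eq_norm_sq_to_K] at this
  have h2 : ‖L i ξ‖ ^ 2 = ‖ξ‖ ^ 2 := by exact_mod_cast this
  exact (pow_left_inj₀ (norm_nonneg _) (norm_nonneg _) two_ne_zero).1 h2

lemma col_of_iso (h : ∀ i j, star (L i) * L j = if i = j then 1 else 0) :
    Col L √(Fintype.card α : ℝ) := fun ξ => by
  simp [norm_iso_apply h, Real.sq_sqrt]

lemma commute_vac {z : Op H} (h1 : ∀ i, Commute z (L i)) (h2 : ∀ i, Commute z (star (L i))) :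
    Commute z (vac L) :=
  (Commute.one_right z).sub_right (Commute.sum_right _ _ _ fun i _ => (h1 i).mul_right (h2 i))

end Iso

/-! ## Fock relations -/
section Fock
variable {α : Type} [Fintype α] [DecidableEq α] {L R : α → Op H}

lemma Fk.row_L (h : Fk L R) : Row L 1 := row_of_iso h.ll
lemma Fk.row_R (h : Fk L R) : Row R 1 := row_of_iso h.rr
lemma Fk.col_sL (h : Fk L R) : Col (fun i => star (L i)) 1 := row_of_iso h.ll
lemma Fk.col_sR (h : Fk L R) : Col (fun i => star (R i)) 1 := row_of_iso h.rr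
lemma Fk.col_L (h : Fk L R) : Col L √(Fintype.card α : ℝ) := col_of_iso h.ll
lemma Fk.col_R (h : Fk L R) : Col R √(Fintype.card α : ℝ) := col_of_iso h.rr
lemma Fk.norm_L (h : Fk L R) (i : α) : ‖L i‖ ≤ 1 := h.row_L.norm_le zero_le_one i
lemma Fk.norm_R (h : Fk L R) (i : α) : ‖R i‖ ≤ 1 := h.row_R.norm_le zero_le_one i
lemma Fk.sL_vac (h : Fk L R) (i : α) : star (L i) * vac L = 0 := star_mul_vac h.ll i
lemma Fk.vac_L (h : Fk L R) (i : α) : vac L * L i = 0 := vac_mul h.ll i
lemma Fk.sR_vac (h : Fk L R) (i : α) : star (R i) * vac L = 0 := h.vr ▸ star_mul_vac h.rr i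
lemma Fk.vac_R (h : Fk L R) (i : α) : vac L * R i = 0 := h.vr ▸ vac_mul h.rr i
lemma Fk.vac_vac (h : Fk L R) : vac L * vac L = vac L := vac_mul_vac h.ll
lemma Fk.ll_same (h : Fk L R) (i : α) : star (L i) * L i = 1 := by simp [h.ll]
lemma Fk.ll_ne (h : Fk L R) {i j : α} (hij : i ≠ j) : star (L i) * L j = 0 := by simp [h.ll, hij]
lemma Fk.rr_same (h : Fk L R) (i : α) : star (R i) * R i = 1 := by simp [h.rr]
lemma Fk.rr_ne (h : Fk L R) {i j : α} (hij : i ≠ j) : star (R i) * R j = 0 := by simp [h.rr, hij]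

lemma Fk.srl (h : Fk L R) (i j : α) :
    star (R j) * L i - L i * star (R j) = if i = j then vac L else 0 := by
  have := congrArg star (h.slr i j)
  simp only [star_sub, star_mul, star_star] at this
  rw [this]
  split_ifs <;> simp [star_vac]

lemma Fk.slsr (h : Fk L R) (i j : α) : Commute (star (L i)) (star (R j)) := (h.lr i j).star_star

/-- left and right semicirculars commute -/
lemma Fk.comm_s (h : Fk L R) (i j : α) : Commute (L i + star (L i)) (R j + star (R j)) := by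
  have h1 := h.slr i j
  have h2 := h.srl i j
  have h3 := (h.lr i j).eq
  have h4 := (h.slsr i j).eq
  rw [← h2] at h1
  change (L i + star (L i)) * (R j + star (R j)) = (R j + star (R j)) * (L i + star (L i))
  rw [add_mul, add_mul, mul_add, mul_add, mul_add, mul_add, h3, h4]
  linear_combination (norm := abel_nf) h1

end Fock

lemma DComm.symm {α β : Type} {x : α → Op H} {y : β → Op H} (h : DComm x y) : DComm y x :=
  fun j i => ⟨(h i j).1.symm, by simpa using (h i j).2.star_star.symm⟩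

lemma DComm.c {α β : Type} {x : α → Op H} {y : β → Op H} (h : DComm x y) (i : α) (j : β) :
    Commute (x i) (y j) := (h i j).1

lemma DComm.cs {α β : Type} {x : α → Op H} {y : β → Op H} (h : DComm x y) (i : α) (j : β) :
    Commute (x i) (star (y j)) := (h i j).2

lemma DComm.sc {α β : Type} {x : α → Op H} {y : β → Op H} (h : DComm x y) (i : α) (j : β) :
    Commute (star (x i)) (y j) := by simpa using (h i j).2.star_star

lemma DComm.ss {α β : Type} {x : α → Op H} {y : β → Op H} (h : DComm x y) (i : α) (j : β) :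
    Commute (star (x i)) (star (y j)) := (h i j).1.star_star

lemma DComm.vac {α β : Type} [Fintype β] [DecidableEq β] {x : α → Op H} {y : β → Op H}
    (h : DComm x y) (i : α) : Commute (x i) (vac y) := commute_vac (h.c i) (h.cs i)

lemma DComm.svac {α β : Type} [Fintype β] [DecidableEq β] {x : α → Op H} {y : β → Op H}
    (h : DComm x y) (i : α) : Commute (star (x i)) (R78F.vac y) := commute_vac (h.sc i) (h.ss i)

lemma commute_apply {x y : Op H} (h : Commute x y) (ξ : H) : x (y ξ) = y (x ξ) :=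
  congrArg (fun T : Op H => T ξ) h.eq

/-! ## the vacuum vector -/
section Vacuum
variable {α : Type} [Fintype α] [DecidableEq α] {L R : α → Op H} {Ω : H}

lemma vac_apply_eq (h : ∀ i, star (L i) Ω = 0) : vac L Ω = Ω := by
  simp [vac, h]

lemma Fk.sR_apply (hF : Fk L R) (h : vac L Ω = Ω) (i : α) : star (R i) Ω = 0 := by
  rw [← h, ← mul_apply_eq_comp, hF.sR_vac]; rfl

lemma Fk.sL_apply (hF : Fk L R) (h : vac L Ω = Ω) (i : α) : star (L i) Ω = 0 := by
  rw [← h, ← mul_apply_eq_comp, hF.sL_vac]; rfl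

lemma Fk.R_apply (hF : Fk L R) (h : vac L Ω = Ω) (i : α) : R i Ω = L i Ω := by
  rw [← h, ← mul_apply_eq_comp, ← hF.lv]; rfl

end Vacuum

section DFfacts
variable {α β : Type} [Fintype α] [DecidableEq α] [Fintype β] [DecidableEq β] (F : DF α β H)

lemma DF.vacΩ : vac F.L F.Ω = F.Ω := vac_apply_eq F.LΩ
lemma DF.vac'Ω : vac F.L' F.Ω = F.Ω := vac_apply_eq F.L'Ω
lemma DF.RΩ (i : α) : star (F.R i) F.Ω = 0 := F.fk.sR_apply F.vacΩ i
lemma DF.R'Ω (j : β) : star (F.R' j) F.Ω = 0 := F.fk'.sR_apply F.vac'Ω j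
lemma DF.R_Ω (i : α) : F.R i F.Ω = F.L i F.Ω := F.fk.R_apply F.vacΩ i
lemma DF.R'_Ω (j : β) : F.R' j F.Ω = F.L' j F.Ω := F.fk'.R_apply F.vac'Ω j
lemma DF.inner_Ω : ⟪F.Ω, F.Ω⟫_ℂ = 1 := by rw [inner_self_eq_norm_sq_to_K, F.norm_Ω]; simp
lemma DF.Ω_ne : F.Ω ≠ 0 := fun h => by simpa [h] using F.norm_Ω
include F in
lemma DF.nontrivial : Nontrivial H := ⟨⟨_, _, F.Ω_ne⟩⟩
lemma DF.vac_comm : Commute (vac F.L) (vac F.L') :=
  (commute_vac (fun i => (F.cLL.vac i).symm) fun i => (F.cLL.svac i).symm).symm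

end DFfacts

/-! ## the commutator `Dc` -/
section Dc
variable {l a : Op H}

lemma cm_star_eq (l a : Op H) : cm (star l) a = Dc l a := rfl

lemma Dc_eq (h : Commute a (l + star l)) : Dc l a = a * l - l * a := by
  have := h.eq
  rw [mul_add, add_mul] at this
  rw [Dc]
  rw [sub_eq_sub_iff_add_eq_add, this, add_comm]

lemma cm_eq_neg (h : Commute a (l + star l)) : cm l a = -Dc l a := by
  rw [Dc_eq h, cm, neg_sub]

lemma commute_star_s (h : Commute a (l + star l)) : Commute (star a) (l + star l) := by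
  have := h.star_star
  rwa [star_add, star_star, add_comm] at this

lemma star_Dc (h : Commute a (l + star l)) : star (Dc l a) = Dc l (star a) := by
  rw [Dc_eq h, Dc, star_sub, star_mul, star_mul]

lemma commute_Dc {z : Op H} (h1 : Commute z (star l)) (h2 : Commute z a) : Commute z (Dc l a) :=
  (h1.mul_right h2).sub_right (h2.mul_right h1)

variable {α : Type} [Fintype α] [DecidableEq α] {L : α → Op H}

lemma star_mul_Dc (h : ∀ i j, star (L i) * L j = if i = j then 1 else 0)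
    (ha : ∀ k, Commute a (L k + star (L k))) (k k' : α) :
    star (L k) * Dc (L k') a = Dc (L k) a * L k' := by
  rw [Dc_eq (ha k'), Dc, mul_sub, sub_mul, ← mul_assoc, ← mul_assoc, mul_assoc a, h]
  split_ifs <;> simp

lemma col_Dc (h : ∀ i j, star (L i) * L j = if i = j then 1 else 0) (a : Op H) :
    Col (fun k => Dc (L k) a) (2 * ‖a‖) := by
  have h1 : Col (fun i => star (L i)) 1 := row_of_iso h
  have := (h1.mul_right a).sub (h1.mul_left a) (by positivity) (by positivity)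
  rwa [show 1 * ‖a‖ + ‖a‖ * 1 = 2 * ‖a‖ by ring] at this

lemma row_Dc (h : ∀ i j, star (L i) * L j = if i = j then 1 else 0)
    (ha : ∀ k, Commute a (L k + star (L k))) : Row (fun k => Dc (L k) a) (2 * ‖a‖) := by
  have := col_Dc h (star a)
  rw [norm_star] at this
  simpa only [Row, star_Dc (ha _)] using this

end Dc

/-! ## the unitary `uu t` -/
section UU
variable {t : Op H}

lemma star_uu (t : Op H) : star (uu t) = uu t := by
  simp only [uu, star_add, star_sub, star_mul, star_star, star_one]; abel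

lemma uu_mul_uu (h0 : t * t = 0) (h1 : t * star t * t = t) : uu t * uu t = 1 := by
  have h0' : star t * star t = 0 := by rw [← star_mul, h0, star_zero]
  have h1' : star t * t * star t = star t := by
    have := congrArg star h1
    simpa only [star_mul, star_star, mul_assoc] using this
  have a0 : ∀ z, t * (t * z) = 0 := fun z => by rw [← mul_assoc, h0, zero_mul]
  have a0' : ∀ z, star t * (star t * z) = 0 := fun z => by rw [← mul_assoc, h0', zero_mul]
  rw [mul_assoc] at h1 h1'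
  simp only [uu, mul_add, add_mul, mul_sub, sub_mul, mul_assoc, one_mul, mul_one, a0, a0',
    h0, h0', h1, h1', mul_zero]
  abel

lemma uu_mem_unitary (h0 : t * t = 0) (h1 : t * star t * t = t) : uu t ∈ unitary (Op H) := by
  rw [Unitary.mem_iff, star_uu, uu_mul_uu h0 h1]; exact ⟨rfl, rfl⟩

lemma norm_le_one_of_pi (h1 : t * star t * t = t) : ‖t‖ ≤ 1 := by
  have h2 : ‖star t * t‖ ≤ 1 := norm_le_one_of_proj (by simp)
    (by rw [mul_assoc, ← mul_assoc t, h1])
  rw [CStarRing.norm_star_mul_self] at h2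
  nlinarith [norm_nonneg t]

end UU

/-! ## von Neumann algebras as commutants -/

/-- the commutant of a self-adjoint set -/
noncomputable def vnOf (S : Set (Op H)) (hS : ∀ x ∈ S, star x ∈ S) : VonNeumannAlgebra H where
  toStarSubalgebra :=
    { carrier := S.centralizer
      mul_mem' := Set.mul_mem_centralizer
      one_mem' := Set.one_mem_centralizer
      add_mem' := Set.add_mem_centralizer
      zero_mem' := Set.zero_mem_centralizer
      algebraMap_mem' := fun c y _ => (Algebra.commutes c y).symm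
      star_mem' := fun {x} hx y hy => by
        have := congrArg star (hx _ (hS y hy))
        simpa using this.symm }
  centralizer_centralizer' := Set.centralizer_centralizer_centralizer S

lemma mem_vnOf {S : Set (Op H)} {hS : ∀ x ∈ S, star x ∈ S} {x : Op H} :
    x ∈ vnOf S hS ↔ ∀ y ∈ S, Commute y x := Iff.rfl

end Crest.Agent.R78F
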