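import Crest.Agent.R124.Basic

/-!
# Row 78 (S0104, S0105): interface

Two counterexamples built on a double full Fock space.  Every intermediate statement is a
`def …Stmt : Prop`, proved in its own file.  `Op H = H →L[ℂ] H` and `cm Y x = Y * x - x * Y`
come from `Crest.Agent.R124`.
-/

set_option autoImplicit false

namespace Crest.Agent.R78F

open scoped InnerProductSpace ComplexConjugate
open Finset Filter Topology Crest.Agent.R124

section defs
variable {H : Type} [NormedAddCommGroup H] [InnerProductSpace ℂ H] [CompleteSpace H]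

/-- the column `(x i)ᵢ` has norm at most `ρ` -/
def Col {ι : Type} [Fintype ι] (x : ι → Op H) (ρ : ℝ) : Prop :=
  ∀ ξ : H, ∑ i, ‖x i ξ‖ ^ 2 ≤ ρ ^ 2 * ‖ξ‖ ^ 2

/-- the row `(x i)ᵢ` has norm at most `ρ` -/
def Row {ι : Type} [Fintype ι] (x : ι → Op H) (ρ : ℝ) : Prop :=
  Col (fun i => star (x i)) ρ

/-- the vacuum projection of a family of isometries with orthogonal ranges -/
noncomputable def vac {α : Type} [Fintype α] (L : α → Op H) : Op H :=
  1 - ∑ i, L i * star (L i)

/-- the relations of left and right creation operators on a full Fock space -/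
structure Fk {α : Type} [Fintype α] [DecidableEq α] (L R : α → Op H) : Prop where
  ll : ∀ i j, star (L i) * L j = if i = j then 1 else 0
  rr : ∀ i j, star (R i) * R j = if i = j then 1 else 0
  lr : ∀ i j, Commute (L i) (R j)
  slr : ∀ i j, star (L i) * R j - R j * star (L i) = if i = j then vac L else 0
  vr : vac R = vac L
  lv : ∀ i, L i * vac L = R i * vac L

/-- two families that commute together with their adjoints -/
def DComm {α β : Type} (x : α → Op H) (y : β → Op H) : Prop :=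
  ∀ i j, Commute (x i) (y j) ∧ Commute (x i) (star (y j))

/-- the commutator with an annihilation operator -/
noncomputable def Dc (l a : Op H) : Op H := star l * a - a * star l

/-- the self-adjoint unitary of a partial isometry with `t² = 0` -/
noncomputable def uu (t : Op H) : Op H := 1 - star t * t - t * star t + t + star t

end defs

/-- a double Fock space: two commuting Fock structures with a common vacuum vector -/
structure DF (α β : Type) [Fintype α] [DecidableEq α] [Fintype β] [DecidableEq β] (H : Type)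
    [NormedAddCommGroup H] [InnerProductSpace ℂ H] [CompleteSpace H] where
  L : α → Op H
  R : α → Op H
  L' : β → Op H
  R' : β → Op H
  Ω : H
  fk : Fk L R
  fk' : Fk L' R'
  cLL : DComm L L'
  cLR : DComm L R'
  cRL : DComm R L'
  cRR : DComm R R'
  norm_Ω : ‖Ω‖ = 1
  LΩ : ∀ i, star (L i) Ω = 0
  L'Ω : ∀ j, star (L' j) Ω = 0

section DFdefs
variable {α β : Type} [Fintype α] [DecidableEq α] [Fintype β] [DecidableEq β] {H : Type}
  [NormedAddCommGroup H] [InnerProductSpace ℂ H] [CompleteSpace H]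

/-- the vacuum is cyclic for the left semicirculars of the first factor and the right creation
operators of the second -/
def DF.Cyc (F : DF α β H) : Prop :=
  ∀ z : Op H, (∀ i, Commute z (F.L i + star (F.L i))) → (∀ j, Commute z (F.R' j)) →
    z F.Ω = 0 → z = 0

/-- `E` is a slice map onto the commutant of the family `S` (and adjoints) -/
structure IsSlice {γ : Type} (S : γ → Op H) (E : Op H → Op H) : Prop where
  comm : ∀ x j, Commute (E x) (S j) ∧ Commute (E x) (star (S j))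
  add : ∀ x y, E (x + y) = E x + E y
  map_star : ∀ x, E (star x) = star (E x)
  fix : ∀ x, (∀ j, Commute x (S j) ∧ Commute x (star (S j))) → E x = x
  col : ∀ (ι : Type) [Fintype ι] (x : ι → Op H) (ρ : ℝ), Col x ρ → Col (fun i => E (x i)) ρ

end DFdefs

/-- MODEL: the double Fock space exists -/
def ModelStmt : Prop :=
  ∀ (α β : Type) [Fintype α] [DecidableEq α] [Fintype β] [DecidableEq β],
    ∃ (H : Type) (_ : NormedAddCommGroup H) (_ : InnerProductSpace ℂ H) (_ : CompleteSpace H)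
      (_ : TopologicalSpace.SeparableSpace H) (F : DF α β H),
      F.Cyc ∧ ∃ E : Op H → Op H, IsSlice F.R' E

/-! ## S0104 -/

section S104
variable (p : ℕ) [Fact p.Prime] {H : Type} [NormedAddCommGroup H] [InnerProductSpace ℂ H]
  [CompleteSpace H]

/-- the chirp coefficients `p^{-1/2} ψ(k² j)` -/
noncomputable def cf (k j : ZMod p) : ℂ :=
  ((√(p : ℝ))⁻¹ : ℝ) * ZMod.stdAddChar (k ^ 2 * j)

/-- the first quadratic form -/
noncomputable def GC (Y X : ZMod p → ZMod p → Op H) : Op H :=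
  ∑ k, ∑ j, ∑ k', (conj (cf p k j) * cf p k' (j + k - k')) • (Y j (j + k - k') * X k k')

/-- the second quadratic form -/
noncomputable def GE (Y X : ZMod p → ZMod p → Op H) : Op H :=
  ∑ k, ∑ k', ∑ j, (cf p k j * conj (cf p k' j)) • (Y (j + k) (j + k') * X k k')

variable {p}

/-- the double Fock space used for S0104 -/
abbrev DP (p : ℕ) [Fact p.Prime] (H : Type) [NormedAddCommGroup H] [InnerProductSpace ℂ H]
    [CompleteSpace H] := DF (ZMod p) (ZMod p ⊕ ZMod p) H

/-- the partial isometry `t = ∑ c(k,j) l_k λ_{j+k} μ_j⋆` -/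
noncomputable def tt (F : DP p H) : Op H :=
  ∑ k, ∑ j, cf p k j • (F.L k * F.L' (.inl (j + k)) * star (F.L' (.inr j)))

/-- the range projection of the `λ`'s -/
noncomputable def qq (F : DP p H) : Op H := ∑ i, F.L' (.inl i) * star (F.L' (.inl i))

/-- the range projection of the `μ`'s -/
noncomputable def ee (F : DP p H) : Op H := ∑ j, F.L' (.inr j) * star (F.L' (.inr j))

/-- hypotheses on the pair `a`, `b` in the commutator estimate -/
structure EH (F : DP p H) (a b : Op H) : Prop where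
  as : ∀ k, Commute a (F.L k + star (F.L k))
  aL : ∀ m, Commute a (F.L' m) ∧ Commute a (star (F.L' m))
  bs : ∀ m, Commute b (F.L' m + star (F.L' m))
  bL : ∀ k, Commute b (F.L k) ∧ Commute b (star (F.L k))
  ab : Commute a b
  sab : Commute (star a) b

noncomputable def Z1 (F : DP p H) (a b : Op H) : Op H :=
  ∑ k, ∑ j, cf p k j • (Dc (F.L k) a * F.L' (.inl (j + k)) * Dc (F.L' (.inr j)) b)

noncomputable def Z2 (F : DP p H) (a b : Op H) : Op H :=
  ∑ k, ∑ j, cf p k j • (Dc (F.L k) a * Dc (F.L' (.inl (j + k))) b * star (F.L' (.inr j)))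

noncomputable def S3 (F : DP p H) (a b : Op H) : Op H :=
  GE p (fun i i' => F.L' (.inl i) * Dc (F.L' (.inl i')) b) (fun k k' => Dc (F.L k) a * star (F.L k'))

noncomputable def S4 (F : DP p H) (a b : Op H) : Op H :=
  GC p (fun j j' => F.L' (.inr j) * Dc (F.L' (.inr j')) b) (fun k k' => Dc (F.L k) a * F.L k')

end S104

/-- FOUR: the two Fourier estimates -/
def FourStmt : Prop :=
  ∀ (p : ℕ) [Fact p.Prime], p ≠ 2 →
    ∀ (H : Type) [NormedAddCommGroup H] [InnerProductSpace ℂ H] [CompleteSpace H]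
      (Y X : ZMod p → ZMod p → Op H) (a b : ℝ), 0 ≤ a → 0 ≤ b →
      Row (fun ij : ZMod p × ZMod p => Y ij.1 ij.2) b → ‖∑ j, Y j j‖ ≤ b →
      Col (fun kk : ZMod p × ZMod p => X kk.1 kk.2) a →
      ‖GC p Y X‖ ≤ 2 * a * b / √(p : ℝ) ∧ ‖GE p Y X‖ ≤ 2 * a * b / √(p : ℝ)

/-- ALG: the commutator of `u a u` with `b` in terms of five second order quantities -/
def AlgStmt : Prop :=
  ∀ (H : Type) [NormedAddCommGroup H] [InnerProductSpace ℂ H] [CompleteSpace H]
    (t q a b : Op H) (η : ℝ), t * t = 0 → t * star t * t = t → star q = q → q * q = q →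
    q * t = t → t * q = 0 → Commute a (star t * t) → Commute a q → Commute a b →
    ‖cm (cm t a) b‖ ≤ η → ‖cm (cm (star t) a) b‖ ≤ η → ‖cm t a * cm (star t) b‖ ≤ η →
    ‖cm t b * cm (star t) a‖ ≤ η → ‖cm (star t) a * cm t b‖ ≤ η →
    ‖cm (uu t * a * uu t) b‖ ≤ 20 * η

/-- ZN: norm bounds -/
def ZNStmt : Prop :=
  ∀ (p : ℕ) [Fact p.Prime], p ≠ 2 →
    ∀ (H : Type) [NormedAddCommGroup H] [InnerProductSpace ℂ H] [CompleteSpace H]
      (F : DP p H) (a b : Op H), EH F a b →
      ‖Z1 F a b‖ ≤ 6 * ‖a‖ * ‖b‖ / √√(p : ℝ) ∧ ‖Z2 F a b‖ ≤ 6 * ‖a‖ * ‖b‖ / √√(p : ℝ) ∧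
      ‖S3 F a b‖ ≤ 8 * ‖a‖ * ‖b‖ / √(p : ℝ) ∧ ‖S4 F a b‖ ≤ 8 * ‖a‖ * ‖b‖ / √(p : ℝ)

/-- ZI: algebraic identities -/
def ZIStmt : Prop :=
  ∀ (p : ℕ) [Fact p.Prime]
    (H : Type) [NormedAddCommGroup H] [InnerProductSpace ℂ H] [CompleteSpace H]
    (F : DP p H) (a b : Op H), EH F a b →
    cm (cm (tt F) a) b = Z2 F a b - Z1 F a b ∧
    cm (tt F) a * cm (star (tt F)) b = Z1 F a b * star (tt F) - S3 F a b ∧
    cm (star (tt F)) a * cm (tt F) b = S4 F a b - star (Z2 F (star a) (star b)) * tt F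

/-- EST: the commutator estimate -/
def EstStmt : Prop :=
  ∀ (p : ℕ) [Fact p.Prime], p ≠ 2 →
    ∀ (H : Type) [NormedAddCommGroup H] [InnerProductSpace ℂ H] [CompleteSpace H]
      (F : DP p H) (a b : Op H), EH F a b →
      ‖cm (uu (tt F) * a * uu (tt F)) b‖ ≤ 280 * ‖a‖ * ‖b‖ / √√(p : ℝ)

/-- LOW: no unitary near `1` -/
def LowStmt : Prop :=
  ∀ (p : ℕ) [Fact p.Prime], 5 ≤ p →
    ∀ (H : Type) [NormedAddCommGroup H] [InnerProductSpace ℂ H] [CompleteSpace H]
      (F : DP p H) (v : Op H), v ∈ unitary (Op H) →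
      (∀ k m, Commute (v * (uu (tt F) * (F.R k + star (F.R k)) * uu (tt F)) * star v)
        (F.R' m + star (F.R' m))) → (1 / 10 : ℝ) ≤ ‖v - 1‖

/-! ## S0105 -/

/-- MOB: a Möbius type unitary -/
def MobStmt : Prop :=
  ∀ (α : Type) [Fintype α] [DecidableEq α]
    (H : Type) [NormedAddCommGroup H] [InnerProductSpace ℂ H] [CompleteSpace H]
    (F : DF α α H) (c : ℝ), 0 < c → c ≤ 1 / 2 →
    ∃ U : Op H, U ∈ unitary (Op H) ∧ ‖U - 1‖ ≤ 20 * c ∧ ∀ i,
      U * F.R' i * star U =
        F.R' i * (1 - ((1 - √(1 - c ^ 2) : ℝ) : ℂ) • vac F.L') + (c : ℂ) • (F.L i * vac F.L')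

section Seq

/-- the Hilbert sum of countably many copies of `H` -/
abbrev KK (H : Type) [NormedAddCommGroup H] : Type := lp (fun _ : ℕ => H) 2

variable {H : Type} [NormedAddCommGroup H] [InnerProductSpace ℂ H] [CompleteSpace H]

/-- the `n`-th inclusion -/
noncomputable def Vn (n : ℕ) : H →L[ℂ] KK H := lp.singleContinuousLinearMap ℂ (fun _ : ℕ => H) 2 n

/-- the `n`-th coordinate -/
noncomputable def Ev (n : ℕ) : KK H →L[ℂ] H := lp.evalCLM ℂ (fun _ : ℕ => H) 2 n

/-- the `n`-th diagonal entry -/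
noncomputable def cmp (n : ℕ) (x : Op (KK H)) : Op H := Ev n ∘L x ∘L Vn n

/-- an operator placed in the `n`-th diagonal entry -/
noncomputable def emb (n : ℕ) (y : Op H) : Op (KK H) := Vn n ∘L y ∘L Ev n

/-- the amplification -/
noncomputable def amp (y : Op H) : Op (KK H) :=
  lp.mapCLM 2 (fun _ => y) (norm_nonneg y) (fun _ => le_rfl)

/-- diagonal operators with entries in `J` that converge in norm to an element of `D` -/
def SeqSet (J D : Set (Op H)) : Set (Op (KK H)) :=
  {x | (∀ n, Commute x (emb n 1)) ∧ (∀ n, cmp n x ∈ J) ∧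
    ∃ d ∈ D, Tendsto (fun n => cmp n x) atTop (𝓝 d)}

end Seq

/-- SEQA: `SeqSet J D` is a closed separable star subalgebra -/
def SeqAStmt : Prop :=
  ∀ (H : Type) [NormedAddCommGroup H] [InnerProductSpace ℂ H] [CompleteSpace H]
    (J D : StarSubalgebra ℂ (Op H)), D ≤ J → IsClosed (J : Set (Op H)) → IsClosed (D : Set (Op H)) →
    TopologicalSpace.IsSeparable (J : Set (Op H)) →
    ∃ A : StarSubalgebra ℂ (Op (KK H)), (A : Set (Op (KK H))) = SeqSet (J : Set (Op H)) D ∧
      IsClosed (A : Set (Op (KK H))) ∧ TopologicalSpace.IsSeparable (A : Set (Op (KK H)))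

/-- SEQB: commutant and closeness of two sequence algebras -/
def SeqBStmt : Prop :=
  ∀ (H : Type) [NormedAddCommGroup H] [InnerProductSpace ℂ H] [CompleteSpace H]
    (J D D' : StarSubalgebra ℂ (Op H)), D ≤ J → D' ≤ J →
    Set.centralizer (SeqSet (J : Set (Op H)) D) = Set.centralizer (SeqSet (J : Set (Op H)) D') ∧
    ∀ η : ℝ, 0 ≤ η → (∀ d ∈ D, ∃ d' ∈ D', ‖d - d'‖ ≤ η * ‖d‖) →
      ∀ x ∈ SeqSet (J : Set (Op H)) D, ‖x‖ ≤ 1 →
        ∃ y ∈ SeqSet (J : Set (Op H)) D', ‖y‖ ≤ 1 ∧ ‖x - y‖ ≤ 2 * η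

/-- SEP: separability facts -/
def SepStmt : Prop :=
  (∀ (H : Type) [NormedAddCommGroup H] [InnerProductSpace ℂ H] [CompleteSpace H]
    [TopologicalSpace.SeparableSpace H], TopologicalSpace.SeparableSpace (KK H)) ∧
  ∀ (H : Type) [NormedAddCommGroup H] [InnerProductSpace ℂ H] [CompleteSpace H]
    (s : Set (Op H)), s.Countable →
    TopologicalSpace.IsSeparable ((StarAlgebra.adjoin ℂ s).topologicalClosure : Set (Op H))

/-- NONCONJ: the two sequence algebras are not unitarily conjugate -/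
def NonConjStmt : Prop :=
  ∀ (H : Type) [NormedAddCommGroup H] [InnerProductSpace ℂ H] [CompleteSpace H] [Nontrivial H]
    (J D D' : StarSubalgebra ℂ (Op H)) (ι : Type) [Fintype ι] (r b : ι → Op H) (β lam : ℝ)
    (E : Op H → Op H), D' ≤ J → 0 ≤ β → 2 * β + 1 < lam →
    Row r 1 → (∀ i, ∀ y ∈ J, Commute (r i + star (r i)) y) →
    (∀ i, b i ∈ D') → (∀ i, star (b i) = b i) → Col b β →
    (∀ q ∈ J, q ≠ 0 → q * q = q → (∀ y ∈ J, Commute q y) →
      ∃ η : H, η ≠ 0 ∧ q η = η ∧
        lam * ‖η‖ ^ 2 ≤ (∑ i, ⟪η, ((r i + star (r i)) * b i) η⟫_ℂ).re) →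
    (∀ x, ∀ d ∈ D, Commute (E x) d) → (∀ x y, E (x + y) = E x + E y) →
    (∀ x, E (star x) = star (E x)) → (∀ x, (∀ y ∈ J, Commute x y) → E x = x) →
    (∀ x : ι → Op H, Col x 1 → Col (fun i => E (x i)) 1) →
    ¬ ∃ W : Op (KK H), W ∈ unitary (Op (KK H)) ∧
      ∀ y : Op (KK H), y ∈ SeqSet (J : Set (Op H)) D' ↔
        ∃ x ∈ SeqSet (J : Set (Op H)) D, y = W * x * star W

/-- LOWB: the lower bound on the vacuum of a central idempotent, and the column bound -/
def LowBStmt : Prop :=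
  ∀ (α : Type) [Fintype α] [DecidableEq α] [Nonempty α]
    (H : Type) [NormedAddCommGroup H] [InnerProductSpace ℂ H] [CompleteSpace H]
    (F : DF α α H) (c γ : ℝ) (U : Op H), F.Cyc → 0 ≤ c → U ∈ unitary (Op H) →
    (∀ i, U * F.R' i * star U =
      F.R' i * (1 - (γ : ℂ) • vac F.L') + (c : ℂ) • (F.L i * vac F.L')) →
    (∀ i, U * (F.R' i + star (F.R' i)) * star U ∈
      StarAlgebra.adjoin ℂ (Set.range (fun i => F.L i + star (F.L i)) ∪ Set.range F.R')) ∧
    Col (fun i => U * (F.R' i + star (F.R' i)) * star U) (√(Fintype.card α : ℝ) + 1) ∧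
    ∀ q : Op H, q ≠ 0 → q * q = q → (∀ i, Commute q (F.L i + star (F.L i))) →
      (∀ i, Commute q (F.R i + star (F.R i))) →
      (∀ i, Commute q (F.R' i)) → (∀ i, Commute q (star (F.R' i))) →
      ∃ η : H, η ≠ 0 ∧ q η = η ∧ c * (√(Fintype.card α : ℝ) - 1) ^ 2 * ‖η‖ ^ 2 ≤
        (∑ i, ⟪η, ((F.R i + star (F.R i)) * (U * (F.R' i + star (F.R' i)) * star U)) η⟫_ℂ).re

end Crest.Agent.R78F
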