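import Crest.Agent.R78F.TT

/-! # Row 78 (S0104): the commutator estimate -/

set_option autoImplicit false

namespace Crest.Agent.R78F

open Crest.Agent.R124

theorem estStmt_of (hA : AlgStmt) (hN : ZNStmt) (hI : ZIStmt) : EstStmt := by
  intro p _ hp H _ _ _ F a b h
  have h1 := one_le_p p
  have hs1 : (1 : ℝ) ≤ √(p : ℝ) := Real.one_le_sqrt.2 h1
  have hs2 : (1 : ℝ) ≤ √√(p : ℝ) := Real.one_le_sqrt.2 hs1
  have hs3 : √√(p : ℝ) ≤ √(p : ℝ) := by
    rw [Real.sqrt_le_left (by positivity)]; nlinarith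
  have ht := norm_tt F
  have hts : ‖star (tt F)‖ ≤ 1 := by rwa [norm_star]
  -- the three basic bounds, for every admissible pair
  have key : ∀ a b : Op H, EH F a b →
      ‖cm (cm (tt F) a) b‖ ≤ 14 * (‖a‖ * ‖b‖ / √√(p : ℝ)) ∧
      ‖cm (tt F) a * cm (star (tt F)) b‖ ≤ 14 * (‖a‖ * ‖b‖ / √√(p : ℝ)) ∧
      ‖cm (star (tt F)) a * cm (tt F) b‖ ≤ 14 * (‖a‖ * ‖b‖ / √√(p : ℝ)) := by
    intro a b h
    obtain ⟨n1, n2, n3, n4⟩ := hN p hp H F a b h
    obtain ⟨-, n2', -, -⟩ := hN p hp H F _ _ h.star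
    obtain ⟨i1, i2, i3⟩ := hI p H F a b h
    rw [norm_star, norm_star] at n2'
    set x := ‖a‖ * ‖b‖ / √√(p : ℝ) with hx
    have hx0 : 0 ≤ x := by positivity
    have e6 : 6 * ‖a‖ * ‖b‖ / √√(p : ℝ) = 6 * x := by rw [hx]; ring
    have e8 : 8 * ‖a‖ * ‖b‖ / √(p : ℝ) ≤ 8 * x := by
      rw [hx, ← mul_div_assoc, ← mul_assoc]; gcongr
    rw [e6] at n1 n2 n2'
    replace n3 := n3.trans e8
    replace n4 := n4.trans e8
    refine ⟨?_, ?_, ?_⟩
    · rw [i1]; linarith [norm_sub_le (Z2 F a b) (Z1 F a b)]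
    · rw [i2]
      have : ‖Z1 F a b * star (tt F)‖ ≤ 6 * x :=
        (norm_mul_le _ _).trans (by nlinarith [norm_nonneg (Z1 F a b), norm_nonneg (star (tt F))])
      linarith [norm_sub_le (Z1 F a b * star (tt F)) (S3 F a b)]
    · rw [i3]
      have : ‖star (Z2 F (star a) (star b)) * tt F‖ ≤ 6 * x :=
        (norm_mul_le _ _).trans (by
          rw [norm_star]
          nlinarith [norm_nonneg (Z2 F (star a) (star b)), norm_nonneg (tt F)])
      linarith [norm_sub_le (S4 F a b) (star (Z2 F (star a) (star b)) * tt F)]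
  obtain ⟨k1, k2, k3⟩ := key a b h
  obtain ⟨k1', k2', -⟩ := key _ _ h.star
  rw [norm_star a, norm_star b] at k1' k2'
  have e1 : cm (cm (star (tt F)) a) b = star (cm (cm (tt F) (star a)) (star b)) := by
    simp only [cm, star_sub, star_mul, star_star]; noncomm_ring
  have e2 : cm (tt F) b * cm (star (tt F)) a =
      star (cm (tt F) (star a) * cm (star (tt F)) (star b)) := by
    simp only [cm, star_sub, star_mul, star_star]; noncomm_ring
  have := hA H (tt F) (qq F) a b _ (tt_mul_tt F) (tt_pi F) (star_qq F) (qq_mul_qq F) (qq_mul_tt F)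
    (tt_mul_qq F) (star_tt_mul_tt F ▸ h.a_ee) h.a_qq h.ab k1 (by rwa [e1, norm_star]) k2
    (by rwa [e2, norm_star]) k3
  refine this.trans_eq ?_
  ring

end Crest.Agent.R78F
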