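import Crest.Agent.R78F.Defs

/-!
# Row 78: the two Fourier estimates (`FourStmt`)
-/

set_option autoImplicit false

namespace Crest.Agent.R78F

open scoped InnerProductSpace ComplexConjugate
open Finset Crest.Agent.R124

namespace Four

variable {p : ℕ} [Fact p.Prime] {H : Type} [NormedAddCommGroup H] [InnerProductSpace ℂ H]

/-- Plancherel for vector valued functions on `ZMod p` -/
lemma plancherel {m : ZMod p} (hm : m ≠ 0) (x : ZMod p → H) :
    ∑ j, ‖∑ k, ZMod.stdAddChar (m * j * k) • x k‖ ^ 2 = p * ∑ k, ‖x k‖ ^ 2 := by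
  have h1 : ∀ j : ZMod p, ⟪∑ k, ZMod.stdAddChar (m * j * k) • x k,
      ∑ k, ZMod.stdAddChar (m * j * k) • x k⟫_ℂ =
      ∑ k, ∑ k', ZMod.stdAddChar (j * (m * (k' - k))) * ⟪x k, x k'⟫_ℂ := by
    intro j
    rw [sum_inner]
    refine Finset.sum_congr rfl fun k _ => ?_
    rw [inner_sum]
    refine Finset.sum_congr rfl fun k' _ => ?_
    rw [inner_smul_left, inner_smul_right, ← AddChar.map_neg_eq_conj, ← mul_assoc,
      ← AddChar.map_add_eq_mul]
    congr 2; ring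
  have h2 : ∑ j : ZMod p, ⟪∑ k, ZMod.stdAddChar (m * j * k) • x k,
      ∑ k, ZMod.stdAddChar (m * j * k) • x k⟫_ℂ = (p : ℂ) * ∑ k, ⟪x k, x k⟫_ℂ := by
    simp_rw [h1]
    rw [Finset.sum_comm, Finset.mul_sum]
    refine Finset.sum_congr rfl fun k _ => ?_
    rw [Finset.sum_comm]
    simp_rw [← Finset.sum_mul, AddChar.sum_mulShift _ (ZMod.isPrimitive_stdAddChar p)]
    rw [Finset.sum_eq_single k]
    · simp [ZMod.card]
    · intro k' _ hk
      rw [if_neg (mul_ne_zero hm (sub_ne_zero.2 hk))]; simp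
    · intro hn; exact absurd (Finset.mem_univ k) hn
  simp only [inner_self_eq_norm_sq_to_K] at h2
  apply Complex.ofReal_injective
  push_cast
  exact h2

/-- the Fourier lemma -/
lemma fourier {m : ZMod p} (hm : m ≠ 0) (y x : ZMod p → H) :
    ‖∑ j, ∑ k, ZMod.stdAddChar (m * j * k) * ⟪y j, x k⟫_ℂ‖ ≤
      √(p : ℝ) * (√(∑ j, ‖y j‖ ^ 2) * √(∑ k, ‖x k‖ ^ 2)) := by
  have h1 : ∑ j, ∑ k, ZMod.stdAddChar (m * j * k) * ⟪y j, x k⟫_ℂ =
      ∑ j, ⟪y j, ∑ k, ZMod.stdAddChar (m * j * k) • x k⟫_ℂ := by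
    refine Finset.sum_congr rfl fun j _ => ?_
    rw [inner_sum]
    simp_rw [inner_smul_right]
  rw [h1]
  refine (norm_sum_inner_le _ _ _).trans (le_of_eq ?_)
  rw [plancherel hm, Real.sqrt_mul (Nat.cast_nonneg p)]; ring

variable [CompleteSpace H]

/-- the common form of the two estimates -/
lemma main (u w : ZMod p → ZMod p → ZMod p) (m : ZMod p → ZMod p) (hu : ∀ j, u 0 j = 0)
    (hw : ∀ k, w 0 k = 0) (hm0 : m 0 = 0) (hm : ∀ d, d ≠ 0 → m d ≠ 0)
    (Y X : ZMod p → ZMod p → Op H) {a b : ℝ} (ha : 0 ≤ a) (hb : 0 ≤ b)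
    (hY : ∀ η : H, ∑ d, ∑ j, ‖star (Y d j) η‖ ^ 2 ≤ b ^ 2 * ‖η‖ ^ 2) (hY0 : ‖∑ j, Y 0 j‖ ≤ b)
    (hX : ∀ ξ : H, ∑ d, ∑ k, ‖X d k ξ‖ ^ 2 ≤ a ^ 2 * ‖ξ‖ ^ 2) :
    ‖∑ d, ∑ j, ∑ k, ((((p : ℝ)⁻¹ : ℝ) : ℂ) * ZMod.stdAddChar (u d j + w d k + m d * j * k)) •
      (Y d j * X d k)‖ ≤ 2 * a * b / √(p : ℝ) := by
  have hp : (0 : ℝ) < p := Nat.cast_pos.2 (Fact.out : p.Prime).pos
  have hs : 0 < √(p : ℝ) := Real.sqrt_pos.2 hp
  have hss : √(p : ℝ) * √(p : ℝ) = p := Real.mul_self_sqrt hp.le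
  refine norm_le_of_inner _ (by positivity) fun ξ η => ?_
  obtain ⟨T, hT⟩ : ∃ T : ZMod p → ℂ, T = fun d => ∑ j, ∑ k, ZMod.stdAddChar (m d * j * k) *
      ⟪ZMod.stdAddChar (-u d j) • star (Y d j) η, ZMod.stdAddChar (w d k) • X d k ξ⟫_ℂ := ⟨_, rfl⟩
  obtain ⟨A, hA⟩ : ∃ A : ZMod p → ℝ, A = fun d => √(∑ j, ‖star (Y d j) η‖ ^ 2) := ⟨_, rfl⟩
  obtain ⟨B, hB⟩ : ∃ B : ZMod p → ℝ, B = fun d => √(∑ k, ‖X d k ξ‖ ^ 2) := ⟨_, rfl⟩
  have hA0 : ∀ d, 0 ≤ A d := fun d => by rw [hA]; exact Real.sqrt_nonneg _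
  have hB0 : ∀ d, 0 ≤ B d := fun d => by rw [hB]; exact Real.sqrt_nonneg _
  have e : ⟪η, (∑ d, ∑ j, ∑ k, ((((p : ℝ)⁻¹ : ℝ) : ℂ) *
      ZMod.stdAddChar (u d j + w d k + m d * j * k)) • (Y d j * X d k)) ξ⟫_ℂ =
      (((p : ℝ)⁻¹ : ℝ) : ℂ) * ∑ d, T d := by
    rw [hT]
    simp only [_root_.sum_apply, inner_sum, Finset.mul_sum]
    refine Finset.sum_congr rfl fun d _ => Finset.sum_congr rfl fun j _ =>
      Finset.sum_congr rfl fun k _ => ?_
    rw [_root_.smul_apply, inner_smul_right, inner_smul_left, inner_smul_right,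
      inner_star_left, ← AddChar.map_neg_eq_conj, neg_neg, AddChar.map_add_eq_mul,
      AddChar.map_add_eq_mul, mul_apply_eq_comp]
    ring
  have hd : ∀ d, d ≠ 0 → ‖T d‖ ≤ √(p : ℝ) * (A d * B d) := by
    intro d hd
    rw [hT, hA, hB]
    refine (fourier (hm d hd) _ _).trans (le_of_eq ?_)
    simp only [norm_smul, AddChar.norm_apply, one_mul]
  have hAs : √(∑ d, A d ^ 2) ≤ b * ‖η‖ := by
    rw [Real.sqrt_le_left (by positivity), mul_pow]
    refine le_trans (le_of_eq ?_) (hY η)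
    refine Finset.sum_congr rfl fun d _ => ?_
    rw [hA]; exact Real.sq_sqrt (by positivity)
  have hBs : √(∑ d, B d ^ 2) ≤ a * ‖ξ‖ := by
    rw [Real.sqrt_le_left (by positivity), mul_pow]
    refine le_trans (le_of_eq ?_) (hX ξ)
    refine Finset.sum_congr rfl fun d _ => ?_
    rw [hB]; exact Real.sq_sqrt (by positivity)
  have h0 : ‖T 0‖ ≤ √(p : ℝ) * (a * b * ‖η‖ * ‖ξ‖) := by
    have e0 : T 0 = ⟪η, (∑ j, Y 0 j) (∑ k, X 0 k ξ)⟫_ℂ := by
      rw [hT]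
      simp only [hu, hw, hm0, zero_mul, neg_zero, AddChar.map_zero_eq_one, one_smul, one_mul,
        _root_.sum_apply, map_sum, inner_sum, inner_star_left]
      exact Finset.sum_comm
    have h1 : ‖∑ k, X 0 k ξ‖ ≤ √(p : ℝ) * (a * ‖ξ‖) := by
      refine abs_le_of_sq_le_sq' ?_ (by positivity) |>.2
      refine (norm_sum_sq_le _ _).trans ?_
      rw [mul_pow, Real.sq_sqrt hp.le, Finset.card_univ, ZMod.card, mul_pow]
      refine mul_le_mul_of_nonneg_left (le_trans ?_ (hX ξ)) hp.le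
      exact Finset.single_le_sum (f := fun d => ∑ k, ‖X d k ξ‖ ^ 2) (fun d _ => by positivity)
        (Finset.mem_univ 0)
    rw [e0]
    calc ‖⟪η, (∑ j, Y 0 j) (∑ k, X 0 k ξ)⟫_ℂ‖ ≤ ‖η‖ * ‖(∑ j, Y 0 j) (∑ k, X 0 k ξ)‖ :=
          norm_inner_le_norm _ _
      _ ≤ ‖η‖ * (‖∑ j, Y 0 j‖ * ‖∑ k, X 0 k ξ‖) := by
          gcongr; exact ContinuousLinearMap.le_opNorm _ _
      _ ≤ ‖η‖ * (b * (√(p : ℝ) * (a * ‖ξ‖))) := by gcongr
      _ = _ := by ring
  have hsum : ‖∑ d, T d‖ ≤ √(p : ℝ) * (2 * (a * b * ‖η‖ * ‖ξ‖)) := by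
    have h1 : ∑ d ∈ Finset.univ.erase 0, ‖T d‖ ≤ √(p : ℝ) * ∑ d, A d * B d := by
      rw [Finset.mul_sum]
      refine (Finset.sum_le_sum fun d hd' => hd d (Finset.ne_of_mem_erase hd')).trans ?_
      exact Finset.sum_le_sum_of_subset_of_nonneg (Finset.erase_subset _ _)
        fun d _ _ => mul_nonneg hs.le (mul_nonneg (hA0 d) (hB0 d))
    have h2 : ∑ d, A d * B d ≤ b * ‖η‖ * (a * ‖ξ‖) :=
      (Real.sum_mul_le_sqrt_mul_sqrt _ _ _).trans (by gcongr)
    have h3 : ‖∑ d, T d‖ ≤ ‖T 0‖ + ∑ d ∈ Finset.univ.erase 0, ‖T d‖ := by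
      rw [Finset.add_sum_erase _ (fun d => ‖T d‖) (Finset.mem_univ 0)]
      exact norm_sum_le _ _
    have h4 := mul_le_mul_of_nonneg_left h2 hs.le
    nlinarith
  rw [e, norm_mul, Complex.norm_real, Real.norm_of_nonneg (by positivity)]
  refine (mul_le_mul_of_nonneg_left hsum (by positivity)).trans (le_of_eq ?_)
  rw [eq_comm, div_mul_eq_mul_div, div_mul_eq_mul_div, div_eq_iff hs.ne']
  field_simp
  rw [Real.sq_sqrt hp.le]

lemma cf_mul (k j k' j' : ZMod p) :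
    conj (cf p k j) * cf p k' j' =
      (((p : ℝ)⁻¹ : ℝ) : ℂ) * ZMod.stdAddChar (k' ^ 2 * j' - k ^ 2 * j) := by
  have hss : (√(p : ℝ))⁻¹ * (√(p : ℝ))⁻¹ = (p : ℝ)⁻¹ := by
    rw [← mul_inv, Real.mul_self_sqrt (Nat.cast_nonneg p)]
  rw [cf, cf, map_mul, Complex.conj_ofReal, ← AddChar.map_neg_eq_conj, ← hss, sub_eq_add_neg,
    AddChar.map_add_eq_mul, Complex.ofReal_mul]
  ring

lemma rot {ι M : Type} [Fintype ι] [AddCommMonoid M] (F : ι → ι → ι → M) :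
    ∑ d, ∑ i, ∑ k, F d i k = ∑ k, ∑ d, ∑ i, F d i k :=
  (Finset.sum_congr rfl fun _ _ => Finset.sum_comm).trans Finset.sum_comm

end Four

theorem fourStmt : FourStmt := by
  intro p _ hp2 H _ _ _ Y X a b ha hb hY hY0 hX
  have h2 : (2 : ZMod p) ≠ 0 := by
    intro h
    have h' : ((2 : ℕ) : ZMod p) = 0 := by exact_mod_cast h
    rw [ZMod.natCast_eq_zero_iff] at h'
    exact hp2 ((Nat.prime_dvd_prime_iff_eq Fact.out Nat.prime_two).1 h')
  have hX' : ∀ ξ : H, ∑ d : ZMod p, ∑ k, ‖X (k + d) k ξ‖ ^ 2 ≤ a ^ 2 * ‖ξ‖ ^ 2 := by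
    intro ξ
    refine le_trans (le_of_eq ?_) (hX ξ)
    rw [Fintype.sum_prod_type_right, Finset.sum_comm]
    refine Finset.sum_congr rfl fun k _ => ?_
    exact Fintype.sum_equiv (Equiv.addLeft k) _ _ fun d => rfl
  constructor
  · have key := Four.main (fun d j => -(d ^ 2 * j)) (fun d k => k ^ 2 * d) (fun d => -(2 * d))
      (by simp) (by simp) (by simp) (fun d hd => neg_ne_zero.2 (mul_ne_zero h2 hd))
      (fun d j => Y j (j + d)) (fun d k => X (k + d) k) ha hb ?_ (by simpa using hY0) hX'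
    · refine le_trans (le_of_eq ?_) key
      congr 1
      unfold GC
      refine (Four.rot _).trans (Eq.trans ?_ (Four.rot _).symm)
      refine Finset.sum_congr rfl fun k _ => ?_
      refine (Fintype.sum_equiv (Equiv.addLeft k) _ _ fun d => ?_).symm
      refine Finset.sum_congr rfl fun j _ => Eq.symm ?_
      simp only [Equiv.coe_addLeft]
      rw [Four.cf_mul, show j + (k + d) - k = j + d by ring]
      congr 3; ring
    · intro η
      refine le_trans (le_of_eq ?_) (hY η)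
      rw [Fintype.sum_prod_type, Finset.sum_comm]
      refine Finset.sum_congr rfl fun j _ => ?_
      exact Fintype.sum_equiv (Equiv.addLeft j) _ _ fun d => rfl
  · have key := Four.main (fun d i => d ^ 2 * i) (fun d k => -(2 * d * k ^ 2) - d ^ 2 * k)
      (fun d => 2 * d)
      (by simp) (by simp) (by simp) (fun d hd => mul_ne_zero h2 hd)
      (fun d i => Y (i + d) i) (fun d k => X (k + d) k) ha hb ?_ (by simpa using hY0) hX'
    · refine le_trans (le_of_eq ?_) key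
      congr 1
      unfold GE
      refine Finset.sum_comm.trans (Eq.trans ?_ (Four.rot _).symm)
      refine Finset.sum_congr rfl fun k _ => ?_
      refine (Fintype.sum_equiv (Equiv.addLeft k) _ _ fun d => ?_).symm
      refine (Fintype.sum_equiv (Equiv.addRight k) _ _ fun j => ?_).symm
      simp only [Equiv.coe_addLeft, Equiv.coe_addRight]
      rw [mul_comm (cf p (k + d) j), Four.cf_mul, show j + (k + d) = j + k + d by ring]
      congr 3; ring
    · intro η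
      refine le_trans (le_of_eq ?_) (hY η)
      rw [Fintype.sum_prod_type_right, Finset.sum_comm]
      refine Finset.sum_congr rfl fun j _ => ?_
      exact Fintype.sum_equiv (Equiv.addLeft j) _ _ fun d => rfl

end Crest.Agent.R78F
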