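import Crest.Agent.R78F.TT

/-! # Row 78 (S0104): no conjugating unitary near `1` (LOW) -/

set_option autoImplicit false
set_option linter.unusedSectionVars false

namespace Crest.Agent.R78F

open scoped InnerProductSpace ComplexConjugate
open Finset Crest.Agent.R124

namespace Low

variable {p : ℕ} [Fact p.Prime] {H : Type} [NormedAddCommGroup H] [InnerProductSpace ℂ H]
  [CompleteSpace H] (F : DP p H)

/-- the sesquilinear form on families of vectors -/
noncomputable def Phi (f g : ZMod p → H) : ℂ :=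
  ∑ k, ∑ j, conj (cf p k j) * ⟪f (j + k), (F.R k + star (F.R k)) (g j)⟫_ℂ

lemma Phi_sub_left (f f' g : ZMod p → H) : Phi F (fun i => f i - f' i) g = Phi F f g - Phi F f' g := by
  simp only [Phi, inner_sub_left, mul_sub, sum_sub_distrib]

lemma Phi_sub_right (f g g' : ZMod p → H) :
    Phi F f (fun i => g i - g' i) = Phi F f g - Phi F f g' := by
  simp only [Phi, map_sub, inner_sub_right, mul_sub, sum_sub_distrib]

lemma sum_shift (φ : ZMod p → ZMod p → ℝ) : ∑ k, ∑ j, φ k (j + k) = ∑ i, ∑ k, φ k i := by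
  rw [sum_comm (f := fun i k => φ k i)]
  exact sum_congr rfl fun k _ => Equiv.sum_comp (Equiv.addRight k) (φ k)

lemma norm_Phi {f g : ZMod p → H} {a b : ℝ} (ha : 0 ≤ a) (hb : 0 ≤ b) (hf : ∀ i, ‖f i‖ ≤ a)
    (hg : ∀ i, ‖g i‖ ≤ b) : ‖Phi F f g‖ ≤ 2 * a * b * p := by
  have hp := p_pos p
  have hsp : 0 < √(p : ℝ) := Real.sqrt_pos.2 hp
  have hpp : √(p : ℝ) * √(p : ℝ) = p := Real.mul_self_sqrt hp.le
  have e : Phi F f g =
      ∑ kj : ZMod p × ZMod p, ⟪star (F.R kj.1) (f (kj.2 + kj.1)), conj (cf p kj.1 kj.2) • g kj.2⟫_ℂ +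
      ∑ kj : ZMod p × ZMod p, ⟪cf p kj.1 kj.2 • f (kj.2 + kj.1), star (F.R kj.1) (g kj.2)⟫_ℂ := by
    rw [← sum_add_distrib, Phi, Fintype.sum_prod_type]
    refine sum_congr rfl fun k _ => sum_congr rfl fun j _ => ?_
    rw [inner_smul_right, inner_smul_left, inner_star_left, add_apply,
      inner_add_right, mul_add]
  have hcol : ∀ {h : ZMod p → H} {c : ℝ}, 0 ≤ c → (∀ i, ‖h i‖ ≤ c) →
      ∑ i, ∑ k, ‖star (F.R k) (h i)‖ ^ 2 ≤ (c * √(p : ℝ)) ^ 2 := fun {h c} hc hh => by
    calc ∑ i, ∑ k, ‖star (F.R k) (h i)‖ ^ 2 ≤ ∑ _i : ZMod p, c ^ 2 := by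
          refine sum_le_sum fun i _ => (F.fk.col_sR (h i)).trans ?_
          rw [one_pow, one_mul]
          gcongr
          exact hh i
      _ = (c * √(p : ℝ)) ^ 2 := by
          rw [mul_pow, Real.sq_sqrt hp.le]; simp [mul_comm]
  have hcst : ∀ {h : ZMod p × ZMod p → H} {c : ℝ}, 0 ≤ c → (∀ i, ‖h i‖ ≤ (√(p : ℝ))⁻¹ * c) →
      ∑ i, ‖h i‖ ^ 2 ≤ (c * √(p : ℝ)) ^ 2 := fun {h c} hc hh => by
    calc ∑ i, ‖h i‖ ^ 2 ≤ ∑ _i : ZMod p × ZMod p, ((√(p : ℝ))⁻¹ * c) ^ 2 := by
          refine sum_le_sum fun i _ => ?_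
          gcongr
          exact hh i
      _ = (c * √(p : ℝ)) ^ 2 := by
          rw [mul_pow, mul_pow, inv_pow, Real.sq_sqrt hp.le]
          simp only [sum_const, card_univ, Fintype.card_prod, ZMod.card, nsmul_eq_mul, Nat.cast_mul]
          field_simp
  have s1 : √(∑ kj : ZMod p × ZMod p, ‖star (F.R kj.1) (f (kj.2 + kj.1))‖ ^ 2) ≤ a * √(p : ℝ) := by
    rw [Real.sqrt_le_left (by positivity), Fintype.sum_prod_type,
      sum_shift (fun k i => ‖star (F.R k) (f i)‖ ^ 2)]
    exact hcol ha hf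
  have s2 : √(∑ kj : ZMod p × ZMod p, ‖conj (cf p kj.1 kj.2) • g kj.2‖ ^ 2) ≤ b * √(p : ℝ) := by
    rw [Real.sqrt_le_left (by positivity)]
    refine hcst hb fun i => ?_
    rw [norm_smul, RCLike.norm_conj, norm_cf]
    gcongr
    exact hg _
  have s3 : √(∑ kj : ZMod p × ZMod p, ‖cf p kj.1 kj.2 • f (kj.2 + kj.1)‖ ^ 2) ≤ a * √(p : ℝ) := by
    rw [Real.sqrt_le_left (by positivity)]
    refine hcst ha fun i => ?_
    rw [norm_smul, norm_cf]
    gcongr
    exact hf _
  have s4 : √(∑ kj : ZMod p × ZMod p, ‖star (F.R kj.1) (g kj.2)‖ ^ 2) ≤ b * √(p : ℝ) := by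
    rw [Real.sqrt_le_left (by positivity), Fintype.sum_prod_type_right]
    exact hcol hb hg
  have m : a * √(p : ℝ) * (b * √(p : ℝ)) = a * b * p := by
    calc _ = a * b * (√(p : ℝ) * √(p : ℝ)) := by ring
      _ = _ := by rw [hpp]
  rw [e]
  refine (norm_add_le _ _).trans ?_
  have t1 := (norm_sum_inner_le _ _ _).trans (mul_le_mul s1 s2 (Real.sqrt_nonneg _) (by positivity))
  have t2 := (norm_sum_inner_le _ _ _).trans (mul_le_mul s3 s4 (Real.sqrt_nonneg _) (by positivity))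
  rw [m] at t1 t2
  linarith

/-- vectors killed by the annihilators of the first factor and by the `μ`-annihilators are fixed -/
lemma uu_fix {z : H} (h1 : ∀ k, star (F.L k) z = 0) (h2 : tt F z = 0) : uu (tt F) z = z := by
  have h3 : star (tt F) z = 0 := by
    simp [star_tt, h1]
  simp [uu, h2, h3]

lemma uu_lam (i : ZMod p) : uu (tt F) (F.L' (.inl i) F.Ω) = F.L' (.inl i) F.Ω := by
  refine uu_fix F (fun k => ?_) ?_
  · rw [commute_apply (F.cLL.sc k _), F.LΩ, map_zero]
  · rw [← mul_apply_eq_comp, tt_mul_lam]; rfl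

lemma uu_mu (j : ZMod p) : uu (tt F) (F.L' (.inr j) F.Ω) = TJ F j F.Ω := by
  have : uu (tt F) * F.L' (.inr j) = TJ F j := by
    rw [uu, star_tt_mul_tt, add_mul, add_mul, sub_mul, sub_mul, one_mul, ee_mul_mu, mul_assoc,
      star_tt_mul_mu, tt_mul_mu]
    simp
  rw [← mul_apply_eq_comp, this]

lemma sR_lam (k i : ZMod p) : star (F.R k) (F.L' (.inl i) F.Ω) = 0 := by
  rw [commute_apply (F.cRL.sc k _), F.RΩ, map_zero]

lemma sR_TJ (k j : ZMod p) : star (F.R k) (TJ F j F.Ω) = cf p k j • F.L' (.inl (j + k)) F.Ω := by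
  have key : ∀ k', star (F.R k) (F.L k' (F.L' (.inl (j + k')) F.Ω)) =
      if k = k' then F.L' (.inl (j + k')) F.Ω else 0 := fun k' => by
    rw [commute_apply (F.cLL.c k' _), commute_apply (F.cRL.sc k _), ← F.R_Ω,
      ← mul_apply_eq_comp (star (F.R k)), F.fk.rr]
    split_ifs <;> simp
  simp [TJ, key]

lemma norm_L'Ω (m : ZMod p ⊕ ZMod p) : ‖F.L' m F.Ω‖ = 1 := by
  rw [norm_iso_apply F.fk'.ll, F.norm_Ω]

lemma Phi_base : Phi F (fun i => F.L' (.inl i) F.Ω) (fun j => TJ F j F.Ω) = p := by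
  have : ∀ k j, ⟪F.L' (.inl (j + k)) F.Ω, (F.R k + star (F.R k)) (TJ F j F.Ω)⟫_ℂ = cf p k j :=
    fun k j => by
    rw [add_apply, inner_add_right, ← inner_star_left, sR_lam, inner_zero_left,
      zero_add, sR_TJ, inner_smul_right, inner_iso F.fk'.ll, if_pos rfl, F.inner_Ω, mul_one]
  simp only [Phi, this, sum_conj_cf_mul_right]
  simp

/-- the test vectors of the upper bound -/
noncomputable def zz (k : ZMod p) : H := ∑ j, cf p k j • F.L' (.inl (j + k)) (F.L' (.inr j) F.Ω)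

lemma norm_zz (k : ZMod p) : ‖zz F k‖ = 1 := by
  have : ⟪zz F k, zz F k⟫_ℂ = 1 := by
    simp only [zz, sum_inner, inner_sum, inner_smul_left, inner_smul_right, inner_iso F.fk'.ll,
      F.inner_Ω]
    refine Eq.trans (sum_congr rfl fun j _ => ?_) (sum_conj_cf_mul_right k)
    simp [mul_comm]
  have h2 : ‖zz F k‖ ^ 2 = 1 := by
    rw [← inner_self_eq_norm_sq (𝕜 := ℂ), this]; simp
  nlinarith [norm_nonneg (zz F k)]

lemma sR_zz (k k' : ZMod p) : star (F.R k) (zz F k') = 0 := by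
  simp only [zz, map_sum, map_smul]
  refine sum_eq_zero fun j _ => ?_
  rw [commute_apply (F.cRL.sc k _), commute_apply (F.cRL.sc k _), F.RΩ, map_zero, map_zero,
    smul_zero]

lemma uu_zz (k : ZMod p) : uu (tt F) (zz F k) = zz F k := by
  refine uu_fix F (fun k' => ?_) ?_
  · simp only [zz, map_sum, map_smul]
    refine sum_eq_zero fun j _ => ?_
    rw [commute_apply (F.cLL.sc k' _), commute_apply (F.cLL.sc k' _), F.LΩ, map_zero, map_zero,
      smul_zero]
  · simp only [zz, map_sum, map_smul]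
    refine sum_eq_zero fun j _ => ?_
    rw [← mul_apply_eq_comp (tt F), tt_mul_lam]; simp

lemma tau_Ω (m : ZMod p ⊕ ZMod p) : (F.R' m + star (F.R' m)) F.Ω = F.L' m F.Ω := by
  rw [add_apply, F.R'Ω, F.R'_Ω, add_zero]

lemma tau_lam (i j : ZMod p) : (F.R' (.inr j) + star (F.R' (.inr j))) (F.L' (.inl i) F.Ω) =
    F.L' (.inl i) (F.L' (.inr j) F.Ω) := by
  have h0 : star (F.R' (.inr j)) (F.L' (.inl i) F.Ω) = 0 := by
    rw [← F.R'_Ω, ← mul_apply_eq_comp, F.fk'.rr]; simp
  rw [add_apply, h0, add_zero, ← commute_apply (F.fk'.lr _ _), F.R'_Ω]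

end Low

open Low in
theorem lowStmt : LowStmt := by
  intro p _ hp5 H _ _ _ F v hv hX
  by_contra hlt
  rw [not_le] at hlt
  set ε := ‖v - 1‖ with hε
  have hε0 : 0 ≤ ε := norm_nonneg _
  have hp := p_pos p
  set u := uu (tt F) with hu
  have huU : u ∈ unitary (Op H) := uu_tt_unitary F
  have hw : ∀ x : H, ‖u (star v x)‖ = ‖x‖ := fun x => by
    rw [norm_unitary_apply huU, norm_unitary_apply (Unitary.star_mem hv)]
  have hd : ∀ x : H, ‖u (star v x) - u x‖ ≤ ε * ‖x‖ := fun x => by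
    rw [← map_sub, norm_unitary_apply huU]
    have : star v x - x = star (v - 1) x := by simp [star_sub]
    rw [this, hε, ← norm_star (v - 1)]
    exact ContinuousLinearMap.le_opNorm _ _
  have hin : ∀ (k : ZMod p) (x y : H),
      ⟪x, (v * (u * (F.R k + star (F.R k)) * u) * star v) y⟫_ℂ =
        ⟪u (star v x), (F.R k + star (F.R k)) (u (star v y))⟫_ℂ := fun k x y => by
    simp only [mul_apply_eq_comp]
    rw [← inner_star_left v, ← inner_star_left u, hu, star_uu]
  set f : ZMod p → H := fun i => u (star v (F.L' (.inl i) F.Ω)) with hf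
  set g : ZMod p → H := fun j => u (star v (F.L' (.inr j) F.Ω)) with hg
  -- lower bound
  have hlow : ‖Phi F f g - p‖ ≤ 4 * ε * p := by
    have e : Phi F f g - p = Phi F (fun i => f i - F.L' (.inl i) F.Ω) g +
        Phi F (fun i => F.L' (.inl i) F.Ω) (fun j => g j - TJ F j F.Ω) := by
      rw [Phi_sub_left, Phi_sub_right, Phi_base]; ring
    have b1 := norm_Phi F (f := fun i => f i - F.L' (.inl i) F.Ω) (g := g) hε0 zero_le_one
      (fun i => by
        have := hd (F.L' (.inl i) F.Ω)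
        rwa [norm_L'Ω, mul_one, hu, uu_lam] at this)
      (fun j => by rw [hg]; exact ((hw _).trans (norm_L'Ω F _)).le)
    have b2 := norm_Phi F (f := fun i => F.L' (.inl i) F.Ω) (g := fun j => g j - TJ F j F.Ω)
      zero_le_one hε0 (fun i => (norm_L'Ω F _).le)
      (fun j => by
        have := hd (F.L' (.inr j) F.Ω)
        rwa [norm_L'Ω, mul_one, hu, uu_mu] at this)
    rw [e]
    refine (norm_add_le _ _).trans ?_
    linarith
  -- upper bound
  have hup : ‖Phi F f g‖ ≤ ε * p + √(p : ℝ) := by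
    set x : H := u (star v F.Ω) with hx
    set y : ZMod p → H := fun k => u (star v (zz F k)) with hy
    have hx1 : ‖x‖ = 1 := (hw _).trans F.norm_Ω
    have hy1 : ∀ k, ‖y k‖ = 1 := fun k => (hw _).trans (norm_zz F k)
    have e : Phi F f g = ∑ k, ⟪star (F.R k) (y k), x⟫_ℂ + ∑ k, ⟪y k, star (F.R k) x⟫_ℂ := by
      rw [← sum_add_distrib, Phi]
      refine sum_congr rfl fun k _ => ?_
      rw [inner_star_left, ← inner_add_right, ← add_apply, hy, hx, ← hin, zz,
        sum_inner]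
      refine sum_congr rfl fun j _ => ?_
      rw [inner_smul_left, hf, hg, ← hin, ← tau_lam, ← tau_Ω F (.inr j), commute_apply (hX k _),
        ← inner_star_left, star_add, star_star, add_comm (star (F.R' _))]
    have b1 : ‖∑ k, ⟪star (F.R k) (y k), x⟫_ℂ‖ ≤ ε * p := by
      calc _ ≤ ∑ _k : ZMod p, ε := by
            refine norm_sum_le_of_le _ fun k _ => (norm_inner_le_norm _ _).trans ?_
            have e1 : star (F.R k) (y k) = star (F.R k) (y k - u (zz F k)) := by
              rw [map_sub, hu, uu_zz, sR_zz, sub_zero]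
            have e2 := hd (zz F k)
            rw [norm_zz, mul_one] at e2
            have e3 : ‖star (F.R k)‖ ≤ 1 := by rw [norm_star]; exact F.fk.norm_R k
            rw [hx1, mul_one, e1]
            refine (ContinuousLinearMap.le_opNorm _ _).trans ?_
            calc _ ≤ 1 * ε := mul_le_mul e3 e2 (norm_nonneg _) zero_le_one
              _ = ε := one_mul _
        _ = ε * p := by simp [mul_comm]
    have b2 : ‖∑ k, ⟪y k, star (F.R k) x⟫_ℂ‖ ≤ √(p : ℝ) := by
      refine (norm_sum_inner_le _ _ _).trans ?_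
      have c1 := F.fk.col_sR.sqrt_le zero_le_one x
      rw [hx1, mul_one] at c1
      simp only [hy1, one_pow, sum_const, card_univ, ZMod.card, nsmul_eq_mul, mul_one]
      exact mul_le_of_le_one_right (Real.sqrt_nonneg _) c1
    rw [e]
    exact (norm_add_le _ _).trans (add_le_add b1 b2)
  have h1 : (p : ℝ) ≤ ‖Phi F f g‖ + ‖Phi F f g - p‖ := by
    have := norm_sub_le (Phi F f g) (Phi F f g - p)
    rwa [sub_sub_cancel, Complex.norm_natCast] at this
  have h5 : (5 : ℝ) ≤ p := by exact_mod_cast hp5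
  have hpp : √(p : ℝ) * √(p : ℝ) = p := Real.mul_self_sqrt hp.le
  have hs : 0 ≤ √(p : ℝ) := Real.sqrt_nonneg _
  have h2 : (p : ℝ) ≤ 2 * √(p : ℝ) := by nlinarith
  nlinarith

end Crest.Agent.R78F
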