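import Crest.Agent.R78F.Basic

/-! # Row 78 (S0105): the lower bound on the vacuum of a central idempotent -/

set_option autoImplicit false
set_option linter.unusedSectionVars false

namespace Crest.Agent.R78F

open scoped InnerProductSpace ComplexConjugate
open Finset Filter Topology Crest.Agent.R124

theorem lowBStmt : LowBStmt := by
  intro α _ _ _ H _ _ _ F c γ U hcyc hc hU hUR
  have hb : ∀ i, U * (F.R' i + star (F.R' i)) * star U =
      F.R' i * (1 - (γ : ℂ) • vac F.L') + (1 - (γ : ℂ) • vac F.L') * star (F.R' i)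
        + (c : ℂ) • ((F.L i + star (F.L i)) * vac F.L') := by
    intro i
    have h1 : U * star (F.R' i) * star U = star (U * F.R' i * star U) := by
      simp only [star_mul, star_star, mul_assoc]
    rw [mul_add, add_mul, h1, hUR]
    simp only [star_add, star_mul, star_sub, star_one, star_smul, star_vac, Complex.star_def,
      Complex.conj_ofReal, ← (F.cLL.svac i).eq, add_mul, smul_add]
    abel
  refine ⟨fun i => ?_, ?_, ?_⟩
  · set S := StarAlgebra.adjoin ℂ (Set.range (fun i => F.L i + star (F.L i)) ∪ Set.range F.R')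
    have h1 : ∀ j, F.R' j ∈ S := fun j => StarAlgebra.subset_adjoin _ _ (Or.inr ⟨j, rfl⟩)
    have h2 : F.L i + star (F.L i) ∈ S := StarAlgebra.subset_adjoin _ _ (Or.inl ⟨i, rfl⟩)
    have h3 : vac F.L' ∈ S := by
      rw [← F.fk'.vr]
      exact sub_mem (one_mem S) (sum_mem fun j _ => mul_mem (h1 j) (star_mem (h1 j)))
    have h4 : 1 - (γ : ℂ) • vac F.L' ∈ S := sub_mem (one_mem S) (S.smul_mem h3 _)
    rw [hb]
    exact add_mem (add_mem (mul_mem (h1 i) h4) (mul_mem h4 (star_mem (h1 i))))
      (S.smul_mem (mul_mem h2 h3) _)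
  · have h1 := norm_unitary_le hU
    have h2 : ‖star U‖ ≤ 1 := by rwa [norm_star]
    refine (((F.fk'.col_R.add F.fk'.col_sR (by positivity) zero_le_one).mul_left U).mul_right
      (star U)).mono (by positivity) ?_
    calc ‖U‖ * (√(Fintype.card α : ℝ) + 1) * ‖star U‖ ≤ 1 * (√(Fintype.card α : ℝ) + 1) * 1 := by
          gcongr
      _ = _ := by ring
  · intro q hq0 hqq hqL hqR hqR' hqsR'
    refine ⟨q F.Ω, fun h => hq0 (hcyc q hqL hqR' h), by rw [← mul_apply_eq_comp, hqq], ?_⟩
    set η := q F.Ω with hη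
    have hP : vac F.L' η = η := by
      have h := commute_apply (commute_vac hqR' hqsR') F.Ω
      rw [F.fk'.vr, F.vac'Ω] at h
      exact h.symm
    have hsR : ∀ i, star (F.R' i) η = 0 := F.fk'.sR_apply hP
    have hts : ∀ i, (F.R i + star (F.R i)) η = (F.L i + star (F.L i)) η := fun i => by
      rw [hη, ← commute_apply (hqR i), ← commute_apply (hqL i)]
      simp only [add_apply, F.RΩ, F.LΩ, F.R_Ω]
    have hterm : ∀ i, ⟪η, ((F.R i + star (F.R i)) * (U * (F.R' i + star (F.R' i)) * star U)) η⟫_ℂ =
        ((c * ‖(F.L i + star (F.L i)) η‖ ^ 2 : ℝ) : ℂ) := by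
      intro i
      have h0 : star (F.R i + star (F.R i)) = F.R i + star (F.R i) := by
        rw [star_add, star_star, add_comm]
      have h1 : (U * (F.R' i + star (F.R' i)) * star U) η =
          (1 - (γ : ℂ)) • F.R' i η + (c : ℂ) • (F.L i + star (F.L i)) η := by
        rw [hb]
        simp only [add_apply, mul_apply_eq_comp, ContinuousLinearMap.smul_apply,
          ContinuousLinearMap.sub_apply, ContinuousLinearMap.one_apply, hP, hsR, map_zero,
          smul_zero, map_sub, map_smul, sub_smul, one_smul, sub_zero, add_zero]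
      have h2 : ⟪(F.L i + star (F.L i)) η, F.R' i η⟫_ℂ = 0 := by
        have hc' : Commute (F.L i + star (F.L i)) (star (F.R' i)) :=
          (F.cLR.cs i i).add_left (F.cLR.ss i i)
        rw [← inner_star_left, ← commute_apply hc', hsR, map_zero, inner_zero_left]
      rw [mul_apply_eq_comp, ← inner_star_left, h0, hts, h1, inner_add_right, inner_smul_right,
        inner_smul_right, h2, inner_self_eq_norm_sq_to_K]
      simp
    simp only [hterm]
    rw [← Complex.ofReal_sum, Complex.ofReal_re, ← mul_sum, mul_assoc]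
    gcongr
    have hN : (1 : ℝ) ≤ √(Fintype.card α : ℝ) := by
      rw [Real.one_le_sqrt]
      exact_mod_cast Fintype.card_pos
    have h1 := sqrt_sum_add_le (fun i => (F.L i + star (F.L i)) η) (fun i => -star (F.L i) η)
    have h2 : √(∑ i, ‖(F.L i + star (F.L i)) η + -star (F.L i) η‖ ^ 2) =
        √(Fintype.card α : ℝ) * ‖η‖ := by
      simp only [add_apply, add_neg_cancel_right, norm_iso_apply F.fk.ll, sum_const, card_univ,
        nsmul_eq_mul]
      rw [Real.sqrt_mul (by positivity), Real.sqrt_sq (norm_nonneg _)]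
    have h3 := F.fk.col_sL.sqrt_le zero_le_one η
    simp only [norm_neg] at h1
    rw [h2] at h1
    have h4 : (√(Fintype.card α : ℝ) - 1) * ‖η‖ ≤ √(∑ i, ‖(F.L i + star (F.L i)) η‖ ^ 2) := by
      linarith
    have h5 : 0 ≤ ∑ i, ‖(F.L i + star (F.L i)) η‖ ^ 2 := by positivity
    rw [← mul_pow, ← Real.sq_sqrt h5]
    have h6 : 0 ≤ (√(Fintype.card α : ℝ) - 1) * ‖η‖ := mul_nonneg (by linarith) (norm_nonneg _)
    gcongr

end Crest.Agent.R78F
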