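import Crest.Agent.R78F.Defs

/-!
# Row 78: a Möbius type unitary (MOB)
-/

set_option autoImplicit false

namespace Crest.Agent.R78F

open scoped InnerProductSpace ComplexConjugate
open Finset Crest.Agent.R124

namespace Mob

section alg
variable {A : Type*} [Ring A] [Algebra ℂ A]

/-- product of two elements of the commutative algebra spanned by `1` and an idempotent -/
lemma idem_mul {Q : A} (hQ : Q * Q = Q) (a b : ℂ) :
    (Q + a • (1 - Q)) * (Q + b • (1 - Q)) = Q + (a * b) • (1 - Q) := by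
  simp only [mul_add, add_mul, mul_sub, sub_mul, smul_mul_assoc, mul_smul_comm, mul_one, one_mul,
    hQ, smul_sub]
  module

omit [Algebra ℂ A] in
/-- the Möbius identity -/
lemma mob_id {T S N M : A} (h2 : N * (1 - T) = 1) (h3 : (1 - S) * M = 1) :
    (1 - S) * N * (1 - T * S) * M * (1 - T) = 1 - S * T := by
  have e : N * (1 - T * S) * M = M + N - 1 := by
    have : 1 - T * S = (1 - T) + (1 - S) - (1 - T) * (1 - S) := by noncomm_ring
    rw [this]
    calc N * ((1 - T) + (1 - S) - (1 - T) * (1 - S)) * M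
        = (N * (1 - T)) * M + N * ((1 - S) * M) - (N * (1 - T)) * ((1 - S) * M) := by
          noncomm_ring
      _ = M + N - 1 := by rw [h2, h3]; simp
  calc (1 - S) * N * (1 - T * S) * M * (1 - T)
      = (1 - S) * (N * (1 - T * S) * M) * (1 - T) := by noncomm_ring
    _ = ((1 - S) * M) * (1 - T) + (1 - S) * (N * (1 - T)) - (1 - S) * (1 - T) := by
        rw [e]; noncomm_ring
    _ = 1 - S * T := by rw [h2, h3]; noncomm_ring

/-- the conjugation formula -/
lemma conj_id {G G' P Q X l N : A} {c g gi : ℂ} (hg : g * gi = 1) (hgc : g * g = 1 - c * c)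
    (h1 : (1 - c • G) * N = 1) (h2 : N * (1 - c • G) = 1)
    (hQ : Q * Q = Q) (hGX : G * X = X * G + l * Q) (hG'X : G' * X = X * G')
    (hPX : P * X = X * P) (hGl : G * (l * Q) = 0) (hG'l : G' * (l * Q) = X * Q)
    (hQG' : Q * G' = 0) (hQX : Q * X = 0) (hQl : Q * l = l * Q) :
    ((Q + gi • (1 - Q)) * (1 - c • G') * N * (P + g • (1 - P))) * X =
      (X * (1 - (1 - g) • Q) + c • (l * Q)) *
        ((Q + gi • (1 - Q)) * (1 - c • G') * N * (P + g • (1 - P))) := by
  have s1 : (P + g • (1 - P)) * X = X * (P + g • (1 - P)) := by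
    simp only [mul_add, add_mul, mul_sub, sub_mul, smul_mul_assoc, mul_smul_comm, mul_one, one_mul,
      hPX]
  have s2' : (1 - c • G) * (X + c • (l * Q)) = X * (1 - c • G) := by
    simp only [mul_add, mul_sub, sub_mul, smul_mul_assoc, mul_smul_comm, mul_one, one_mul,
      hGX, hGl, smul_add, smul_zero]
    abel_nf
  have s2 : N * X = (X + c • (l * Q)) * N := by
    calc N * X = N * (X * ((1 - c • G) * N)) := by rw [h1, mul_one]
      _ = (N * (1 - c • G)) * (X + c • (l * Q)) * N := by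
          rw [← mul_assoc X, ← s2']; noncomm_ring
      _ = _ := by rw [h2, one_mul]
  have hlQG' : l * Q * G' = 0 := by rw [mul_assoc, hQG', mul_zero]
  have hXQG' : X * Q * G' = 0 := by rw [mul_assoc, hQG', mul_zero]
  have s3 : (1 - c • G') * (X + c • (l * Q)) =
      (X * (1 - (c * c) • Q) + c • (l * Q)) * (1 - c • G') := by
    simp only [mul_add, add_mul, mul_sub, sub_mul, smul_mul_assoc, mul_smul_comm, mul_one, one_mul,
      hG'X, hG'l, hlQG', hXQG', smul_add, smul_zero, smul_sub]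
    module
  have hQXQ : Q * (X * Q) = 0 := by rw [← mul_assoc, hQX, zero_mul]
  have hQlQ : Q * (l * Q) = l * Q := by rw [← mul_assoc, hQl, mul_assoc, hQ]
  have hXQQ : X * Q * Q = X * Q := by rw [mul_assoc, hQ]
  have hlQQ : l * Q * Q = l * Q := by rw [mul_assoc, hQ]
  have hgi : gi * (c * c) = gi - g := by
    have : c * c = 1 - g * g := by rw [hgc]; ring
    rw [this]; linear_combination (-g) * hg
  have s4 : (Q + gi • (1 - Q)) * (X * (1 - (c * c) • Q) + c • (l * Q)) =
      (X * (1 - (1 - g) • Q) + c • (l * Q)) * (Q + gi • (1 - Q)) := by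
    simp only [mul_add, add_mul, mul_sub, sub_mul, smul_mul_assoc, mul_smul_comm, mul_one, one_mul,
      hQX, hQXQ, hQlQ, hXQQ, hlQQ, smul_add, smul_zero, smul_sub, smul_smul]
    match_scalars <;> first | ring1 | linear_combination (-1 : ℂ) * hgi
  calc ((Q + gi • (1 - Q)) * (1 - c • G') * N * (P + g • (1 - P))) * X
      = (Q + gi • (1 - Q)) * (1 - c • G') * N * ((P + g • (1 - P)) * X) := by
        simp only [mul_assoc]
    _ = (Q + gi • (1 - Q)) * (1 - c • G') * (N * X) * (P + g • (1 - P)) := by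
        rw [s1]; simp only [mul_assoc]
    _ = (Q + gi • (1 - Q)) * ((1 - c • G') * (X + c • (l * Q))) * N * (P + g • (1 - P)) := by
        rw [s2]; simp only [mul_assoc]
    _ = ((Q + gi • (1 - Q)) * (X * (1 - (c * c) • Q) + c • (l * Q))) * (1 - c • G') * N *
          (P + g • (1 - P)) := by
        rw [s3]; simp only [mul_assoc]
    _ = _ := by rw [s4]; simp only [mul_assoc]

end alg

section cstar
variable {A : Type*} [CStarAlgebra A]

lemma norm_mul_sub_one {x y : A} {a b : ℝ} (hx : ‖x - 1‖ ≤ a) (hy : ‖y - 1‖ ≤ b) :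
    ‖x * y - 1‖ ≤ a * b + a + b := by
  have e : x * y - 1 = (x - 1) * (y - 1) + (x - 1) + (y - 1) := by noncomm_ring
  have ha : 0 ≤ a := (norm_nonneg _).trans hx
  rw [e]
  refine (norm_add₃_le).trans ?_
  have := (norm_mul_le (x - 1) (y - 1)).trans (mul_le_mul hx hy (norm_nonneg _) ha)
  linarith

lemma norm_idem_sub_one {Q : A} (hQ : Q * Q = Q) (hs : star Q = Q) (a : ℝ) :
    ‖Q + (a : ℂ) • (1 - Q) - 1‖ ≤ |a - 1| := by
  have e : Q + (a : ℂ) • (1 - Q) - 1 = ((a - 1 : ℝ) : ℂ) • (1 - Q) := by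
    push_cast; module
  have hp : IsStarProjection Q := ⟨hQ, hs⟩
  have h1 := IsStarProjection.norm_le _ hp.one_sub
  rw [e, norm_smul, Complex.norm_real, Real.norm_eq_abs]
  exact mul_le_of_le_one_right (abs_nonneg _) h1

/-- the Möbius unitary of a partial isometry `G` -/
lemma exists_unitary {G P Q : A} (hP : P * P = P) (hPs : star P = P) (hQ : Q * Q = Q)
    (hQs : star Q = Q) (h1 : star G * G = 1 - Q) (h2 : G * star G = 1 - P) {c : ℝ} (hc : 0 < c)
    (hc2 : c ≤ 1 / 2) :
    ∃ U : A, U ∈ unitary A ∧ ‖U - 1‖ ≤ 20 * c ∧ ∀ X l : A, G * X = X * G + l * Q →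
      star G * X = X * star G → P * X = X * P → G * (l * Q) = 0 → star G * (l * Q) = X * Q →
      Q * star G = 0 → Q * X = 0 → Q * l = l * Q →
      U * X * star U = X * (1 - ((1 - √(1 - c ^ 2) : ℝ) : ℂ) • Q) + (c : ℂ) • (l * Q) := by
  set g : ℝ := √(1 - c ^ 2) with hgdef
  have hc3 : c ^ 2 ≤ 1 / 4 := by nlinarith
  have hgg : g * g = 1 - c ^ 2 := Real.mul_self_sqrt (by linarith)
  have hg0 : 0 ≤ g := Real.sqrt_nonneg _
  have hg1 : g ≤ 1 := by nlinarith
  have hg2 : 1 / 2 ≤ g := by nlinarith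
  have hg3 : 1 - g ≤ c ^ 2 := by nlinarith
  have hgpos : 0 < g := by linarith
  have hggi : (g : ℂ) * ((g⁻¹ : ℝ) : ℂ) = 1 := by
    rw [← Complex.ofReal_mul, mul_inv_cancel₀ hgpos.ne', Complex.ofReal_one]
  have hggc : (g : ℂ) * g = 1 - (c : ℂ) * c := by
    rw [← Complex.ofReal_mul, hgg]; push_cast; ring
  have hG : ‖G‖ ≤ 1 := by
    have hp : IsStarProjection Q := ⟨hQ, hQs⟩
    have h3 := IsStarProjection.norm_le _ hp.one_sub
    rw [← h1, CStarRing.norm_star_mul_self] at h3
    nlinarith [norm_nonneg G]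
  have hT : ‖(c : ℂ) • G‖ ≤ c := by
    rw [norm_smul, Complex.norm_real, Real.norm_eq_abs, abs_of_pos hc]
    exact mul_le_of_le_one_right hc.le hG
  obtain ⟨u, hu⟩ := isUnit_one_sub_of_norm_lt_one (x := (c : ℂ) • G) (by linarith)
  set N : A := ((u⁻¹ : Aˣ) : A) with hN
  have hN1 : (1 - (c : ℂ) • G) * N = 1 := by rw [← hu, hN, Units.mul_inv]
  have hN2 : N * (1 - (c : ℂ) • G) = 1 := by rw [← hu, hN, Units.inv_mul]
  have hsT : star (1 - (c : ℂ) • G) = 1 - (c : ℂ) • star G := by
    simp [star_sub, star_smul]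
  have hM1 : star N * (1 - (c : ℂ) • star G) = 1 := by
    rw [← hsT, ← star_mul, hN1, star_one]
  have hM2 : (1 - (c : ℂ) • star G) * star N = 1 := by
    rw [← hsT, ← star_mul, hN2, star_one]
  have hNn : ‖N - 1‖ ≤ 2 * c := by
    have e : N - 1 = ((c : ℂ) • G) * (N - 1) + (c : ℂ) • G := by
      have : N = 1 + ((c : ℂ) • G) * N := by
        rw [← hN1]; noncomm_ring
      calc N - 1 = ((c : ℂ) • G) * N := by rw [sub_eq_iff_eq_add']; exact this
        _ = _ := by noncomm_ring
    have h3 : ‖N - 1‖ ≤ c * ‖N - 1‖ + c := by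
      calc ‖N - 1‖ = ‖((c : ℂ) • G) * (N - 1) + (c : ℂ) • G‖ := by rw [← e]
        _ ≤ ‖((c : ℂ) • G) * (N - 1)‖ + ‖(c : ℂ) • G‖ := norm_add_le _ _
        _ ≤ c * ‖N - 1‖ + c := by
          gcongr
          exact (norm_mul_le _ _).trans (by gcongr)
    nlinarith [norm_nonneg (N - 1)]
  set Di : A := Q + ((g⁻¹ : ℝ) : ℂ) • (1 - Q) with hDi
  set D : A := Q + (g : ℂ) • (1 - Q) with hD
  set D2 : A := P + (g : ℂ) • (1 - P) with hD2
  set D2i : A := P + ((g⁻¹ : ℝ) : ℂ) • (1 - P) with hD2i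
  have hDis : star Di = Di := by simp [hDi, star_add, star_smul, star_sub, hQs]
  have hD2s : star D2 = D2 := by simp [hD2, star_add, star_smul, star_sub, hPs]
  have hDDi : D * Di = 1 := by rw [hD, hDi, idem_mul hQ, hggi]; simp
  have hDiD : Di * D = 1 := by rw [hD, hDi, idem_mul hQ, mul_comm, hggi]; simp
  have hD2iD2 : D2i * D2 = 1 := by rw [hD2, hD2i, idem_mul hP, mul_comm, hggi]; simp
  have hDD : D * D = 1 - ((c : ℂ) • star G) * ((c : ℂ) • G) := by
    rw [hD, idem_mul hQ, hggc, smul_mul_smul_comm, h1]; module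
  have hD2D2 : D2 * D2 = 1 - ((c : ℂ) • G) * ((c : ℂ) • star G) := by
    rw [hD2, idem_mul hP, hggc, smul_mul_smul_comm, h2]; module
  set U : A := Di * (1 - (c : ℂ) • star G) * N * D2 with hU
  have hsU : star U = D2 * star N * (1 - (c : ℂ) • G) * Di := by
    rw [hU, star_mul, star_mul, star_mul, hDis, hD2s, ← hsT, star_star]
    simp only [mul_assoc]
  have hUU : U * star U = 1 := by
    rw [hsU, hU]
    calc Di * (1 - (c : ℂ) • star G) * N * D2 * (D2 * star N * (1 - (c : ℂ) • G) * Di)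
        = Di * ((1 - (c : ℂ) • star G) * N * (D2 * D2) * star N * (1 - (c : ℂ) • G)) * Di := by
          simp only [mul_assoc]
      _ = Di * (D * D) * Di := by rw [hD2D2, mob_id hN2 hM2, hDD]
      _ = (Di * D) * (D * Di) := by simp only [mul_assoc]
      _ = 1 := by rw [hDiD, hDDi, one_mul]
  have hVU : (D2i * (1 - (c : ℂ) • G) * star N * D) * U = 1 := by
    rw [hU]
    calc (D2i * (1 - (c : ℂ) • G) * star N * D) * (Di * (1 - (c : ℂ) • star G) * N * D2)
        = D2i * ((1 - (c : ℂ) • G) * (star N * ((D * Di) * (1 - (c : ℂ) • star G))) * N) * D2 := by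
          simp only [mul_assoc]
      _ = 1 := by rw [hDDi, one_mul, hM1, mul_one, hN1, mul_one, hD2iD2]
  have hUU' : star U * U = 1 := by
    have : star U = D2i * (1 - (c : ℂ) • G) * star N * D := by
      calc star U = ((D2i * (1 - (c : ℂ) • G) * star N * D) * U) * star U := by rw [hVU, one_mul]
        _ = _ := by rw [mul_assoc _ U, hUU, mul_one]
    rw [this, hVU]
  refine ⟨U, ⟨hUU', hUU⟩, ?_, fun X l a1 a2 a3 a4 a5 a6 a7 a8 => ?_⟩
  · have n1 : ‖Di - 1‖ ≤ c := by
      refine (norm_idem_sub_one hQ hQs _).trans ?_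
      have h4 : 1 ≤ g⁻¹ := one_le_inv_iff₀.2 ⟨hgpos, hg1⟩
      rw [abs_of_nonneg (by linarith), sub_le_iff_le_add, inv_le_iff_one_le_mul₀ hgpos]
      nlinarith
    have n2 : ‖(1 - (c : ℂ) • star G) - 1‖ ≤ c := by
      rw [← hsT, ← norm_star, star_sub, star_star, star_one, sub_sub_cancel_left, norm_neg]
      exact hT
    have n4 : ‖D2 - 1‖ ≤ c := by
      refine (norm_idem_sub_one hP hPs _).trans ?_
      rw [abs_of_nonpos (by linarith)]
      nlinarith
    have m1 : ‖Di * (1 - (c : ℂ) • star G) - 1‖ ≤ 3 * c :=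
      (norm_mul_sub_one n1 n2).trans (by nlinarith)
    have m2 : ‖Di * (1 - (c : ℂ) • star G) * N - 1‖ ≤ 8 * c :=
      (norm_mul_sub_one m1 hNn).trans (by nlinarith)
    exact (norm_mul_sub_one m2 n4).trans (by nlinarith)
  · have := conj_id (P := P) hggi hggc hN1 hN2 hQ a1 a2 a3 a4 a5 a6 a7 a8
    rw [← hDi, ← hD2, ← hU] at this
    rw [this, mul_assoc, hUU, mul_one]
    push_cast
    rfl

end cstar

section fock
variable {H : Type} [NormedAddCommGroup H] [InnerProductSpace ℂ H] [CompleteSpace H]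
  {α : Type} [Fintype α] [DecidableEq α]

lemma star_mul_vac {L : α → Op H} (h : ∀ i j, star (L i) * L j = if i = j then 1 else 0)
    (i : α) : star (L i) * vac L = 0 := by
  simp only [vac, mul_sub, mul_one, Finset.mul_sum, ← mul_assoc, h, ite_mul, one_mul, zero_mul,
    Finset.sum_ite_eq, Finset.mem_univ, if_true, sub_self]

omit [DecidableEq α] in
lemma star_vac (L : α → Op H) : star (vac L) = vac L := by
  simp [vac, star_sub, star_sum]

lemma vac_mul {L : α → Op H} (h : ∀ i j, star (L i) * L j = if i = j then 1 else 0)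
    (i : α) : vac L * L i = 0 := by
  have := congrArg star (star_mul_vac h i)
  rwa [star_mul, star_star, star_vac, star_zero] at this

lemma vac_mul_vac {L : α → Op H} (h : ∀ i j, star (L i) * L j = if i = j then 1 else 0) :
    vac L * vac L = vac L := by
  conv_lhs => arg 2; unfold vac
  simp only [mul_sub, mul_one, Finset.mul_sum, ← mul_assoc, vac_mul h, zero_mul,
    Finset.sum_const_zero, sub_zero]

omit [DecidableEq α] in
lemma commute_vac {L : α → Op H} {x : Op H} (h1 : ∀ i, Commute x (L i))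
    (h2 : ∀ i, Commute x (star (L i))) : Commute x (vac L) :=
  (Commute.one_right x).sub_right (Commute.sum_right _ _ _ fun i _ => (h1 i).mul_right (h2 i))

end fock

end Mob

theorem mobStmt : MobStmt := by
  intro α _ _ H _ _ _ F c hc hc2
  set G : Op H := ∑ j, F.L j * star (F.L' j) with hG
  have hsG : star G = ∑ j, F.L' j * star (F.L j) := by simp [hG, star_sum]
  have h1 : star G * G = 1 - vac F.L' := by
    rw [hsG, hG, Finset.sum_mul_sum, vac, sub_sub_cancel]
    refine Finset.sum_congr rfl fun j _ => ?_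
    have : ∀ k, F.L' j * star (F.L j) * (F.L k * star (F.L' k)) =
        if j = k then F.L' j * star (F.L' k) else 0 := fun k => by
      rw [mul_assoc, ← mul_assoc (star (F.L j)), F.fk.ll]
      split_ifs <;> simp
    simp [this]
  have h2 : G * star G = 1 - vac F.L := by
    rw [hsG, hG, Finset.sum_mul_sum, vac, sub_sub_cancel]
    refine Finset.sum_congr rfl fun j _ => ?_
    have : ∀ k, F.L j * star (F.L' j) * (F.L' k * star (F.L k)) =
        if j = k then F.L j * star (F.L k) else 0 := fun k => by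
      rw [mul_assoc, ← mul_assoc (star (F.L' j)), F.fk'.ll]
      split_ifs <;> simp
    simp [this]
  obtain ⟨U, hU, hn, hconj⟩ := Mob.exists_unitary (Mob.vac_mul_vac F.fk.ll) (Mob.star_vac _)
    (Mob.vac_mul_vac F.fk'.ll) (Mob.star_vac _) h1 h2 hc hc2
  refine ⟨U, hU, hn, fun i => hconj _ _ ?_ ?_ ?_ ?_ ?_ ?_ ?_ ?_⟩
  · have : ∀ j, F.L j * star (F.L' j) * F.R' i =
        F.R' i * (F.L j * star (F.L' j)) + if j = i then F.L j * vac F.L' else 0 := fun j => by
      have e := F.fk'.slr j i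
      rw [sub_eq_iff_eq_add'] at e
      rw [mul_assoc, e, mul_add, ← mul_assoc, (F.cLR j i).1.eq, mul_assoc]
      split_ifs <;> simp
    rw [hG, Finset.sum_mul, Finset.mul_sum]
    simp [this, Finset.sum_add_distrib]
  · rw [hsG]
    refine (Commute.sum_left _ _ _ fun j _ => (F.fk'.lr j i).mul_left ?_).eq
    simpa using (F.cLR j i).2.star_star
  · refine (Mob.commute_vac (fun j => (F.cLR j i).1.symm) (fun j => ?_)).symm.eq
    simpa using (F.cLR j i).2.star_star.symm
  · rw [hG, Finset.sum_mul]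
    refine Finset.sum_eq_zero fun j _ => ?_
    rw [mul_assoc, ← mul_assoc (star (F.L' j)), ← (F.cLL i j).2.eq, mul_assoc,
      Mob.star_mul_vac F.fk'.ll, mul_zero, mul_zero]
  · rw [hsG, Finset.sum_mul, ← F.fk'.lv]
    have : ∀ j, F.L' j * star (F.L j) * (F.L i * vac F.L') =
        if j = i then F.L' j * vac F.L' else 0 := fun j => by
      rw [mul_assoc, ← mul_assoc (star (F.L j)), F.fk.ll]
      split_ifs <;> simp
    simp [this]
  · rw [hsG, Finset.mul_sum]
    refine Finset.sum_eq_zero fun j _ => ?_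
    rw [← mul_assoc, Mob.vac_mul F.fk'.ll, zero_mul]
  · rw [← F.fk'.vr, Mob.vac_mul F.fk'.rr]
  · exact (Mob.commute_vac (fun j => (F.cLL i j).1) (fun j => (F.cLL i j).2)).symm.eq

end Crest.Agent.R78F
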