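import Crest.Agent.R78F.Defs

/-!
# Row 78 (S0104, S0105): the double Fock space exists (`ModelStmt`)
-/

set_option autoImplicit false
set_option linter.unusedSectionVars false

namespace Crest.Agent.R78F

open scoped InnerProductSpace ComplexConjugate
open Finset Filter Topology Crest.Agent.R124

namespace Model

/-- the Hilbert sum of copies of `E` -/
abbrev K (I E : Type) [NormedAddCommGroup E] : Type := lp (fun _ : I => E) 2

section gen

variable {I : Type} [DecidableEq I] {E : Type} [NormedAddCommGroup E] [InnerProductSpace ℂ E]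
  [CompleteSpace E]

/-- inclusion of a summand -/
noncomputable def sg (w : I) : E →L[ℂ] K I E :=
  lp.singleContinuousLinearMap ℂ (fun _ : I => E) 2 w

/-- a coordinate -/
noncomputable def ev (w : I) : K I E →L[ℂ] E := lp.evalCLM ℂ (fun _ : I => E) 2 w

theorem ev_sg (w w' : I) (x : E) : ev w (sg w' x) = if w = w' then x else 0 := by
  change (lp.single 2 w' x : K I E) w = _
  split_ifs with h
  · subst h
    exact lp.single_apply_self _ _ _
  · exact lp.single_apply_ne _ _ _ h

theorem inner_sg_left (w : I) (x : E) (f : K I E) : ⟪sg w x, f⟫_ℂ = ⟪x, ev w f⟫_ℂ :=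
  lp.inner_single_left w x f

theorem inner_sg_right (w : I) (x : E) (f : K I E) : ⟪f, sg w x⟫_ℂ = ⟪ev w f, x⟫_ℂ :=
  lp.inner_single_right w x f

theorem norm_sg (w : I) (x : E) : ‖(sg w x : K I E)‖ = ‖x‖ := by
  have h : ‖(lp.single 2 w x : K I E)‖ = ‖x‖ :=
    lp.norm_single (E := fun _ : I => E) (p := 2) (by norm_num) w x
  exact h

theorem norm_ev_le (w : I) (f : K I E) : ‖ev w f‖ ≤ ‖f‖ :=
  lp.norm_apply_le_norm (by norm_num) f w

theorem ext_sg {F : Type} [NormedAddCommGroup F] [NormedSpace ℂ F] {S T : K I E →L[ℂ] F}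
    (h : ∀ w x, S (sg w x) = T (sg w x)) : S = T :=
  lp.ext_continuousLinearMap (by norm_num) fun w => ContinuousLinearMap.ext fun x => h w x

theorem ext_ev {f g : K I E} (h : ∀ w, ev w f = ev w g) : f = g := lp.ext (funext h)

theorem eq_of_inner {f g : K I E} (h : ∀ w x, ⟪sg w x, f⟫_ℂ = ⟪sg w x, g⟫_ℂ) : f = g :=
  ext_ev fun w => ext_inner_left ℂ fun x => by rw [← inner_sg_left, ← inner_sg_left, h]

theorem hasSum_normSq (f : K I E) : HasSum (fun w => ‖ev w f‖ ^ 2) (‖f‖ ^ 2) := by
  have h : HasSum (fun w => ‖f w‖ ^ 2) (‖f‖ ^ 2) := by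
    simpa using lp.hasSum_norm (p := 2) (by norm_num) f
  exact h

theorem separable [Countable I] [TopologicalSpace.SeparableSpace E] :
    TopologicalSpace.SeparableSpace (K I E) := by
  rw [← TopologicalSpace.isSeparable_univ_iff]
  have h1 : TopologicalSpace.IsSeparable (⋃ n : I, Set.range (sg (E := E) n)) :=
    .iUnion fun n => TopologicalSpace.isSeparable_range (map_continuous _)
  refine (h1.span (R := ℂ)).closure.mono fun f _ => ?_
  refine mem_closure_of_tendsto (lp.hasSum_single (by norm_num) f) (.of_forall fun s => ?_)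
  exact Submodule.sum_mem _ fun n _ =>
    Submodule.subset_span (Set.mem_iUnion.2 ⟨n, f n, rfl⟩)

/-- inclusion of a summand as an isometry -/
noncomputable def sgI (w : I) : E →ₗᵢ[ℂ] K I E := ⟨(sg w).toLinearMap, norm_sg w⟩

theorem orth (f : I → I) (hf : Function.Injective f) :
    OrthogonalFamily ℂ (fun _ : I => E) (fun w => sgI (E := E) (f w)) := by
  intro i j hij x y
  change ⟪sg (f i) x, sg (f j) y⟫_ℂ = 0
  rw [inner_sg_left, ev_sg, if_neg (hf.ne hij), inner_zero_right]

/-- the isometry of an injective map of the index set -/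
noncomputable def shift (f : I → I) (hf : Function.Injective f) : Op (K I E) :=
  (orth f hf).linearIsometry.toContinuousLinearMap

theorem shift_sg (f : I → I) (hf : Function.Injective f) (w : I) (x : E) :
    shift f hf (sg w x) = sg (f w) x :=
  (orth f hf).linearIsometry_apply_single x

theorem star_shift_sg (f : I → I) (hf : Function.Injective f) (w : I) (x : E) :
    star (shift f hf) (sg (f w) x) = sg w x :=
  eq_of_inner fun w' y => by
    rw [inner_star_right, shift_sg, inner_sg_left, inner_sg_left, ev_sg, ev_sg]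
    simp only [hf.eq_iff]

theorem star_shift_zero (f : I → I) (hf : Function.Injective f) {w : I} (h : ∀ i, f i ≠ w)
    (x : E) : star (shift f hf) (sg w x) = 0 :=
  eq_of_inner fun w' y => by
    rw [inner_star_right, shift_sg, inner_sg_left, ev_sg, if_neg (h w'), inner_zero_right,
      inner_zero_right]

/-- the amplification -/
noncomputable def am (I : Type) : Op E →+* Op (K I E) where
  toFun y := lp.mapCLM 2 (fun _ => y) (norm_nonneg y) (fun _ => le_rfl)
  map_one' := by ext f n; rfl
  map_mul' x y := by ext f n; rfl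
  map_zero' := by ext f n; rfl
  map_add' x y := by ext f n; rfl

theorem ev_am (y : Op E) (w : I) (f : K I E) : ev w (am I y f) = y (ev w f) := rfl

theorem am_sg (y : Op E) (w : I) (x : E) : am I y (sg w x) = sg w (y x) :=
  ext_ev fun w' => by
    rw [ev_am, ev_sg, ev_sg]
    split_ifs
    · rfl
    · exact map_zero y

theorem am_star (y : Op E) : am I (star y) = star (am I y) :=
  ext_sg fun w x => eq_of_inner fun w' x' => by
    rw [inner_star_right, am_sg, am_sg, inner_sg_left, inner_sg_left, ev_sg, ev_sg]
    split_ifs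
    · exact inner_star_right y x' x
    · simp

theorem am_comm (y : Op E) (f : I → I) (hf : Function.Injective f) :
    Commute (am I y) (shift f hf) :=
  ext_sg fun w x => by simp only [mul_apply_eq_comp, shift_sg, am_sg]

theorem am_comm_star (y : Op E) (f : I → I) (hf : Function.Injective f) :
    Commute (am I y) (star (shift f hf)) := by
  have h := (am_comm (star y) f hf).star_star
  rwa [← am_star, star_star] at h

end gen

theorem Fk_map {α : Type} [Fintype α] [DecidableEq α] {E F : Type} [NormedAddCommGroup E]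
    [InnerProductSpace ℂ E] [CompleteSpace E] [NormedAddCommGroup F] [InnerProductSpace ℂ F]
    [CompleteSpace F] (φ : Op E →+* Op F) (hφ : ∀ y, φ (star y) = star (φ y)) {L R : α → Op E}
    (h : Fk L R) : Fk (fun i => φ (L i)) (fun i => φ (R i)) := by
  have hv : ∀ S : α → Op E, vac (fun i => φ (S i)) = φ (vac S) := by
    intro S
    simp only [vac, map_sub, map_one, map_sum, map_mul, hφ]
  refine ⟨fun i j => ?_, fun i j => ?_, fun i j => (h.lr i j).map φ, fun i j => ?_, ?_,
    fun i => ?_⟩
  · rw [← hφ, ← map_mul, h.ll, apply_ite φ, map_one, map_zero]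
  · rw [← hφ, ← map_mul, h.rr, apply_ite φ, map_one, map_zero]
  · rw [← hφ, ← map_mul, ← map_mul, ← map_sub, h.slr, apply_ite φ, map_zero, hv]
  · rw [hv, hv, h.vr]
  · rw [hv, ← map_mul, ← map_mul, h.lv]

section fock

variable {A : Type} [Fintype A] [DecidableEq A] {E : Type} [NormedAddCommGroup E]
  [InnerProductSpace ℂ E] [CompleteSpace E]

/-- left creation operators -/
noncomputable def cL (E : Type) [NormedAddCommGroup E] [InnerProductSpace ℂ E] [CompleteSpace E]
    (i : A) : Op (K (List A) E) :=
  shift (List.cons i) List.cons_injective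

/-- right creation operators -/
noncomputable def cR (E : Type) [NormedAddCommGroup E] [InnerProductSpace ℂ E] [CompleteSpace E]
    (i : A) : Op (K (List A) E) :=
  shift (fun w => w ++ [i]) (List.append_left_injective [i])

theorem cL_sg (i : A) (w : List A) (x : E) : cL E i (sg w x) = sg (i :: w) x := shift_sg _ _ w x

theorem cR_sg (i : A) (w : List A) (x : E) : cR E i (sg w x) = sg (w ++ [i]) x :=
  shift_sg _ _ w x

theorem star_cL_nil (i : A) (x : E) : star (cL E i) (sg [] x) = 0 :=
  star_shift_zero _ _ (fun _ => List.cons_ne_nil _ _) x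

theorem star_cR_nil (i : A) (x : E) : star (cR E i) (sg [] x) = 0 :=
  star_shift_zero _ _ (fun _ => by simp) x

theorem star_cL_cons (i a : A) (w : List A) (x : E) :
    star (cL E i) (sg (a :: w) x) = if i = a then sg w x else 0 := by
  split_ifs with h
  · subst h
    exact star_shift_sg _ _ w x
  · exact star_shift_zero _ _ (fun _ h' => h (List.cons.inj h').1) x

theorem star_cR_concat (i a : A) (w : List A) (x : E) :
    star (cR E i) (sg (w ++ [a]) x) = if i = a then sg w x else 0 := by
  split_ifs with h
  · subst h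
    exact star_shift_sg (fun w => w ++ [i]) _ w x
  · refine star_shift_zero _ _ (fun _ h' => h ?_) x
    have := List.append_inj_right' h' rfl
    exact (List.cons.inj this).1

theorem vac_cL : vac (cL E : A → Op (K (List A) E)) = sg [] ∘L ev [] := by
  refine ext_sg fun w x => ?_
  simp only [vac, sub_apply, one_apply_eq_self, _root_.sum_apply, mul_apply_eq_comp,
    ContinuousLinearMap.comp_apply, ev_sg]
  cases w with
  | nil => simp [star_cL_nil]
  | cons a w =>
    rw [Finset.sum_eq_single a]
    · simp [star_cL_cons, cL_sg]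
    · intro b _ hb
      simp [star_cL_cons, hb]
    · simp

theorem vac_cR : vac (cR E : A → Op (K (List A) E)) = sg [] ∘L ev [] := by
  refine ext_sg fun w x => ?_
  simp only [vac, sub_apply, one_apply_eq_self, _root_.sum_apply, mul_apply_eq_comp,
    ContinuousLinearMap.comp_apply, ev_sg]
  rcases List.eq_nil_or_concat' w with rfl | ⟨w, a, rfl⟩
  · simp [star_cR_nil]
  · rw [Finset.sum_eq_single a]
    · simp [star_cR_concat, cR_sg]
    · intro b _ hb
      simp [star_cR_concat, hb]
    · simp

theorem fk_fock : Fk (cL E : A → Op (K (List A) E)) (cR E) := by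
  refine ⟨fun i j => ext_sg fun w x => ?_, fun i j => ext_sg fun w x => ?_,
    fun i j => ext_sg fun w x => ?_, fun i j => ext_sg fun w x => ?_, by rw [vac_cL, vac_cR],
    fun i => ext_sg fun w x => ?_⟩
  · rw [mul_apply_eq_comp, cL_sg, star_cL_cons]
    split_ifs <;> rfl
  · rw [mul_apply_eq_comp, cR_sg, star_cR_concat]
    split_ifs <;> rfl
  · simp only [mul_apply_eq_comp, cL_sg, cR_sg, List.cons_append]
  · rw [sub_apply, mul_apply_eq_comp, mul_apply_eq_comp, cR_sg, vac_cL]
    cases w with
    | nil =>
      rw [star_cL_nil, List.nil_append, star_cL_cons, map_zero, sub_zero]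
      split_ifs
      · simp [ev_sg]
      · rfl
    | cons a w =>
      rw [List.cons_append, star_cL_cons, star_cL_cons]
      split_ifs <;> simp [ev_sg, cR_sg]
  · rw [vac_cL, mul_apply_eq_comp, mul_apply_eq_comp, ContinuousLinearMap.comp_apply, cL_sg,
      cR_sg, List.nil_append]

/-- the slice map -/
noncomputable def sl (x : Op (K (List A) E)) : Op (K (List A) E) :=
  am (List A) (ev [] ∘L x ∘L sg [])

theorem isSlice : IsSlice (cR E : A → Op (K (List A) E)) sl := by
  refine ⟨fun x j => ⟨am_comm _ _ _, am_comm_star _ _ _⟩, fun x y => ?_, fun x => ?_,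
    fun x hx => ?_, fun ι _ x ρ hx ξ => ?_⟩
  · rw [sl, sl, sl, ← map_add]
    congr 1
  · rw [sl, sl, ← am_star]
    congr 1
    ext v
    refine ext_inner_right ℂ fun u => ?_
    rw [inner_star_left]
    simp only [ContinuousLinearMap.comp_apply]
    rw [← inner_sg_right, ← inner_sg_left, inner_star_left]
  · have h1 : Commute x (vac (cR E : A → Op (K (List A) E))) :=
      (Commute.one_right x).sub_right
        (Commute.sum_right _ _ _ fun j _ => (hx j).1.mul_right (hx j).2)
    rw [vac_cR] at h1
    refine ext_sg fun w y => ?_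
    rw [sl, am_sg]
    induction w using List.reverseRecOn with
    | nil =>
      have h2 := congrArg (fun T : Op (K (List A) E) => T (sg [] y)) h1.eq
      simpa [ev_sg] using h2.symm
    | append_singleton w j ih =>
      have h2 := congrArg (fun T : Op (K (List A) E) => T (sg w y)) (hx j).1.eq
      simp only [mul_apply_eq_comp] at h2
      rw [← cR_sg, ih, ← h2, cR_sg]
  · have h1 : HasSum (fun w => ∑ i, ‖ev w (sl (x i) ξ)‖ ^ 2) (∑ i, ‖sl (x i) ξ‖ ^ 2) :=
      hasSum_sum fun i _ => hasSum_normSq _
    refine hasSum_le (fun w => ?_) h1 ((hasSum_normSq ξ).mul_left (ρ ^ 2))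
    have h2 := hx (sg [] (ev w ξ))
    rw [norm_sg] at h2
    refine le_trans (Finset.sum_le_sum fun i _ => ?_) h2
    exact pow_le_pow_left₀ (norm_nonneg _) (norm_ev_le [] (x i (sg [] (ev w ξ)))) 2

end fock

section model

variable (α β : Type) [Fintype α] [DecidableEq α] [Fintype β] [DecidableEq β]

/-- the double Fock space -/
noncomputable def df : DF α β (K (List β) (K (List α) ℂ)) where
  L i := am _ (cL ℂ i)
  R i := am _ (cR ℂ i)
  L' := cL _
  R' := cR _
  Ω := sg [] (sg [] 1)
  fk := Fk_map _ am_star fk_fock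
  fk' := fk_fock
  cLL _ _ := ⟨am_comm _ _ _, am_comm_star _ _ _⟩
  cLR _ _ := ⟨am_comm _ _ _, am_comm_star _ _ _⟩
  cRL _ _ := ⟨am_comm _ _ _, am_comm_star _ _ _⟩
  cRR _ _ := ⟨am_comm _ _ _, am_comm_star _ _ _⟩
  norm_Ω := by rw [norm_sg, norm_sg, norm_one]
  LΩ i := by rw [← am_star, am_sg, star_cL_nil, map_zero]
  L'Ω j := star_cL_nil j _

theorem cyc : (df α β).Cyc := by
  intro z h1 h2 h0
  have key : ∀ (i : α) (y : K (List α) ℂ), z (sg [] y) = 0 →
      z (sg [] (cL ℂ i y)) + z (sg [] (star (cL ℂ i) y)) = 0 := by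
    intro i y hy
    have h3 := congrArg (fun T : Op (K (List β) (K (List α) ℂ)) => T (sg [] y)) (h1 i).eq
    simp only [mul_apply_eq_comp, hy, map_zero, add_apply, df, ← am_star, am_sg, map_add] at h3
    exact h3
  have s1 : ∀ w : List α, z (sg [] (sg w 1)) = 0 ∧ ∀ i, z (sg [] (sg (i :: w) 1)) = 0 := by
    intro w
    induction w with
    | nil =>
      refine ⟨h0, fun i => ?_⟩
      have := key i _ h0
      rwa [star_cL_nil, map_zero, map_zero, add_zero, cL_sg] at this
    | cons a w ih =>
      refine ⟨ih.2 a, fun i => ?_⟩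
      have := key i _ (ih.2 a)
      rw [star_cL_cons, cL_sg] at this
      split_ifs at this
      · rwa [ih.1, add_zero] at this
      · rwa [map_zero, map_zero, add_zero] at this
  have s2 : z ∘L sg [] = 0 := by
    refine ext_sg fun w c => ?_
    have : c = c • (1 : ℂ) := by simp
    rw [this, map_smul, map_smul, ContinuousLinearMap.comp_apply, (s1 w).1, smul_zero]
    rfl
  refine ext_sg fun w y => ?_
  induction w using List.reverseRecOn with
  | nil => exact congrArg (fun T : K (List α) ℂ →L[ℂ] K (List β) (K (List α) ℂ) => T y) s2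
  | append_singleton w j ih =>
    have h3 := congrArg (fun T : Op (K (List β) (K (List α) ℂ)) => T (sg w y)) (h2 j).eq
    simp only [mul_apply_eq_comp, ih, df, cR_sg] at h3
    simpa using h3

end model

end Model

theorem modelStmt : ModelStmt := by
  intro α β _ _ _ _
  have : TopologicalSpace.SeparableSpace (Model.K (List α) ℂ) := Model.separable
  exact ⟨Model.K (List β) (Model.K (List α) ℂ), inferInstance, inferInstance, inferInstance,
    Model.separable, Model.df α β, Model.cyc α β, Model.sl, Model.isSlice⟩

end Crest.Agent.R78F
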