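import Crest.Agent.R78F.Seq

/-! # Row 78 (S0105): the two sequence algebras are not unitarily conjugate -/

set_option autoImplicit false
set_option linter.unusedSectionVars false

namespace Crest.Agent.R78F

open scoped InnerProductSpace ComplexConjugate
open Finset Filter Topology Crest.Agent.R124

namespace NonConj

variable {H : Type} [NormedAddCommGroup H] [InnerProductSpace ℂ H] [CompleteSpace H]

lemma col_conj {ι : Type} [Fintype ι] {x : ι → Op H} {ρ : ℝ} (h : Col x ρ) (h0 : 0 ≤ ρ)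
    {W : Op H} (hW : W ∈ unitary (Op H)) : Col (fun i => star W * x i * W) ρ := by
  have h1 := norm_unitary_le hW
  have h2 : ‖star W‖ ≤ 1 := by rwa [norm_star]
  refine ((h.mul_left (star W)).mul_right W).mono (by positivity) ?_
  calc ‖star W‖ * ρ * ‖W‖ ≤ 1 * ρ * 1 := by gcongr
    _ = ρ := by ring

lemma col_lim {ι : Type} [Fintype ι] {x : ℕ → ι → Op H} {d : ι → Op H} {ρ : ℝ}
    (h : ∀ n, Col (x n) ρ) (hd : ∀ i, Tendsto (fun n => x n i) atTop (𝓝 (d i))) : Col d ρ := by
  intro ξ
  have : Tendsto (fun n => ∑ i, ‖x n i ξ‖ ^ 2) atTop (𝓝 (∑ i, ‖d i ξ‖ ^ 2)) := by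
    refine tendsto_finsetSum _ fun i _ => ?_
    have hc : Continuous fun y : Op H => ‖y ξ‖ ^ 2 := by fun_prop
    exact (hc.tendsto _).comp (hd i)
  exact le_of_tendsto' this fun n => h n ξ

lemma commute_cmp {T : Op (KK H)} (hT : Diag T) {m : ℕ} {y : Op H} (h : Commute T (emb m y)) :
    Commute (cmp m T) y := by
  have := congrArg (cmp m) h.eq
  rw [hT.cmp_mul', hT.cmp_mul, cmp_emb, if_pos rfl] at this
  exact this

end NonConj

open NonConj in
theorem nonConjStmt : NonConjStmt := by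
  intro H _ _ _ _ J D D' ι _ r b β lam E hD' hβ hlam hr hrJ hbD hbs hb hq hEd hEadd hEs hEfix hEcol
  rintro ⟨W, hW, hAB⟩
  have hW1 : star W * W = 1 := Unitary.star_mul_self_of_mem hW
  have hW2 : W * star W = 1 := Unitary.mul_star_self_of_mem hW
  have hconj : ∀ x : Op (KK H), star W * (W * x * star W) * W = x := fun x => by
    calc star W * (W * x * star W) * W = (star W * W) * x * (star W * W) := by
          simp only [mul_assoc]
      _ = x := by rw [hW1, one_mul, mul_one]
  have hA : ∀ y ∈ SeqSet (J : Set (Op H)) D', star W * y * W ∈ SeqSet (J : Set (Op H)) D := by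
    intro y hy
    obtain ⟨x, hx, rfl⟩ := (hAB y).1 hy
    rwa [hconj]
  have hB : ∀ x ∈ SeqSet (J : Set (Op H)) D, W * x * star W ∈ SeqSet (J : Set (Op H)) D' :=
    fun x hx => (hAB _).2 ⟨x, hx, rfl⟩
  -- (a)
  set x : ι → Op (KK H) := fun i => star W * amp (b i) * W with hx
  have hxA : ∀ i, x i ∈ SeqSet (J : Set (Op H)) D := fun i =>
    hA _ (amp_mem_seqSet (hD' (hbD i)) (hbD i))
  choose d hdD hd using fun i => (mem_seqSet.1 (hxA i)).2.2
  have hxs : ∀ i, star (x i) = x i := fun i => by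
    simp only [hx, star_mul, star_star, star_amp, hbs, mul_assoc]
  have hds : ∀ i, star (d i) = d i := fun i => by
    have h1 := (continuous_star.tendsto _).comp (hd i)
    have h2 : (star ∘ fun n => cmp n (x i)) = fun n => cmp n (x i) := by
      funext n
      simp only [Function.comp_apply, ← cmp_star, hxs]
    rw [h2] at h1
    exact tendsto_nhds_unique h1 (hd i)
  have hdc : Col d β := col_lim (x := fun n i => cmp n (x i))
    (fun n => (col_conj hb.amp hβ hW).cmp n) hd
  have hdr : Row d β := by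
    have : (fun i => star (d i)) = d := funext hds
    unfold Row; rw [this]; exact hdc
  obtain ⟨m, hm⟩ : ∃ m, ∑ i, 2 * ‖cmp m (x i) - d i‖ ≤ 1 := by
    have h1 : Tendsto (fun n => ∑ i, 2 * ‖cmp n (x i) - d i‖) atTop (𝓝 (∑ _i : ι, 2 * 0)) :=
      tendsto_finsetSum _ fun i _ =>
        (tendsto_iff_norm_sub_tendsto_zero.1 (hd i)).const_mul 2
    simp only [mul_zero, sum_const_zero] at h1
    exact (h1.eventually (ge_mem_nhds one_pos)).exists
  -- (b)
  have hemb : ∀ n, ∀ y ∈ J, emb n y ∈ SeqSet (J : Set (Op H)) D := fun n y hy =>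
    emb_mem_seqSet J.zero_mem D.zero_mem hy n
  have hemb' : ∀ n, ∀ y ∈ J, emb n y ∈ SeqSet (J : Set (Op H)) D' := fun n y hy =>
    emb_mem_seqSet J.zero_mem D'.zero_mem hy n
  set Q : Op (KK H) := W * emb m 1 * star W with hQ
  have hQB : Q ∈ SeqSet (J : Set (Op H)) D' := hB _ (hemb m 1 J.one_mem)
  have hQd : Diag Q := (mem_seqSet.1 hQB).1
  have hmulc : ∀ u v : Op (KK H), (W * u * star W) * (W * v * star W) = W * (u * v) * star W :=
    fun u v => by
      calc (W * u * star W) * (W * v * star W) = W * u * (star W * W) * v * star W := by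
            simp only [mul_assoc]
        _ = _ := by rw [hW1, mul_one]; simp only [mul_assoc]
  have hQQ : Q * Q = Q := by rw [hQ, hmulc, ← emb_mul, one_mul]
  have hQc : ∀ y ∈ SeqSet (J : Set (Op H)) D', Commute Q y := by
    intro y hy
    obtain ⟨z, hz, rfl⟩ := (hAB y).1 hy
    have := (mem_seqSet.1 hz).1 m
    change _ * _ = _ * _
    rw [hQ, hmulc, hmulc, this.eq]
  obtain ⟨n, hn⟩ : ∃ n, cmp n Q ≠ 0 := by
    by_contra hcon
    push Not at hcon
    have h0 : Q = 0 := hQd.ext (fun _ => Commute.zero_left _) fun n => by rw [hcon, cmp_zero]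
    have h1 := hconj (emb m 1)
    rw [← hQ, h0, mul_zero, zero_mul] at h1
    have h2 := congrArg (cmp m) h1
    rw [cmp_zero, cmp_emb, if_pos rfl] at h2
    exact zero_ne_one h2
  obtain ⟨η, hη0, hqη, hlow⟩ := hq (cmp n Q) ((mem_seqSet.1 hQB).2.1 n) hn
    (by rw [← hQd.cmp_mul, hQQ]) (fun y hy => commute_cmp hQd (hQc _ (hemb' n y hy)))
  set ζ : H := Ev m (star W (Vn n η)) with hζ
  have hWξ : star W (Vn n η) = Vn m ζ := by
    have h1 : Q (Vn n η) = Vn n η := by rw [hQd.apply_Vn, hqη]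
    have h2 : star W * Q = emb m 1 * star W := by
      rw [hQ, ← mul_assoc, ← mul_assoc, hW1, one_mul]
    have h3 := congrArg (fun T : Op (KK H) => T (Vn n η)) h2
    simp only [mul_apply_eq_comp, h1] at h3
    rw [h3, emb_apply]; rfl
  have hζn : ‖ζ‖ = ‖η‖ := by
    rw [← norm_Vn_apply m ζ, ← hWξ, norm_unitary_apply (Unitary.star_mem hW), norm_Vn_apply]
  -- (c)
  set T : ι → Op (KK H) := fun i => star W * amp (r i + star (r i)) * W with hT
  have hTc : ∀ i, ∀ z ∈ SeqSet (J : Set (Op H)) D, Commute (T i) z := by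
    intro i z hz
    have hz' := mem_seqSet.1 (hB z hz)
    have h1 := (hz'.1.commute_amp fun k => hrJ i _ (hz'.2.1 k)).eq
    change _ * _ = _ * _
    calc T i * z = star W * (amp (r i + star (r i)) * (W * z * star W)) * W := by
          simp only [hT, mul_assoc, hW1, mul_one]
      _ = (star W * W) * z * T i := by rw [h1]; simp only [hT, mul_assoc]
      _ = z * T i := by rw [hW1, one_mul]
  have hTd : ∀ i, Diag (T i) := fun i k => hTc i _ (hemb k 1 J.one_mem)
  have hal : ∀ i, ∀ y ∈ J, Commute (cmp m (T i)) y := fun i y hy =>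
    commute_cmp (hTd i) (hTc i _ (hemb m y hy))
  have hin : ∀ i, ⟪η, ((r i + star (r i)) * b i) η⟫_ℂ =
      ⟪ζ, (cmp m (T i) * cmp m (x i)) ζ⟫_ℂ := by
    intro i
    have h1 : amp ((r i + star (r i)) * b i) = W * (T i * x i) * star W := by
      rw [amp_mul]
      calc amp (r i + star (r i)) * amp (b i) =
          (W * star W) * amp (r i + star (r i)) * (W * star W) * amp (b i) * (W * star W) := by
            rw [hW2]; simp only [one_mul, mul_one]
        _ = _ := by simp only [hT, hx, mul_assoc]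
    rw [← (hTd i).cmp_mul', cmp_apply, ← inner_Vn_left, ← hWξ, inner_star_left,
      ← mul_apply_eq_comp, ← mul_apply_eq_comp, ← h1, amp_Vn, inner_Vn_left, Ev_Vn_same]
  -- (d)
  set ρ : ι → Op H := fun i => cmp m (star W * amp (r i) * W) with hρ
  have hρs : ∀ i, star (ρ i) = cmp m (star W * amp (star (r i)) * W) := fun i => by
    simp only [hρ, ← cmp_star, star_mul, star_star, star_amp, mul_assoc]
  have hρr : Row ρ 1 := by
    have : (fun i => star (ρ i)) = _ := funext hρs
    unfold Row; rw [this]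
    exact (col_conj (Col.amp hr) zero_le_one hW).cmp m
  have halρ : ∀ i, cmp m (T i) = ρ i + star (ρ i) := fun i => by
    rw [hρs, hρ, hT]
    simp only [amp_add, mul_add, add_mul, cmp_add]
  have haln : ∀ i, ‖cmp m (T i)‖ ≤ 2 := fun i => by
    rw [halρ]
    have := hρr.norm_le zero_le_one i
    have h2 := norm_add_le (ρ i) (star (ρ i))
    rw [norm_star] at h2
    linarith
  have hEc : Col (fun i => E (star (ρ i))) 1 := hEcol _ hρr
  have hEr : Row (fun i => E (ρ i)) 1 := by
    unfold Row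
    simpa only [hEs] using hEc
  have hsum : ∑ i, cmp m (T i) * cmp m (x i) = ∑ i, E (ρ i) * d i + ∑ i, d i * E (star (ρ i))
      + ∑ i, cmp m (T i) * (cmp m (x i) - d i) := by
    rw [← sum_add_distrib, ← sum_add_distrib]
    refine sum_congr rfl fun i _ => ?_
    have h1 : cmp m (T i) = E (ρ i) + E (star (ρ i)) := by
      rw [← hEadd, ← halρ, hEfix _ (hal i)]
    rw [← (hEd (star (ρ i)) (d i) (hdD i)).eq, ← add_mul, ← h1, mul_sub]
    abel
  have hnorm : ‖∑ i, cmp m (T i) * cmp m (x i)‖ ≤ 2 * β + 1 := by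
    rw [hsum]
    have h1 := norm_sum_mul_le hEr hdc zero_le_one hβ
    have h2 := norm_sum_mul_le hdr hEc hβ zero_le_one
    have h3 : ‖∑ i, cmp m (T i) * (cmp m (x i) - d i)‖ ≤ 1 := by
      refine (norm_sum_le _ _).trans (le_trans (sum_le_sum fun i _ => ?_) hm)
      exact (norm_mul_le _ _).trans (by gcongr; exact haln i)
    have h4 := norm_add₃_le (a := ∑ i, E (ρ i) * d i) (b := ∑ i, d i * E (star (ρ i)))
      (c := ∑ i, cmp m (T i) * (cmp m (x i) - d i))
    linarith
  have hup : (∑ i, ⟪η, ((r i + star (r i)) * b i) η⟫_ℂ).re ≤ (2 * β + 1) * ‖η‖ ^ 2 := by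
    simp only [hin]
    rw [← inner_sum, ← _root_.sum_apply]
    calc _ ≤ ‖⟪ζ, (∑ i, cmp m (T i) * cmp m (x i)) ζ⟫_ℂ‖ := Complex.re_le_norm _
      _ ≤ ‖ζ‖ * ‖(∑ i, cmp m (T i) * cmp m (x i)) ζ‖ := norm_inner_le_norm _ _
      _ ≤ ‖ζ‖ * ((2 * β + 1) * ‖ζ‖) := by
          gcongr
          exact (ContinuousLinearMap.le_opNorm _ _).trans (by gcongr)
      _ = _ := by rw [hζn]; ring
  have hpos : 0 < ‖η‖ ^ 2 := by positivity
  nlinarith

end Crest.Agent.R78F
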