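import Crest.Agent.R78F.Defs

/-!
# Row 78: separability facts
-/

set_option autoImplicit false

namespace Crest.Agent.R78F

open Filter Topology Crest.Agent.R124 TopologicalSpace

namespace Sep

/-- a countable Hilbert sum of separable spaces is separable -/
theorem lp_separable (I : Type*) [Countable I] (E : Type*) [NormedAddCommGroup E]
    [NormedSpace ℂ E] [SeparableSpace E] : SeparableSpace (lp (fun _ : I => E) 2) := by
  classical
  rw [← isSeparable_univ_iff]
  set S : Set (lp (fun _ : I => E) 2) :=
    ⋃ n : I, Set.range (lp.singleContinuousLinearMap ℂ (fun _ : I => E) 2 n) with hS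
  have h1 : IsSeparable S :=
    IsSeparable.iUnion fun n => isSeparable_range (ContinuousLinearMap.continuous _)
  have h2 : IsSeparable (closure (Submodule.span ℂ S : Set (lp (fun _ : I => E) 2))) :=
    (h1.span (R := ℂ)).closure
  refine h2.mono fun f _ => ?_
  have h3 := lp.hasSum_single (E := fun _ : I => E) (p := 2) (by norm_num) f
  refine mem_closure_of_tendsto h3 (Eventually.of_forall fun s => ?_)
  refine Submodule.sum_mem _ fun i _ => Submodule.subset_span ?_
  exact Set.mem_iUnion.2 ⟨i, ⟨f i, rfl⟩⟩

theorem closure_countable {M : Type*} [Monoid M] {s : Set M} (hs : s.Countable) :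
    (Submonoid.closure s : Set M).Countable := by
  rw [Submonoid.closure_eq_image_prod]
  refine Set.Countable.image ?_ _
  have := hs.to_subtype
  refine (Set.countable_range (fun l : List s => l.map Subtype.val)).mono fun l hl => ?_
  refine ⟨l.attachWith _ hl, ?_⟩
  simp

theorem adjoin_separable {A : Type*} [NormedRing A] [StarRing A] [NormedAlgebra ℂ A]
    [StarModule ℂ A] {s : Set A} (hs : s.Countable) :
    IsSeparable (StarAlgebra.adjoin ℂ s : Set A) := by
  have h1 : (s ∪ star s).Countable := by
    refine hs.union ?_
    have : star s = star '' s := (Set.image_star (s := s)).symm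
    rw [this]; exact hs.image _
  have h2 := ((closure_countable h1).isSeparable).span (R := ℂ)
  refine h2.mono fun x hx => ?_
  have h3 : x ∈ (StarAlgebra.adjoin ℂ s).toSubalgebra := hx
  rw [StarAlgebra.adjoin_toSubalgebra] at h3
  have h4 : x ∈ Subalgebra.toSubmodule (Algebra.adjoin ℂ (s ∪ star s)) := h3
  rw [Algebra.adjoin_eq_span] at h4
  exact h4

end Sep

theorem sepStmt : SepStmt := by
  refine ⟨fun H _ _ _ _ => Sep.lp_separable ℕ H, fun H _ _ _ s hs => ?_⟩
  rw [StarSubalgebra.topologicalClosure_coe]
  exact (Sep.adjoin_separable hs).closure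

end Crest.Agent.R78F
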