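import Crest.Agent.R78F.Basic

/-! # Row 78 (S0105): diagonal operators on `ℓ²(ℕ, H)` -/

set_option autoImplicit false
set_option linter.unusedSectionVars false

namespace Crest.Agent.R78F

open scoped InnerProductSpace ComplexConjugate
open Finset Filter Topology Crest.Agent.R124

variable {H : Type} [NormedAddCommGroup H] [InnerProductSpace ℂ H] [CompleteSpace H]

lemma Vn_apply (n : ℕ) (v : H) : Vn n v = lp.single 2 n v := rfl
lemma Ev_apply (n : ℕ) (f : KK H) : Ev n f = f n := rfl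
lemma cmp_apply (n : ℕ) (x : Op (KK H)) (v : H) : cmp n x v = Ev n (x (Vn n v)) := rfl
lemma emb_apply (n : ℕ) (y : Op H) (f : KK H) : emb n y f = Vn n (y (Ev n f)) := rfl
lemma amp_apply (y : Op H) (f : KK H) (n : ℕ) : amp y f n = y (f n) := rfl
lemma Ev_amp (n : ℕ) (y : Op H) (f : KK H) : Ev n (amp y f) = y (Ev n f) := rfl

lemma Ev_Vn (n m : ℕ) (v : H) : Ev n (Vn m v) = if n = m then v else 0 := by
  rw [Ev_apply, Vn_apply, lp.single_apply]
  split_ifs with h
  · subst h; simp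
  · simp [Pi.single_eq_of_ne h]

@[simp] lemma Ev_Vn_same (n : ℕ) (v : H) : Ev n (Vn n v) = v := by simp [Ev_Vn]

lemma norm_Vn_apply (n : ℕ) (v : H) : ‖Vn n v‖ = ‖v‖ := by
  rw [Vn_apply]
  exact lp.norm_single (E := fun _ : ℕ => H) (p := 2) (by norm_num) n v

lemma norm_Ev_apply (n : ℕ) (f : KK H) : ‖Ev n f‖ ≤ ‖f‖ := lp.norm_apply_le_norm (by norm_num) f n

lemma inner_Vn_left (n : ℕ) (v : H) (f : KK H) : ⟪Vn n v, f⟫_ℂ = ⟪v, Ev n f⟫_ℂ :=
  lp.inner_single_left n v f

lemma inner_Vn_right (n : ℕ) (v : H) (f : KK H) : ⟪f, Vn n v⟫_ℂ = ⟪Ev n f, v⟫_ℂ :=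
  lp.inner_single_right n v f

lemma hasSum_normSq (f : KK H) : HasSum (fun n => ‖Ev n f‖ ^ 2) (‖f‖ ^ 2) := by
  have := lp.hasSum_norm (p := 2) (by norm_num) f
  simpa [Ev_apply] using this

lemma ext_Ev {f g : KK H} (h : ∀ n, Ev n f = Ev n g) : f = g := lp.ext (funext h)

/-- operators on `KK H` are determined by their values on the summands -/
lemma ext_Vn {x y : Op (KK H)} (h : ∀ n v, x (Vn n v) = y (Vn n v)) : x = y :=
  lp.ext_continuousLinearMap (by norm_num) fun n => ContinuousLinearMap.ext fun v => h n v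

lemma amp_Vn (y : Op H) (n : ℕ) (v : H) : amp y (Vn n v) = Vn n (y v) :=
  ext_Ev fun m => by rw [Ev_amp, Ev_Vn, Ev_Vn]; split_ifs <;> simp

lemma emb_Vn (n m : ℕ) (y : Op H) (v : H) : emb n y (Vn m v) = if n = m then Vn n (y v) else 0 := by
  rw [emb_apply, Ev_Vn]; split_ifs <;> simp

lemma norm_amp_le (y : Op H) : ‖amp y‖ ≤ ‖y‖ := lp.norm_mapCLM_le _ _ _ _

lemma norm_cmp_le (n : ℕ) (x : Op (KK H)) : ‖cmp n x‖ ≤ ‖x‖ :=
  ContinuousLinearMap.opNorm_le_bound _ (norm_nonneg _) fun v =>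
    (norm_Ev_apply _ _).trans (by rw [← norm_Vn_apply n v]; exact x.le_opNorm _)

lemma norm_emb_le (n : ℕ) (y : Op H) : ‖emb n y‖ ≤ ‖y‖ :=
  ContinuousLinearMap.opNorm_le_bound _ (norm_nonneg _) fun f => by
    rw [emb_apply, norm_Vn_apply]
    exact (y.le_opNorm _).trans (by gcongr; exact norm_Ev_apply _ _)

lemma amp_one : amp (1 : Op H) = 1 := ext_Vn fun n v => by simp [amp_Vn]
lemma amp_zero : amp (0 : Op H) = 0 := ext_Vn fun n v => by simp [amp_Vn]
lemma amp_mul (x y : Op H) : amp (x * y) = amp x * amp y := ext_Vn fun n v => by simp [amp_Vn]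
lemma amp_add (x y : Op H) : amp (x + y) = amp x + amp y := ext_Vn fun n v => by simp [amp_Vn]
lemma amp_sub (x y : Op H) : amp (x - y) = amp x - amp y := ext_Vn fun n v => by simp [amp_Vn]
lemma amp_smul (c : ℂ) (x : Op H) : amp (c • x) = c • amp x := ext_Vn fun n v => by simp [amp_Vn]

lemma star_amp (y : Op H) : star (amp y) = amp (star y) :=
  ext_Vn fun n v => ext_inner_left ℂ fun f => by
    rw [inner_star_right, amp_Vn, inner_Vn_right, inner_Vn_right, Ev_amp, inner_star_right]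

lemma cmp_one (n : ℕ) : cmp n (1 : Op (KK H)) = 1 := by ext v; simp [cmp_apply]
lemma cmp_zero (n : ℕ) : cmp n (0 : Op (KK H)) = 0 := by ext v; simp [cmp_apply]
lemma cmp_add (n : ℕ) (x y : Op (KK H)) : cmp n (x + y) = cmp n x + cmp n y := by
  ext v; simp [cmp_apply]
lemma cmp_sub (n : ℕ) (x y : Op (KK H)) : cmp n (x - y) = cmp n x - cmp n y := by
  ext v; simp [cmp_apply]
lemma cmp_smul (n : ℕ) (c : ℂ) (x : Op (KK H)) : cmp n (c • x) = c • cmp n x := by
  ext v; simp [cmp_apply]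
lemma cmp_amp (n : ℕ) (y : Op H) : cmp n (amp y) = y := by ext v; simp [cmp_apply, amp_Vn]
lemma cmp_emb (n m : ℕ) (y : Op H) : cmp n (emb m y) = if n = m then y else 0 := by
  ext v
  rw [cmp_apply, emb_Vn]
  by_cases h : n = m
  · subst h; simp
  · simp [h, Ne.symm h]

lemma cmp_star (n : ℕ) (x : Op (KK H)) : cmp n (star x) = star (cmp n x) := by
  ext v
  refine ext_inner_left ℂ fun w => ?_
  rw [cmp_apply, ← inner_Vn_left, inner_star_right, inner_star_right, cmp_apply, inner_Vn_right]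

lemma star_emb (n : ℕ) (y : Op H) : star (emb n y) = emb n (star y) := by
  ext1 f
  refine ext_inner_left ℂ fun g => ?_
  rw [inner_star_right, emb_apply, emb_apply, inner_Vn_left, inner_Vn_right, inner_star_right]

lemma emb_mul (n : ℕ) (x y : Op H) : emb n (x * y) = emb n x * emb n y := by
  ext1 f; simp [emb_apply]

lemma emb_add (n : ℕ) (x y : Op H) : emb n (x + y) = emb n x + emb n y := by
  ext1 f; simp [emb_apply]

lemma emb_mul_emb_ne {n m : ℕ} (h : n ≠ m) (x y : Op H) : emb n x * emb m y = 0 := by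
  ext1 f; simp [emb_apply, Ev_Vn, h]

lemma continuous_amp : Continuous (amp : Op H → Op (KK H)) :=
  LipschitzWith.continuous (K := 1) <| LipschitzWith.of_dist_le_mul fun x y => by
    rw [dist_eq_norm, dist_eq_norm, ← amp_sub]; simpa using norm_amp_le _

lemma continuous_cmp (n : ℕ) : Continuous (cmp n : Op (KK H) → Op H) :=
  LipschitzWith.continuous (K := 1) <| LipschitzWith.of_dist_le_mul fun x y => by
    rw [dist_eq_norm, dist_eq_norm, ← cmp_sub]; simpa using norm_cmp_le _ _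

lemma continuous_emb (n : ℕ) : Continuous (emb n : Op H → Op (KK H)) := by
  unfold emb; fun_prop

/-- diagonal operators -/
def Diag (x : Op (KK H)) : Prop := ∀ n, Commute x (emb n 1)

lemma Diag.apply_Vn {x : Op (KK H)} (h : Diag x) (n : ℕ) (v : H) :
    x (Vn n v) = Vn n (cmp n x v) := by
  have := commute_apply (h n) (Vn n v)
  simpa [emb_apply, cmp_apply] using this

lemma Diag.Ev_apply {x : Op (KK H)} (h : Diag x) (n : ℕ) (f : KK H) :
    Ev n (x f) = cmp n x (Ev n f) := by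
  have := congrArg (Ev n) (commute_apply (h n) f)
  simpa [emb_apply, cmp_apply] using this.symm

lemma diag_of_apply {x : Op (KK H)} (h : ∀ n v, ∃ w, x (Vn n v) = Vn n w) : Diag x := fun n =>
  ext_Vn fun m v => by
    obtain ⟨w, hw⟩ := h m v
    simp only [mul_apply_eq_comp, hw, emb_Vn]
    split_ifs with hnm
    · subst hnm; simpa using hw
    · simp

lemma diag_amp (y : Op H) : Diag (amp y) := diag_of_apply fun n v => ⟨_, amp_Vn y n v⟩

lemma diag_emb (m : ℕ) (y : Op H) : Diag (emb m y) := diag_of_apply fun n v => by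
  rw [emb_Vn]
  split_ifs with h
  · subst h; exact ⟨_, rfl⟩
  · exact ⟨0, by simp⟩

lemma diag_one : Diag (1 : Op (KK H)) := fun _ => Commute.one_left _
lemma Diag.add {x y : Op (KK H)} (hx : Diag x) (hy : Diag y) : Diag (x + y) :=
  fun n => (hx n).add_left (hy n)
lemma Diag.sub {x y : Op (KK H)} (hx : Diag x) (hy : Diag y) : Diag (x - y) :=
  fun n => (hx n).sub_left (hy n)
lemma Diag.mul {x y : Op (KK H)} (hx : Diag x) (hy : Diag y) : Diag (x * y) :=
  fun n => (hx n).mul_left (hy n)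
lemma Diag.smul {x : Op (KK H)} (hx : Diag x) (c : ℂ) : Diag (c • x) :=
  fun n => (hx n).smul_left c
lemma Diag.star {x : Op (KK H)} (hx : Diag x) : Diag (star x) := fun n => by
  have := (hx n).star_star
  rwa [star_emb, star_one] at this

lemma Diag.cmp_mul {y : Op (KK H)} (hy : Diag y) (n : ℕ) (x : Op (KK H)) :
    cmp n (x * y) = cmp n x * cmp n y := by
  ext v
  rw [cmp_apply, mul_apply_eq_comp, hy.apply_Vn, mul_apply_eq_comp]; rfl

lemma Diag.cmp_mul' {x : Op (KK H)} (hx : Diag x) (n : ℕ) (y : Op (KK H)) :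
    cmp n (x * y) = cmp n x * cmp n y := by
  ext v
  rw [cmp_apply, mul_apply_eq_comp, hx.Ev_apply, mul_apply_eq_comp]; rfl

lemma Diag.mul_emb {x : Op (KK H)} (hx : Diag x) (n : ℕ) (y : Op H) :
    x * emb n y = emb n (cmp n x * y) := by
  ext1 f
  simp only [emb_apply, mul_apply_eq_comp, hx.apply_Vn]

lemma Diag.ext {x y : Op (KK H)} (hx : Diag x) (hy : Diag y) (h : ∀ n, cmp n x = cmp n y) :
    x = y := ext_Vn fun n v => by rw [hx.apply_Vn, hy.apply_Vn, h]

/-- the norm of a diagonal operator is the supremum of the norms of its entries -/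
lemma Diag.norm_le {x : Op (KK H)} (hx : Diag x) {c : ℝ} (hc : 0 ≤ c)
    (h : ∀ n, ‖cmp n x‖ ≤ c) : ‖x‖ ≤ c := by
  refine ContinuousLinearMap.opNorm_le_bound _ hc fun f => ?_
  have h1 := hasSum_normSq (x f)
  have h2 := (hasSum_normSq f).mul_left (c ^ 2)
  have h3 := hasSum_le (fun n => ?_) h1 h2
  · rw [← mul_pow] at h3
    exact (pow_le_pow_iff_left₀ (norm_nonneg _) (by positivity) two_ne_zero).1 h3
  · rw [hx.Ev_apply, ← mul_pow]
    gcongr
    exact (ContinuousLinearMap.le_opNorm _ _).trans (by gcongr; exact h n)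

lemma Diag.commute_amp {x : Op (KK H)} (hx : Diag x) {y : Op H} (h : ∀ n, Commute y (cmp n x)) :
    Commute (amp y) x :=
  ((diag_amp y).mul hx).ext (hx.mul (diag_amp y)) fun n => by
    rw [hx.cmp_mul, hx.cmp_mul', cmp_amp, (h n).eq]

lemma mem_seqSet {J D : Set (Op H)} {x : Op (KK H)} : x ∈ SeqSet J D ↔
    Diag x ∧ (∀ n, cmp n x ∈ J) ∧ ∃ d ∈ D, Tendsto (fun n => cmp n x) atTop (𝓝 d) := Iff.rfl

lemma amp_mem_seqSet {J D : Set (Op H)} {d : Op H} (hJ : d ∈ J) (hD : d ∈ D) :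
    amp d ∈ SeqSet J D :=
  ⟨diag_amp d, fun n => by rwa [cmp_amp], d, hD, by simp [cmp_amp]⟩

lemma emb_mem_seqSet {J D : Set (Op H)} (h0 : (0 : Op H) ∈ J) (h0' : (0 : Op H) ∈ D) {y : Op H}
    (hy : y ∈ J) (m : ℕ) : emb m y ∈ SeqSet J D := by
  refine ⟨diag_emb m y, fun n => ?_, 0, h0', ?_⟩
  · rw [cmp_emb]; split_ifs <;> assumption
  · refine tendsto_const_nhds.congr' ?_
    filter_upwards [eventually_gt_atTop m] with n hn
    rw [cmp_emb, if_neg hn.ne']

lemma Col.amp {ι : Type} [Fintype ι] {x : ι → Op H} {ρ : ℝ} (h : Col x ρ) :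
    Col (fun i => amp (x i)) ρ := fun f => by
  have h1 := hasSum_sum (s := univ) fun i _ => hasSum_normSq (R78F.amp (x i) f)
  have h2 := (hasSum_normSq f).mul_left (ρ ^ 2)
  exact hasSum_le (fun n => h (Ev n f)) h1 h2

lemma Col.cmp {ι : Type} [Fintype ι] {x : ι → Op (KK H)} {ρ : ℝ} (h : Col x ρ) (n : ℕ) :
    Col (fun i => cmp n (x i)) ρ := fun v => by
  have := h (Vn n v)
  rw [norm_Vn_apply] at this
  refine le_trans (sum_le_sum fun i _ => ?_) this
  gcongr
  exact norm_Ev_apply _ _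

end Crest.Agent.R78F
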