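import Crest.Agent.R78F.Seq

/-! # Row 78 (S0105): the sequence algebra is a closed separable star subalgebra -/

set_option autoImplicit false
set_option linter.unusedSectionVars false

namespace Crest.Agent.R78F

open Finset Filter Topology Crest.Agent.R124

namespace SeqA

variable {H : Type} [NormedAddCommGroup H] [InnerProductSpace ℂ H] [CompleteSpace H]

/-- the sequence algebra as a star subalgebra -/
noncomputable def alg (J D : StarSubalgebra ℂ (Op H)) (hDJ : D ≤ J) :
    StarSubalgebra ℂ (Op (KK H)) where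
  carrier := SeqSet (J : Set (Op H)) D
  mul_mem' := by
    rintro x y ⟨hx, hxJ, d, hd, hxd⟩ ⟨hy, hyJ, e, he, hye⟩
    have hy' : Diag y := hy
    refine mem_seqSet.2 ⟨Diag.mul hx hy, fun n => ?_, d * e, mul_mem hd he, ?_⟩
    · rw [hy'.cmp_mul]; exact mul_mem (hxJ n) (hyJ n)
    · simp only [hy'.cmp_mul]; exact hxd.mul hye
  add_mem' := by
    rintro x y ⟨hx, hxJ, d, hd, hxd⟩ ⟨hy, hyJ, e, he, hye⟩
    refine mem_seqSet.2 ⟨Diag.add hx hy, fun n => ?_, d + e, add_mem hd he, ?_⟩
    · rw [cmp_add]; exact add_mem (hxJ n) (hyJ n)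
    · simp only [cmp_add]; exact hxd.add hye
  algebraMap_mem' := fun c => by
    have h : algebraMap ℂ (Op (KK H)) c = amp (algebraMap ℂ (Op H) c) := by
      rw [Algebra.algebraMap_eq_smul_one, Algebra.algebraMap_eq_smul_one, amp_smul, amp_one]
    rw [h]
    exact amp_mem_seqSet (hDJ (algebraMap_mem D c)) (algebraMap_mem D c)
  star_mem' := by
    rintro x ⟨hx, hxJ, d, hd, hxd⟩
    refine mem_seqSet.2 ⟨Diag.star hx, fun n => ?_, star d, star_mem hd, ?_⟩
    · rw [cmp_star]; exact star_mem (hxJ n)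
    · simp only [cmp_star]; exact hxd.star

lemma isClosed_seqSet (J D : Set (Op H)) (hJ : IsClosed J) (hD : IsClosed D) :
    IsClosed (SeqSet J D) := by
  refine isClosed_of_closure_subset fun x hx => ?_
  obtain ⟨u, hu, hux⟩ := mem_closure_iff_seq_limit.1 hx
  have hdiag : Diag x := fun n => by
    have h1 : Tendsto (fun k => u k * emb n 1) atTop (𝓝 (x * emb n 1)) :=
      hux.mul tendsto_const_nhds
    have h2 : Tendsto (fun k => emb n 1 * u k) atTop (𝓝 (emb n 1 * x)) :=
      tendsto_const_nhds.mul hux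
    have h3 : (fun k => u k * emb n 1) = fun k => emb n 1 * u k :=
      funext fun k => ((hu k).1 n).eq
    rw [h3] at h1
    exact tendsto_nhds_unique h1 h2
  have hJx : ∀ n, cmp n x ∈ J := fun n =>
    hJ.mem_of_tendsto (((continuous_cmp n).tendsto x).comp hux)
      (Eventually.of_forall fun k => (hu k).2.1 n)
  choose d hdD hd using fun k => (hu k).2.2
  have hdist : ∀ k l, dist (d k) (d l) ≤ dist (u k) (u l) := fun k l => by
    refine le_of_tendsto ((hd k).dist (hd l)) (Eventually.of_forall fun n => ?_)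
    rw [dist_eq_norm, dist_eq_norm, ← cmp_sub]
    exact norm_cmp_le _ _
  have hcau : CauchySeq d := by
    have hc := hux.cauchySeq
    rw [Metric.cauchySeq_iff] at hc ⊢
    intro ε hε
    obtain ⟨N, hN⟩ := hc ε hε
    exact ⟨N, fun k hk l hl => (hdist k l).trans_lt (hN k hk l hl)⟩
  obtain ⟨e, he⟩ := cauchySeq_tendsto_of_complete hcau
  refine mem_seqSet.2 ⟨hdiag, hJx, e, hD.mem_of_tendsto he (Eventually.of_forall hdD), ?_⟩
  rw [Metric.tendsto_atTop] at he hux ⊢
  intro ε hε
  obtain ⟨N1, hN1⟩ := he (ε / 3) (by positivity)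
  obtain ⟨N2, hN2⟩ := hux (ε / 3) (by positivity)
  have h1 := hN1 (max N1 N2) (le_max_left _ _)
  have h2 := hN2 (max N1 N2) (le_max_right _ _)
  obtain ⟨N3, hN3⟩ := Metric.tendsto_atTop.1 (hd (max N1 N2)) (ε / 3) (by positivity)
  refine ⟨N3, fun n hn => ?_⟩
  have h3 := hN3 n hn
  have h4 : dist (cmp n x) (cmp n (u (max N1 N2))) ≤ dist (u (max N1 N2)) x := by
    rw [dist_comm (u _), dist_eq_norm, dist_eq_norm, ← cmp_sub]
    exact norm_cmp_le _ _
  have h5 := dist_triangle4 (cmp n x) (cmp n (u (max N1 N2))) (d (max N1 N2)) e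
  linarith

lemma cmp_sum (n : ℕ) (s : Finset ℕ) (f : ℕ → Op (KK H)) :
    cmp n (∑ m ∈ s, f m) = ∑ m ∈ s, cmp n (f m) := by
  classical
  induction s using Finset.induction_on with
  | empty => simp [cmp_zero]
  | insert a s ha ih => rw [sum_insert ha, sum_insert ha, cmp_add, ih]

lemma diag_sum (s : Finset ℕ) (f : ℕ → Op (KK H)) (hf : ∀ m, Diag (f m)) :
    Diag (∑ m ∈ s, f m) := fun n => Commute.sum_left _ _ _ fun m _ => hf m n

lemma isSeparable_seqSet (J D : StarSubalgebra ℂ (Op H)) (hDJ : D ≤ J)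
    (hJ : TopologicalSpace.IsSeparable (J : Set (Op H))) :
    TopologicalSpace.IsSeparable (SeqSet (J : Set (Op H)) D) := by
  set S : Set (Op (KK H)) := amp '' (J : Set (Op H)) ∪ ⋃ n, emb n '' (J : Set (Op H)) with hS
  have hSsep : TopologicalSpace.IsSeparable S :=
    (hJ.image continuous_amp).union (.iUnion fun n => hJ.image (continuous_emb n))
  refine (hSsep.span (R := ℂ)).closure.mono ?_
  rintro x ⟨hx, hxJ, d, hd, hxd⟩
  have hx' : Diag x := hx
  rw [Metric.mem_closure_iff]
  intro ε hε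
  obtain ⟨N, hN⟩ := Metric.tendsto_atTop.1 hxd (ε / 2) (by positivity)
  refine ⟨amp d + ∑ m ∈ range N, emb m (cmp m x - d), ?_, ?_⟩
  · refine add_mem (Submodule.subset_span (Or.inl ⟨d, hDJ hd, rfl⟩))
      (Submodule.sum_mem _ fun m _ => Submodule.subset_span (Or.inr ?_))
    exact Set.mem_iUnion.2 ⟨m, _, sub_mem (hxJ m) (hDJ hd), rfl⟩
  · rw [dist_eq_norm]
    have hdg : Diag (x - (amp d + ∑ m ∈ range N, emb m (cmp m x - d))) :=
      hx'.sub ((diag_amp d).add (diag_sum _ _ fun m => diag_emb m _))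
    refine (hdg.norm_le (c := ε / 2) (by positivity) fun n => ?_).trans_lt (by linarith)
    rw [cmp_sub, cmp_add, cmp_amp, cmp_sum]
    simp only [cmp_emb]
    rw [sum_ite_eq]
    split_ifs with h
    · have : cmp n x - (d + (cmp n x - d)) = 0 := by abel
      rw [this, norm_zero]; positivity
    · rw [add_zero, ← dist_eq_norm]
      exact (hN n (by simpa using h)).le

end SeqA

theorem seqAStmt : SeqAStmt := by
  intro H _ _ _ J D hDJ hJ hD hsep
  exact ⟨SeqA.alg J D hDJ, rfl, SeqA.isClosed_seqSet _ _ hJ hD, SeqA.isSeparable_seqSet J D hDJ hsep⟩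

end Crest.Agent.R78F
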