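import Crest.Agent.R78F.Seq

/-! # Row 78 (S0105): commutant and closeness of the sequence algebras -/

set_option autoImplicit false

namespace Crest.Agent.R78F

open Filter Topology Crest.Agent.R124

namespace SeqB
variable {H : Type} [NormedAddCommGroup H] [InnerProductSpace ℂ H] [CompleteSpace H]

lemma mem_centralizer_iff (J D : StarSubalgebra ℂ (Op H)) (z : Op (KK H)) :
    z ∈ Set.centralizer (SeqSet (J : Set (Op H)) D) ↔ ∀ n, ∀ y ∈ J, Commute (emb n y) z := by
  refine ⟨fun h n y hy => h _ (emb_mem_seqSet (zero_mem J) (zero_mem D) hy n), fun h x hx => ?_⟩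
  have hz : Diag z := fun n => (h n 1 (one_mem J)).symm
  have hx1 : Diag x := hx.1
  refine ext_Vn fun n v => ?_
  have h1 := commute_apply (h n _ (hx.2.1 n)) (Vn n v)
  rw [hz.apply_Vn, emb_Vn, emb_Vn, if_pos rfl, if_pos rfl] at h1
  rw [mul_apply_eq_comp, mul_apply_eq_comp, hz.apply_Vn, hx1.apply_Vn, hx1.apply_Vn, h1]

end SeqB

theorem seqBStmt : SeqBStmt := by
  intro H _ _ _ J D D' hD hD'
  refine ⟨Set.ext fun z => by rw [SeqB.mem_centralizer_iff, SeqB.mem_centralizer_iff], ?_⟩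
  rintro η hη hclose x ⟨hx1, hx2, d, hd, hlim⟩ hx
  obtain ⟨d', hd', hdd⟩ := hclose d hd
  have hdn : ‖d‖ ≤ 1 := le_of_tendsto' hlim.norm fun n => (norm_cmp_le n x).trans hx
  have hdd' : ‖amp (d' - d)‖ ≤ η := by
    refine (norm_amp_le _).trans ?_
    rw [norm_sub_rev]
    exact hdd.trans (by nlinarith)
  set x' := x + amp (d' - d) with hx'
  have hx'n : ‖x'‖ ≤ 1 + η := (norm_add_le _ _).trans (add_le_add hx hdd')
  have hpos : 0 < 1 + η := by linarith
  set r : ℝ := (1 + η)⁻¹ with hr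
  have hr0 : 0 < r := inv_pos.2 hpos
  have hr1 : r * (1 + η) = 1 := inv_mul_cancel₀ hpos.ne'
  have hcmp : ∀ n, cmp n ((r : ℂ) • x') = (r : ℂ) • (cmp n x + (d' - d)) := fun n => by
    rw [cmp_smul, hx', cmp_add, cmp_amp]
  refine ⟨(r : ℂ) • x', ⟨(Diag.add hx1 (diag_amp _)).smul _, fun n => ?_, (r : ℂ) • d',
    SMulMemClass.smul_mem _ hd', ?_⟩, ?_, ?_⟩
  · rw [hcmp]
    exact SMulMemClass.smul_mem (s := J) _ (add_mem (hx2 n) (sub_mem (hD' hd') (hD hd)))
  · simp only [hcmp]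
    have := (hlim.add_const (d' - d)).const_smul (r : ℂ)
    rwa [add_sub_cancel] at this
  · rw [norm_smul, Complex.norm_real, Real.norm_of_nonneg hr0.le]
    nlinarith
  · have e : x - (r : ℂ) • x' = ((1 - r : ℝ) : ℂ) • x' - amp (d' - d) := by
      rw [Complex.ofReal_sub, sub_smul, Complex.ofReal_one, one_smul, hx']; abel
    have hr2 : 0 ≤ 1 - r := by nlinarith
    rw [e]
    refine (norm_sub_le _ _).trans ?_
    rw [norm_smul, Complex.norm_real, Real.norm_of_nonneg hr2]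
    nlinarith [mul_le_mul_of_nonneg_left hx'n hr2]

end Crest.Agent.R78F
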