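import Crest.Agent.R78F.Basic

/-! # Row 78 (S0104): facts on `cf`, `tt`, `qq`, `ee` and `EH` -/

set_option autoImplicit false
set_option linter.unusedSectionVars false

namespace Crest.Agent.R78F

open scoped InnerProductSpace ComplexConjugate
open Finset Filter Topology Crest.Agent.R124

variable {p : ℕ} [Fact p.Prime] {H : Type} [NormedAddCommGroup H] [InnerProductSpace ℂ H]
  [CompleteSpace H]

lemma p_pos (p : ℕ) [Fact p.Prime] : (0 : ℝ) < p := by exact_mod_cast (Fact.out : p.Prime).pos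

lemma one_le_p (p : ℕ) [Fact p.Prime] : (1 : ℝ) ≤ p := by
  exact_mod_cast (Fact.out : p.Prime).one_le

lemma norm_psi (x : ZMod p) : ‖(ZMod.stdAddChar x : ℂ)‖ = 1 := by
  rw [ZMod.stdAddChar_apply]; exact Circle.norm_coe _

lemma conj_psi (x : ZMod p) : conj (ZMod.stdAddChar x : ℂ) = ZMod.stdAddChar (-x) := by
  rw [AddChar.map_neg_eq_inv, Complex.inv_eq_conj (norm_psi x)]

lemma norm_cf (k j : ZMod p) : ‖cf p k j‖ = (√(p : ℝ))⁻¹ := by
  rw [cf, norm_mul, norm_psi, mul_one, Complex.norm_real, Real.norm_of_nonneg (by positivity)]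

lemma conj_cf_mul (k j : ZMod p) : conj (cf p k j) * cf p k j = (p : ℂ)⁻¹ := by
  rw [Complex.conj_mul', norm_cf, ← Complex.ofReal_pow, inv_pow, Real.sq_sqrt (p_pos p).le]
  simp

lemma sum_conj_cf_mul_left (j : ZMod p) : ∑ k, conj (cf p k j) * cf p k j = 1 := by
  have : (p : ℂ) ≠ 0 := by exact_mod_cast (Fact.out : p.Prime).ne_zero
  simp [conj_cf_mul, this]

lemma sum_conj_cf_mul_right (k : ZMod p) : ∑ j, conj (cf p k j) * cf p k j = 1 := by
  have : (p : ℂ) ≠ 0 := by exact_mod_cast (Fact.out : p.Prime).ne_zero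
  simp [conj_cf_mul, this]

variable (F : DP p H)

lemma lam_lam (i j : ZMod p) :
    star (F.L' (.inl i)) * F.L' (.inl j) = if i = j then 1 else 0 := by simp [F.fk'.ll]
lemma mu_mu (i j : ZMod p) :
    star (F.L' (.inr i)) * F.L' (.inr j) = if i = j then 1 else 0 := by simp [F.fk'.ll]
lemma lam_mu (i j : ZMod p) : star (F.L' (.inl i)) * F.L' (.inr j) = 0 := by simp [F.fk'.ll]
lemma mu_lam (i j : ZMod p) : star (F.L' (.inr i)) * F.L' (.inl j) = 0 := by simp [F.fk'.ll]

/-- the `j`-th column of `tt` -/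
noncomputable def TJ (j : ZMod p) : Op H := ∑ k, cf p k j • (F.L k * F.L' (.inl (j + k)))

lemma tt_eq : tt F = ∑ j, TJ F j * star (F.L' (.inr j)) := by
  rw [tt, sum_comm]
  simp only [TJ, sum_mul, smul_mul_assoc]

lemma star_tt : star (tt F) =
    ∑ k, ∑ j, conj (cf p k j) • (F.L' (.inr j) * star (F.L' (.inl (j + k))) * star (F.L k)) := by
  simp only [tt, star_sum, star_smul, star_mul, star_star, mul_assoc, RCLike.star_def]

lemma TJ_TJ (j j' : ZMod p) : star (TJ F j) * TJ F j' = if j = j' then 1 else 0 := by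
  have key : ∀ k k' : ZMod p, star (F.L k * F.L' (.inl (j + k))) * (F.L k' * F.L' (.inl (j' + k')))
      = if k = k' then (if j = j' then 1 else 0) else 0 := fun k k' => by
    rw [star_mul, mul_assoc, ← mul_assoc (star (F.L k)), F.fk.ll]
    by_cases h : k = k'
    · subst h; simp [lam_lam]
    · simp [h]
  simp only [TJ, star_sum, star_smul, sum_mul, mul_sum, smul_mul_smul_comm, key, RCLike.star_def]
  simp only [smul_ite, smul_zero, sum_ite_eq', mem_univ, if_true]
  split_ifs with h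
  · subst h; rw [← sum_smul, sum_conj_cf_mul_left, one_smul]
  · simp

lemma mu_TJ (i j : ZMod p) : star (F.L' (.inr i)) * TJ F j = 0 := by
  simp only [TJ, mul_sum, mul_smul_comm]
  refine sum_eq_zero fun k _ => ?_
  rw [← mul_assoc, ← (F.cLL.cs k _).eq, mul_assoc, mu_lam, mul_zero, smul_zero]

lemma tt_mul_mu (j : ZMod p) : tt F * F.L' (.inr j) = TJ F j := by
  simp [tt_eq, sum_mul, mul_assoc, mu_mu]

lemma tt_mul_lam (i : ZMod p) : tt F * F.L' (.inl i) = 0 := by
  simp [tt_eq, sum_mul, mul_assoc, mu_lam]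

lemma mu_mul_tt (j : ZMod p) : star (F.L' (.inr j)) * tt F = 0 := by
  simp [tt_eq, mul_sum, ← mul_assoc, mu_TJ]

lemma star_tt_mul_mu (j : ZMod p) : star (tt F) * F.L' (.inr j) = 0 := by
  simpa using congrArg star (mu_mul_tt F j)

lemma tt_mul_tt : tt F * tt F = 0 := by
  conv_lhs => rw [tt_eq F, sum_mul, ← tt_eq F]
  simp [mul_assoc, mu_mul_tt]

lemma star_tt_mul_tt : star (tt F) * tt F = ee F := by
  simp only [tt_eq, star_sum, star_mul, star_star, sum_mul, mul_sum, mul_assoc, ee]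
  refine sum_congr rfl fun j _ => ?_
  simp only [← mul_assoc (star (TJ F _)), TJ_TJ]
  simp

lemma ee_mul_mu (j : ZMod p) : ee F * F.L' (.inr j) = F.L' (.inr j) := by
  simp [ee, sum_mul, mul_assoc, mu_mu]

lemma ee_mul_lam (i : ZMod p) : ee F * F.L' (.inl i) = 0 := by
  simp [ee, sum_mul, mul_assoc, mu_lam]

lemma tt_mul_ee : tt F * ee F = tt F := by
  simp only [ee, mul_sum, ← mul_assoc, tt_mul_mu]
  exact (tt_eq F).symm

lemma tt_pi : tt F * star (tt F) * tt F = tt F := by
  rw [mul_assoc, star_tt_mul_tt, tt_mul_ee]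

lemma norm_tt : ‖tt F‖ ≤ 1 := norm_le_one_of_pi (tt_pi F)

lemma uu_tt_unitary : uu (tt F) ∈ unitary (Op H) := uu_mem_unitary (tt_mul_tt F) (tt_pi F)

lemma uu_tt_sq : uu (tt F) * uu (tt F) = 1 := uu_mul_uu (tt_mul_tt F) (tt_pi F)

lemma star_qq : star (qq F) = qq F := by simp [qq, star_sum]

lemma qq_mul_lam (i : ZMod p) : qq F * F.L' (.inl i) = F.L' (.inl i) := by
  simp [qq, sum_mul, mul_assoc, lam_lam]

lemma qq_mul_qq : qq F * qq F = qq F := by
  conv_lhs => rw [show qq F * qq F = qq F * ∑ i, F.L' (.inl i) * star (F.L' (.inl i)) from rfl]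
  simp only [mul_sum, ← mul_assoc, qq_mul_lam]
  rfl

lemma commute_L_qq (k : ZMod p) : Commute (F.L k) (qq F) :=
  Commute.sum_right _ _ _ fun _ _ => (F.cLL.c k _).mul_right (F.cLL.cs k _)

lemma qq_mul_tt : qq F * tt F = tt F := by
  simp only [tt, mul_sum, mul_smul_comm, ← mul_assoc, ← (commute_L_qq F _).eq]
  simp only [mul_assoc _ (qq F), qq_mul_lam]

lemma tt_mul_qq : tt F * qq F = 0 := by
  simp only [qq, mul_sum, ← mul_assoc, tt_mul_lam, zero_mul, sum_const_zero]

variable {F} {a b : Op H}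

lemma EH.star (h : EH F a b) : EH F (star a) (star b) where
  as k := commute_star_s (h.as k)
  aL m := ⟨by simpa using (h.aL m).2.star_star, (h.aL m).1.star_star⟩
  bs m := commute_star_s (h.bs m)
  bL k := ⟨by simpa using (h.bL k).2.star_star, (h.bL k).1.star_star⟩
  ab := h.ab.star_star
  sab := h.sab.star_star

lemma EH.asb (h : EH F a b) : Commute a (Star.star b) := by simpa using h.sab.star_star

lemma EH.D_L' (h : EH F a b) (k : ZMod p) (m : ZMod p ⊕ ZMod p) :
    Commute (Dc (F.L k) a) (F.L' m) := (commute_Dc (F.cLL.sc k m).symm (h.aL m).1.symm).symm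

lemma EH.D_sL' (h : EH F a b) (k : ZMod p) (m : ZMod p ⊕ ZMod p) :
    Commute (Dc (F.L k) a) (Star.star (F.L' m)) :=
  (commute_Dc (F.cLL.ss k m).symm (h.aL m).2.symm).symm

lemma EH.D_b (h : EH F a b) (k : ZMod p) : Commute (Dc (F.L k) a) b :=
  (commute_Dc (h.bL k).2 h.ab.symm).symm

lemma EH.D_D' (h : EH F a b) (k : ZMod p) (m : ZMod p ⊕ ZMod p) :
    Commute (Dc (F.L k) a) (Dc (F.L' m) b) := commute_Dc (h.D_sL' k m) (h.D_b k)

lemma EH.L_D' (h : EH F a b) (k : ZMod p) (m : ZMod p ⊕ ZMod p) :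
    Commute (F.L k) (Dc (F.L' m) b) := commute_Dc (F.cLL.cs k m) (h.bL k).1.symm

lemma EH.sL_D' (h : EH F a b) (k : ZMod p) (m : ZMod p ⊕ ZMod p) :
    Commute (Star.star (F.L k)) (Dc (F.L' m) b) := commute_Dc (F.cLL.ss k m) (h.bL k).2.symm

lemma EH.star_D (h : EH F a b) (k : ZMod p) :
    Star.star (Dc (F.L k) a) = Dc (F.L k) (Star.star a) := star_Dc (h.as k)

lemma EH.star_D' (h : EH F a b) (m : ZMod p ⊕ ZMod p) :
    Star.star (Dc (F.L' m) b) = Dc (F.L' m) (Star.star b) := star_Dc (h.bs m)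

/-- the mixed hypotheses: `a` may be replaced by its adjoint alone -/
lemma EH.star_left (h : EH F a b) : EH F (Star.star a) b where
  as := h.star.as
  aL := h.star.aL
  bs := h.bs
  bL := h.bL
  ab := h.sab
  sab := by simpa using h.ab

/-- the mixed hypotheses: `b` may be replaced by its adjoint alone -/
lemma EH.star_right (h : EH F a b) : EH F a (Star.star b) := by
  simpa using h.star.star_left

lemma EH.a_ee (h : EH F a b) : Commute a (ee F) :=
  Commute.sum_right _ _ _ fun _ _ => (h.aL _).1.mul_right (h.aL _).2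

lemma EH.a_qq (h : EH F a b) : Commute a (qq F) :=
  Commute.sum_right _ _ _ fun _ _ => (h.aL _).1.mul_right (h.aL _).2

end Crest.Agent.R78F
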