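import Crest.Agent.R78F.TT

/-! # Row 78 (S0104): the algebraic identities `ZIStmt` -/

set_option autoImplicit false
set_option linter.unusedSectionVars false

namespace Crest.Agent.R78F

open scoped InnerProductSpace ComplexConjugate
open Finset Filter Topology Crest.Agent.R124

namespace ZI

variable {p : ℕ} [Fact p.Prime] {H : Type} [NormedAddCommGroup H] [InnerProductSpace ℂ H]
  [CompleteSpace H]

lemma cm_mul_left (x y a : Op H) : cm (x * y) a = x * cm y a + cm x a * y := by
  simp only [cm]; noncomm_ring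

lemma cm_neg_left (x a : Op H) : cm (-x) a = -cm x a := by
  simp only [cm]; noncomm_ring

lemma cm_smul_left (c : ℂ) (x a : Op H) : cm (c • x) a = c • cm x a := by
  simp only [cm, mul_smul_comm, smul_mul_assoc, smul_sub]

lemma cm_sum_left {α : Type} (s : Finset α) (x : α → Op H) (a : Op H) :
    cm (∑ i ∈ s, x i) a = ∑ i ∈ s, cm (x i) a := by
  simp only [cm, Finset.mul_sum, Finset.sum_mul, Finset.sum_sub_distrib]

lemma sum2_mul_sum2 {α : Type} [Fintype α] (c d : α → α → ℂ) (x y : α → α → Op H) :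
    (∑ k, ∑ j, c k j • x k j) * (∑ k, ∑ j, d k j • y k j) =
      ∑ k, ∑ j, ∑ k', ∑ j', (c k j * d k' j') • (x k j * y k' j') := by
  rw [sum_mul]
  refine sum_congr rfl fun k _ => ?_
  rw [sum_mul]
  refine sum_congr rfl fun j _ => ?_
  rw [mul_sum]
  refine sum_congr rfl fun k' _ => ?_
  rw [mul_sum]
  refine sum_congr rfl fun j' _ => ?_
  rw [smul_mul_smul_comm]

variable {F : DP p H} {a b : Op H}

lemma cm_t_a (h : EH F a b) : cm (tt F) a = ∑ k, ∑ j, cf p k j •
    (-(Dc (F.L k) a * F.L' (.inl (j + k)) * star (F.L' (.inr j)))) := by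
  simp only [tt, cm_sum_left, cm_smul_left, cm_mul_left, cm_eq_zero (h.aL _).1.symm,
    cm_eq_zero (h.aL _).2.symm, cm_eq_neg (h.as _), mul_zero, zero_add, neg_mul]

lemma cm_t_b (h : EH F a b) : cm (tt F) b = ∑ k, ∑ j, cf p k j •
    (F.L k * F.L' (.inl (j + k)) * Dc (F.L' (.inr j)) b -
      F.L k * Dc (F.L' (.inl (j + k))) b * star (F.L' (.inr j))) := by
  simp only [tt, cm_sum_left, cm_smul_left, cm_mul_left, cm_eq_zero (h.bL _).1.symm,
    cm_eq_neg (h.bs _), cm_star_eq, zero_mul, add_zero, neg_mul, mul_neg, sub_eq_add_neg]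

lemma cm_st_a (h : EH F a b) : cm (star (tt F)) a = ∑ k, ∑ j, conj (cf p k j) •
    (F.L' (.inr j) * star (F.L' (.inl (j + k))) * Dc (F.L k) a) := by
  simp only [star_tt, cm_sum_left, cm_smul_left, cm_mul_left, cm_eq_zero (h.aL _).1.symm,
    cm_eq_zero (h.aL _).2.symm, mul_zero, zero_mul, add_zero]
  simp only [cm_star_eq]

lemma cm_st_b (h : EH F a b) : cm (star (tt F)) b = ∑ k, ∑ j, conj (cf p k j) •
    (F.L' (.inr j) * Dc (F.L' (.inl (j + k))) b * star (F.L k) -
      Dc (F.L' (.inr j)) b * star (F.L' (.inl (j + k))) * star (F.L k)) := by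
  simp only [star_tt, cm_sum_left, cm_smul_left, cm_mul_left, cm_eq_zero (h.bL _).2.symm,
    cm_eq_neg (h.bs _), mul_zero, zero_add]
  simp only [cm_star_eq, neg_mul, add_mul, sub_eq_add_neg]

lemma part1 (h : EH F a b) : cm (cm (tt F) a) b = Z2 F a b - Z1 F a b := by
  rw [cm_t_a h]
  simp only [Z1, Z2, cm_sum_left, cm_smul_left, cm_neg_left, cm_mul_left, cm_eq_zero (h.D_b _),
    cm_eq_neg (h.bs _), cm_star_eq, zero_mul, add_zero, ← sum_sub_distrib, ← smul_sub]
  refine sum_congr rfl fun k _ => sum_congr rfl fun j _ => ?_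
  congr 1
  noncomm_ring

lemma mono2 (h : EH F a b) (k j k' j' : ZMod p) :
    (-(Dc (F.L k) a * F.L' (.inl (j + k)) * star (F.L' (.inr j)))) *
      (F.L' (.inr j') * Dc (F.L' (.inl (j' + k'))) b * star (F.L k') -
        Dc (F.L' (.inr j')) b * star (F.L' (.inl (j' + k'))) * star (F.L k')) =
    (Dc (F.L k) a * F.L' (.inl (j + k)) * Dc (F.L' (.inr j)) b) *
      (F.L' (.inr j') * star (F.L' (.inl (j' + k'))) * star (F.L k')) -
    if j = j' then (F.L' (.inl (j + k)) * Dc (F.L' (.inl (j' + k'))) b) *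
      (Dc (F.L k) a * star (F.L k')) else 0 := by
  have e1 := star_mul_Dc F.fk'.ll h.bs (.inr j) (.inr j')
  have e2 := mu_mu F j j'
  have e3 := (h.D_L' k (.inl (j + k))).eq
  have e4 := (h.D_D' k (.inl (j' + k'))).eq
  generalize Dc (F.L k) a = D at *
  generalize Dc (F.L' (.inl (j' + k'))) b = D1 at *
  generalize Dc (F.L' (.inr j')) b = D2 at *
  generalize Dc (F.L' (.inr j)) b = D3 at *
  generalize star (F.L k') = sl at *
  generalize star (F.L' (.inl (j' + k'))) = slam at *
  generalize star (F.L' (.inr j)) = smu at *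
  generalize F.L' (.inl (j + k)) = lam at *
  generalize F.L' (.inr j') = mu at *
  have e : (-(D * lam * smu)) * (mu * D1 * sl - D2 * slam * sl) =
      D * lam * (smu * D2) * slam * sl - D * lam * (smu * mu) * D1 * sl := by noncomm_ring
  rw [e, e1, e2]
  refine congrArg₂ (· - ·) (by noncomm_ring) ?_
  split_ifs
  · rw [mul_one, e3, mul_assoc lam, e4]; noncomm_ring
  · simp

lemma part2 (h : EH F a b) :
    cm (tt F) a * cm (star (tt F)) b = Z1 F a b * star (tt F) - S3 F a b := by
  rw [cm_t_a h, cm_st_b h, star_tt, Z1, sum2_mul_sum2, sum2_mul_sum2]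
  simp only [mono2 h, smul_sub, sum_sub_distrib, smul_ite, smul_zero, sum_ite_eq, mem_univ,
    if_true]
  congr 1
  simp only [S3, GE]
  exact sum_congr rfl fun k _ => sum_comm

lemma star_Z2 (h : EH F a b) : star (Z2 F (star a) (star b)) = ∑ k, ∑ j, conj (cf p k j) •
    (F.L' (.inr j) * Dc (F.L' (.inl (j + k))) b * Dc (F.L k) a) := by
  simp only [Z2, star_sum, star_smul, star_mul, h.star.star_D, h.star.star_D', star_star,
    mul_assoc, RCLike.star_def]

lemma mono3 (h : EH F a b) (k j k' j' : ZMod p) :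
    (F.L' (.inr j) * star (F.L' (.inl (j + k))) * Dc (F.L k) a) *
      (F.L k' * F.L' (.inl (j' + k')) * Dc (F.L' (.inr j')) b -
        F.L k' * Dc (F.L' (.inl (j' + k'))) b * star (F.L' (.inr j'))) =
    (if j + k - k' = j' then (F.L' (.inr j) * Dc (F.L' (.inr j')) b) *
      (Dc (F.L k) a * F.L k') else 0) -
    (F.L' (.inr j) * Dc (F.L' (.inl (j + k))) b * Dc (F.L k) a) *
      (F.L k' * F.L' (.inl (j' + k')) * star (F.L' (.inr j'))) := by
  have e1 := star_mul_Dc F.fk'.ll h.bs (.inl (j + k)) (.inl (j' + k'))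
  have e2 := lam_lam F (j + k) (j' + k')
  simp only [← sub_eq_iff_eq_add] at e2
  have c1 : Commute (star (F.L' (.inl (j + k)))) (Dc (F.L k) a * F.L k') :=
    (h.D_sL' k _).symm.mul_right (F.cLL.cs k' _).symm
  have c2 : Commute (Dc (F.L' (.inr j')) b) (Dc (F.L k) a * F.L k') :=
    (h.D_D' k _).symm.mul_right (h.L_D' k' _).symm
  have c3 : Commute (Dc (F.L' (.inl (j + k))) b) (Dc (F.L k) a * F.L k') :=
    (h.D_D' k _).symm.mul_right (h.L_D' k' _).symm
  have e3 := c1.eq
  have e4 := c2.eq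
  have e5 := c3.eq
  clear c1 c2 c3
  generalize Dc (F.L k) a = D at *
  generalize Dc (F.L' (.inl (j' + k'))) b = D1 at *
  generalize Dc (F.L' (.inr j')) b = D2 at *
  generalize Dc (F.L' (.inl (j + k))) b = D3 at *
  generalize star (F.L' (.inl (j + k))) = slam at *
  generalize star (F.L' (.inr j')) = smu at *
  generalize F.L' (.inl (j' + k')) = lam at *
  generalize F.L' (.inr j) = mu at *
  generalize F.L k' = l at *
  have e : (mu * slam * D) * (l * lam * D2 - l * D1 * smu) =
      mu * (slam * (D * l)) * lam * D2 - mu * (slam * (D * l)) * D1 * smu := by noncomm_ring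
  have e' : mu * (D * l * slam) * lam * D2 - mu * (D * l * slam) * D1 * smu =
      mu * (D * l) * (slam * lam) * D2 - mu * (D * l) * (slam * D1) * smu := by noncomm_ring
  rw [e, e3, e', e1, e2]
  congr 1
  · split_ifs
    · rw [mul_one, mul_assoc mu, ← e4]; noncomm_ring
    · simp
  · have : mu * (D * l) * (D3 * lam) * smu = mu * (D * l * D3) * lam * smu := by noncomm_ring
    rw [this, ← e5]; noncomm_ring

lemma part3 (h : EH F a b) :
    cm (star (tt F)) a * cm (tt F) b = S4 F a b - star (Z2 F (star a) (star b)) * tt F := by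
  rw [cm_st_a h, cm_t_b h, star_Z2 h, tt, sum2_mul_sum2, sum2_mul_sum2]
  simp only [mono3 h, smul_sub, sum_sub_distrib, smul_ite, smul_zero, sum_ite_eq, mem_univ,
    if_true]
  rfl

end ZI

theorem ziStmt : ZIStmt := fun _ _ _ _ _ _ _ _ _ h => ⟨ZI.part1 h, ZI.part2 h, ZI.part3 h⟩

end Crest.Agent.R78F
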