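import Crest.Agent.R78F.ZI

/-! # Row 78 (S0104): norm bounds for `Z1`, `Z2`, `S3`, `S4` -/

set_option autoImplicit false
set_option linter.unusedSectionVars false

namespace Crest.Agent.R78F

open scoped InnerProductSpace ComplexConjugate
open Finset Crest.Agent.R124

namespace ZNb
variable {p : ℕ} [Fact p.Prime] {H : Type} [NormedAddCommGroup H] [InnerProductSpace ℂ H]
  [CompleteSpace H] {F : DP p H} {a b : Op H}

lemma mono1 (h : EH F a b) (k j k' j' : ZMod p) :
    star (Dc (F.L k) a * F.L' (.inl (j + k)) * Dc (F.L' (.inr j)) b) *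
      (Dc (F.L k') a * F.L' (.inl (j' + k')) * Dc (F.L' (.inr j')) b) =
    if j + k - k' = j' then (star (Dc (F.L' (.inr j)) b) * Dc (F.L' (.inr j')) b) *
      (star (Dc (F.L k) a) * Dc (F.L k') a) else 0 := by
  have hX : ∀ m, Commute (star (Dc (F.L k) a) * Dc (F.L k') a) (F.L' m) := fun m => by
    rw [h.star_D]; exact (h.star_left.D_L' k m).mul_left (h.D_L' k' m)
  have hX' : ∀ m, Commute (star (Dc (F.L k) a) * Dc (F.L k') a) (Dc (F.L' m) b) := fun m => by
    rw [h.star_D]; exact (h.star_left.D_D' k m).mul_left (h.D_D' k' m)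
  calc _ = star (Dc (F.L' (.inr j)) b) * (star (F.L' (.inl (j + k))) *
        ((star (Dc (F.L k) a) * Dc (F.L k') a) * F.L' (.inl (j' + k'))) *
          Dc (F.L' (.inr j')) b) := by simp only [star_mul, mul_assoc]
    _ = star (Dc (F.L' (.inr j)) b) * ((star (F.L' (.inl (j + k))) * F.L' (.inl (j' + k'))) *
        ((star (Dc (F.L k) a) * Dc (F.L k') a) * Dc (F.L' (.inr j')) b)) := by
      rw [(hX _).eq]; simp only [mul_assoc]
    _ = _ := by
      rw [lam_lam, (hX' _).eq]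
      simp only [sub_eq_iff_eq_add]
      split_ifs <;> simp [mul_assoc]

lemma mono2 (h : EH F a b) (k j k' j' : ZMod p) :
    (Dc (F.L k) a * Dc (F.L' (.inl (j + k))) b * star (F.L' (.inr j))) *
      star (Dc (F.L k') a * Dc (F.L' (.inl (j' + k'))) b * star (F.L' (.inr j'))) =
    if j = j' then (Dc (F.L' (.inl (j + k))) b * star (Dc (F.L' (.inl (j' + k'))) b)) *
      (Dc (F.L k) a * star (Dc (F.L k') a)) else 0 := by
  have hX : Commute (Dc (F.L k) a)
      (Dc (F.L' (.inl (j + k))) b * star (Dc (F.L' (.inl (j' + k'))) b)) := by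
    rw [h.star_D']; exact (h.D_D' k _).mul_right (h.star_right.D_D' k _)
  calc _ = Dc (F.L k) a * (Dc (F.L' (.inl (j + k))) b * (star (F.L' (.inr j)) * F.L' (.inr j')) *
        star (Dc (F.L' (.inl (j' + k'))) b)) * star (Dc (F.L k') a) := by
        simp only [star_mul, star_star, mul_assoc]
    _ = _ := by
      rw [mu_mu]
      split_ifs
      · rw [mul_one, hX.eq, mul_assoc]
      · simp

lemma Z1_sq (h : EH F a b) : star (Z1 F a b) * Z1 F a b =
    GC p (fun j j' => star (Dc (F.L' (.inr j)) b) * Dc (F.L' (.inr j')) b)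
      (fun k k' => star (Dc (F.L k) a) * Dc (F.L k') a) := by
  simp only [Z1, star_sum, star_smul, RCLike.star_def]
  rw [ZI.sum2_mul_sum2]
  simp only [mono1 h, smul_ite, smul_zero, sum_ite_eq, mem_univ, if_true, GC]

lemma Z2_sq (h : EH F a b) : Z2 F a b * star (Z2 F a b) =
    GE p (fun i i' => Dc (F.L' (.inl i)) b * star (Dc (F.L' (.inl i')) b))
      (fun k k' => Dc (F.L k) a * star (Dc (F.L k') a)) := by
  simp only [Z2, star_sum, star_smul, RCLike.star_def]
  rw [ZI.sum2_mul_sum2]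
  simp only [mono2 h, smul_ite, smul_zero, sum_ite_eq, mem_univ, if_true, GE]
  exact sum_congr rfl fun k _ => sum_comm

lemma le_of_sq {z x y : ℝ} (hx : 0 ≤ x) (hy : 0 ≤ y)
    (h : z * z ≤ 2 * (2 * x * (2 * x)) * (2 * y * (2 * y)) / √(p : ℝ)) :
    z ≤ 6 * x * y / √√(p : ℝ) := by
  refine le_of_sq_le_sq (h.trans' (sq z).le |>.trans ?_) (by positivity)
  rw [div_pow, Real.sq_sqrt (Real.sqrt_nonneg _)]
  gcongr
  nlinarith [sq_nonneg (x * y)]

lemma four (hF : FourStmt) (hp : p ≠ 2) (y y' x x' : ZMod p → Op H) {α β β' : ℝ} (hα : 0 ≤ α)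
    (hβ : 0 ≤ β) (hβ' : 0 ≤ β') (hy : Row y β) (hy' : Row y' β') (hy'' : Col y' β')
    (hx : Col (fun kk : ZMod p × ZMod p => x kk.1 * x' kk.2) α) :
    ‖GC p (fun j j' => y j * y' j') (fun k k' => x k * x' k')‖ ≤ 2 * α * (β * β') / √(p : ℝ) ∧
    ‖GE p (fun j j' => y j * y' j') (fun k k' => x k * x' k')‖ ≤ 2 * α * (β * β') / √(p : ℝ) :=
  hF p hp H (fun j j' => y j * y' j') (fun k k' => x k * x' k') α (β * β') hα (mul_nonneg hβ hβ')
    (hy.prod hy') (norm_sum_mul_le hy hy'' hβ hβ') hx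

end ZNb

theorem znStmt' (hF : FourStmt) : ZNStmt := by
  intro p _ hp H _ _ _ F a b h
  have cD := col_Dc F.fk.ll a
  have rD := row_Dc F.fk.ll h.as
  have cD' := col_Dc F.fk'.ll b
  have rD' := row_Dc F.fk'.ll h.bs
  have cl := cD'.comp Sum.inl Sum.inl_injective
  have cr := cD'.comp Sum.inr Sum.inr_injective
  have rl := rD'.comp Sum.inl Sum.inl_injective
  have rr := rD'.comp Sum.inr Sum.inr_injective
  have rL := F.fk'.row_L.comp Sum.inl Sum.inl_injective
  have rM := F.fk'.row_L.comp Sum.inr Sum.inr_injective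
  have ha := norm_nonneg a
  have hb := norm_nonneg b
  have ha2 : 0 ≤ 2 * ‖a‖ := by positivity
  have hb2 : 0 ≤ 2 * ‖b‖ := by positivity
  refine ⟨ZNb.le_of_sq ha hb ?_, ZNb.le_of_sq ha hb ?_, ?_, ?_⟩
  · rw [← CStarRing.norm_star_mul_self, ZNb.Z1_sq h]
    exact (ZNb.four hF hp _ _ _ _ (mul_nonneg ha2 ha2) hb2 hb2 (row_star_iff.2 cr) rr cr
      (Col.prod rD cD)).1
  · rw [← CStarRing.norm_self_mul_star, ZNb.Z2_sq h]
    exact (ZNb.four hF hp _ _ _ _ (mul_nonneg ha2 ha2) hb2 hb2 rl (row_star_iff.2 cl) rl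
      (Col.prod cD rD)).2
  · refine (ZNb.four hF hp _ _ _ _ (mul_nonneg ha2 zero_le_one) zero_le_one hb2 rL rl cl
      (Col.prod cD F.fk.col_sL)).2.trans_eq ?_
    ring
  · have hX : Col (fun kk : ZMod p × ZMod p => Dc (F.L kk.1) a * F.L kk.2) (1 * (2 * ‖a‖)) := by
      simpa only [star_mul_Dc F.fk.ll h.as] using Col.prod F.fk.col_sL cD
    refine (ZNb.four hF hp _ _ (fun k => Dc (F.L k) a) F.L (mul_nonneg zero_le_one ha2) zero_le_one
      hb2 rM rr cr hX).1.trans_eq ?_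
    ring

end Crest.Agent.R78F
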